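import Vale.Agent.P245C.Drop

/-! The defective inequality at the level of the dimension. -/

open MeasureTheory ProbabilityTheory Real Set Filter Topology
open scoped ENNReal RealInnerProductSpace

noncomputable section

namespace Vale.Agent.P245B

open Vale.Agent.P245 (Ent gibbs Ent_nonneg)

set_option linter.unusedSectionVars false

variable {E : Type} [NormedAddCommGroup E] [InnerProductSpace ℝ E] [FiniteDimensional ℝ E]
  [CompleteSpace E] [MeasurableSpace E] [BorelSpace E]

namespace Base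

theorem bm {F : E → ℝ} (h : PB F) : Chan.BM F := by
  obtain ⟨C, -, hC⟩ := h.bdd
  exact ⟨h.1, C, fun x => (hC x).1⟩

theorem bm_log {F : E → ℝ} (h : PB F) : Chan.BM fun x => log (F x) := by
  obtain ⟨C, -, hC⟩ := h.bdd
  exact ⟨h.1.log, C, fun x => (hC x).2.1⟩

theorem bm_heat {s : ℝ} (hs : 0 < s) {H : E → ℝ} (hH : Chan.BM H) :
    Chan.BM fun x => ∫ y, H y * ga s (y - x) := by
  obtain ⟨hm, C, hC⟩ := id hH
  refine ⟨Chan.heat_meas s hm, C, fun x => abs_le.2 ?_⟩
  exact Chan.heat_bd hs hH (fun y => abs_le.1 (hC y)) x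

theorem ko_mul {V f : E → ℝ} {s : ℝ} (hV : Pot V 0) (hs : 0 < s) (a : E) :
    Ko V s f a * exp (-Vt (ms V) s a) = ∫ x, f x * ga s (a - x) ∂ms V := by
  have := hV.prob
  have hp := pf_pos hV.cv hs a
  rw [pf_Vt hV.cv hs, Ko_eq hV.cv hs, integral_ms hV.diff.continuous.measurable, smul_eq_mul,
    mul_comm, ← mul_assoc, mul_inv_cancel₀ hp.ne', one_mul]
  exact integral_congr_ae (Eventually.of_forall fun x => by simp only [smul_eq_mul]; ring)

theorem nsq_le (x y b : E) : ‖y - x‖ ^ 2 ≤ 2 * (‖y - b‖ ^ 2 + ‖x - b‖ ^ 2) := by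
  have h1 : ‖y - x‖ ≤ ‖y - b‖ + ‖x - b‖ := by
    have := norm_sub_le (y - b) (x - b)
    rwa [sub_sub_sub_cancel_right] at this
  have h2 : ‖y - x‖ ^ 2 ≤ (‖y - b‖ + ‖x - b‖) ^ 2 := by gcongr
  nlinarith [sq_nonneg (‖y - b‖ - ‖x - b‖)]

theorem xg_sq (b : E) : XG fun x : E => ‖x - b‖ ^ 2 := by
  have h : XG fun x : E => ‖x - b‖ := (TailL.xg_sub b).of_le fun x => by simp
  simpa only [sq] using h.mul h

end Base

open Base in
theorem ent_conv_le {V f : E → ℝ} {b : E} {L s : ℝ} (hV : Pot V 0) (h : SG (ms V) b L 0)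
    (hL : 0 < L) (hs : 0 < s) (hf : PB f) (h1 : ∫ x, f x ∂ms V = 1) :
    s * Hh (ms (Vt (ms V) s)) (Ko V s f) ≤ 8 * L * (Hh (ms V) f + Module.finrank ℝ E) := by
  have := hV.prob
  have hK : PB (Ko V s f) := Ko_pb hV.cv hs hf
  have hVm : Measurable (Vt (ms V) s) := (Vt_diff hs).continuous.measurable
  have ht := h.tail hL
  have e1 : Hh (ms (Vt (ms V) s)) (Ko V s f) =
      ∫ x, f x * (∫ y, log (Ko V s f y) * ga s (y - x)) ∂ms V := by
    rw [← (Chan.swap hs (bm hf) (bm_log hK)).2, Hh, integral_ms hVm]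
    refine integral_congr_ae (Eventually.of_forall fun y => ?_)
    simp only
    rw [← ko_mul hV hs y]
    ring
  have e2 : ∫ x, (∫ y, Ko V s f y * ga s (y - x)) ∂ms V = 1 := by
    have h2 := (Chan.swap (μ := ms V) hs (Chan.bm_const 1) (bm hK)).2
    simp only [one_mul] at h2
    rw [← h2, ← h1, ← (Chan.swap1 hs (bm hf)).2]
    refine integral_congr_ae (Eventually.of_forall fun y => ?_)
    simp only
    rw [← ko_mul hV hs y, exp_Vt hs, mul_comm]
  have hq : Integrable (fun x : E => ‖x - b‖ ^ 2) (ms V) :=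
    ht.int (by fun_prop) (xg_sq b)
  have hP := (bm_heat hs (bm hK)).int (μ := ms V)
  have hpos : ∀ x, 0 < ∫ y, Ko V s f y * ga s (y - x) := fun x => by
    obtain ⟨c, C, hc, hb⟩ := hK.2
    exact hc.trans_le (Chan.heat_bd hs (bm hK) hb x).1
  have e3 : ∀ y, s * ∫ w, log (Ko V s f w) * ga s (w - y) ≤
      ‖y - b‖ ^ 2 + ∫ x, ‖x - b‖ ^ 2 ∂ms V := fun y => by
    obtain ⟨hm, M, hM⟩ := bm_log hK
    have h3 : ∀ x, s * ∫ w, log (Ko V s f w) * ga s (w - y) ≤
        (s * ((∫ w, Ko V s f w * ga s (w - x)) - 1) + ‖y - b‖ ^ 2) + ‖x - b‖ ^ 2 := fun x => by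
      have h4 := harnack hs hm hM x y
      simp only [exp_log (hK.pos _)] at h4
      have h5 := log_le_sub_one_of_pos (hpos x)
      have h6 : s * (‖y - x‖ ^ 2 / (2 * s)) = ‖y - x‖ ^ 2 / 2 := by field_simp
      have h7 := mul_le_mul_of_nonneg_left (h4.trans (add_le_add_left h5 _)) hs.le
      rw [mul_add, h6] at h7
      linarith [nsq_le x y b]
    have hi : Integrable (fun x => s * ((∫ w, Ko V s f w * ga s (w - x)) - 1)) (ms V) :=
      (hP.sub (integrable_const 1)).const_mul s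
    have h8 := integral_mono (integrable_const _) ((hi.add (integrable_const _)).add hq) h3
    rw [integral_add' (hi.add (integrable_const _)) hq, integral_add' hi (integrable_const _),
      integral_const_mul s fun x => (∫ w, Ko V s f w * ga s (w - x)) - 1,
      integral_sub hP (integrable_const _), e2] at h8
    simpa using h8
  have hfx : XG f := by
    obtain ⟨C, -, hC⟩ := hf.bdd
    exact XG.of_bdd fun x => (hC x).1
  have hfq : Integrable (fun x : E => f x * ‖x - b‖ ^ 2) (ms V) :=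
    ht.int (hf.1.mul (by fun_prop)).aestronglyMeasurable (hfx.mul (xg_sq b))
  have e4 : s * Hh (ms (Vt (ms V) s)) (Ko V s f) ≤
      ∫ x, f x * ‖x - b‖ ^ 2 ∂ms V + ∫ x, ‖x - b‖ ^ 2 ∂ms V := by
    have hi := ((bm hf).mul (bm_heat hs (bm_log hK))).int (μ := ms V)
    have h9 := integral_mono (hi.const_mul s)
      (hfq.add ((hf.int (ms V)).mul_const (∫ x, ‖x - b‖ ^ 2 ∂ms V))) fun y => by
        have := mul_le_mul_of_nonneg_left (e3 y) (hf.pos y).le
        simp only [Pi.add_apply]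
        linarith
    rwa [integral_const_mul, ← e1, integral_add' hfq ((hf.int (ms V)).mul_const _),
      integral_mul_const, h1, one_mul] at h9
  have e5 := h.second hL hf.1 (fun x => (hf.pos x).le) hfx
  have e6 := h.second hL (w := fun _ => 1) measurable_const (fun _ => zero_le_one)
    (XG.of_bdd (C := 1) fun _ => by simp)
  simp only [Ent, h1, log_one, mul_zero, sub_zero, one_mul, add_zero, integral_const,
    probReal_univ, smul_eq_mul, mul_one, zero_add] at e5 e6
  unfold Hh at e4 ⊢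
  linarith

theorem dl_base {V : E → ℝ} {b : E} {L : ℝ} (hV : Pot V 0) (h : SG (ms V) b L 0) (hL : 0 < L) :
    DL (ms V) (64 * L) (Module.finrank ℝ E) := by
  have := hV.prob
  intro g hg
  have hs : 0 < 16 * L := by positivity
  have := Vt_prob (μ := ms V) hs
  obtain ⟨Z, hZ⟩ : ∃ Z, Z = ∫ x, exp (g x) ∂ms V := ⟨_, rfl⟩
  have hZ0 : 0 < Z := hZ ▸ hg.pb.int_pos _
  obtain ⟨hg', hgr⟩ := hg.add_const (-log Z)
  have ex : ∀ x, exp (g x + -log Z) = Z⁻¹ * exp (g x) := fun x => by
    rw [exp_add, exp_neg, exp_log hZ0, mul_comm]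
  have h1 : ∫ x, exp (g x + -log Z) ∂ms V = 1 := by
    simp only [ex]
    rw [integral_const_mul, ← hZ, inv_mul_cancel₀ hZ0.ne']
  have h2 := ent_conv_le hV h hL hs hg'.pb h1
  have h3 := drop_le_fi hV.cv hs (dis_fw hV.cv hs) hg'
  have h4 : Z * Fi (ms V) (fun x => g x + -log Z) = Fi (ms V) g := by
    unfold Fi
    rw [← integral_const_mul]
    refine integral_congr_ae (Eventually.of_forall fun x => ?_)
    simp only [hgr, ex]
    field_simp
  have h5 : Z * Hh (ms V) (fun x => exp (g x + -log Z)) = Ent (ms V) fun x => exp (g x) := by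
    unfold Hh Ent
    rw [← integral_const_mul, ← hZ]
    conv_rhs => rw [hZ, ← integral_mul_const, ← hZ]
    rw [← integral_sub (hg.pb.int_log _) ((hg.pb.int _).mul_const _)]
    refine integral_congr_ae (Eventually.of_forall fun x => ?_)
    simp only [log_exp]
    rw [ex]
    field_simp
    ring
  have h6 : Hh (ms V) (fun x => exp (g x + -log Z)) ≤
      64 * L / 4 * Fi (ms V) (fun x => g x + -log Z) + Module.finrank ℝ E := by
    have h7 : 2 * Hh (ms (Vt (ms V) (16 * L))) (Ko V (16 * L) fun x => exp (g x + -log Z)) ≤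
        Hh (ms V) (fun x => exp (g x + -log Z)) + Module.finrank ℝ E :=
      le_of_mul_le_mul_left (by linarith) (show 0 < 8 * L by positivity)
    linarith
  rw [← h5, ← h4, ← hZ]
  have := mul_le_mul_of_nonneg_left h6 hZ0.le
  linarith

end Vale.Agent.P245B
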