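import Vale.Agent.P245C.Defs

/-! Elementary facts on the classes of functions. -/

open MeasureTheory ProbabilityTheory Real Set Filter Topology
open scoped ENNReal RealInnerProductSpace

noncomputable section

namespace Vale.Agent.P245B

open Vale.Agent.P245 (Ent gibbs Ent_nonneg)

set_option linter.unusedSectionVars false

variable {E : Type} [NormedAddCommGroup E] [InnerProductSpace ℝ E] [FiniteDimensional ℝ E]
  [CompleteSpace E] [MeasurableSpace E] [BorelSpace E]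

variable {g : E → ℝ} {μ : Measure E}

namespace Cls

theorem grad (hg : ContDiff ℝ 1 g) {φ : ℝ → ℝ} {a : ℝ} {x : E} (h : HasDerivAt φ a (g x)) :
    gradient (fun x => φ (g x)) x = a • gradient g x := by
  refine ext_inner_right ℝ fun v => ?_
  have h1 : HasFDerivAt (fun x => φ (g x)) (a • fderiv ℝ g x) x :=
    h.comp_hasFDerivAt x (hg.differentiable (by norm_num) x).hasFDerivAt
  rw [real_inner_smul_left, inner_grad, inner_grad, h1.fderiv]
  rfl

theorem log_le {c C t : ℝ} (hc : 0 < c) (h1 : c ≤ t) (h2 : t ≤ C) :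
    |log t| ≤ |log c| + |log C| := by
  have i1 := log_le_log hc h1
  have i2 := log_le_log (hc.trans_le h1) h2
  have := abs_nonneg (log c)
  have := abs_nonneg (log C)
  rw [abs_le]
  exact ⟨by linarith [neg_abs_le (log c)], by linarith [le_abs_self (log C)]⟩

theorem of_lint {B : Type} [MeasurableSpace B] {ρ : Measure B} {f : B → ℝ} (hm : Measurable f)
    (h0 : ∀ x, 0 ≤ f x) {A : ℝ} (hA : 0 ≤ A)
    (h : ∫⁻ x, ENNReal.ofReal (f x) ∂ρ ≤ ENNReal.ofReal A) :
    Integrable f ρ ∧ ∫ x, f x ∂ρ ≤ A := by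
  refine ⟨⟨hm.aestronglyMeasurable, (hasFiniteIntegral_iff_ofReal (ae_of_all _ h0)).2
    (h.trans_lt ENNReal.ofReal_lt_top)⟩, ?_⟩
  rw [integral_eq_lintegral_of_nonneg_ae (ae_of_all _ h0) hm.aestronglyMeasurable]
  exact ENNReal.toReal_le_of_le_ofReal hA h

end Cls

theorem Bd.lc (hg : Bd g) : Lc g := by
  obtain ⟨h, M, hM⟩ := hg
  exact ⟨h, M, fun x => (hM x).2⟩

theorem Tst.bd (hg : Tst g) : Bd g := by
  obtain ⟨M, -, hM⟩ := hg.bdd
  exact ⟨hg.1.of_le (by norm_num), M, hM⟩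

theorem Bd.cont (hg : Bd g) : Continuous g := hg.1.continuous

theorem Lc.grad_cont (hg : Lc g) : Continuous (gradient g) :=
  (InnerProductSpace.toDual ℝ E).symm.continuous.comp (hg.1.continuous_fderiv (by norm_num))

theorem Lc.lg (hg : Lc g) : LG g := by
  obtain ⟨h, M, hM⟩ := hg
  refine LG.of_lip (R := M) fun x y => ?_
  exact convex_univ.norm_image_sub_le_of_norm_fderiv_le (𝕜 := ℝ) (f := g)
    (fun z _ => h.differentiable (by norm_num) z) (fun z _ => by rw [← norm_grad]; exact hM z)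
    (mem_univ y) (mem_univ x)

theorem Bd.pb (hg : Bd g) : PB fun x => exp (g x) := by
  obtain ⟨h, M, hM⟩ := hg
  exact ⟨h.continuous.measurable.exp, exp (-M), exp M, exp_pos _, fun x =>
    ⟨exp_le_exp.2 (abs_le.1 (hM x).1).1, exp_le_exp.2 (abs_le.1 (hM x).1).2⟩⟩

theorem Bd.add_const (hg : Bd g) (c : ℝ) :
    Bd (fun x => g x + c) ∧ ∀ x, gradient (fun x => g x + c) x = gradient g x := by
  obtain ⟨h, M, hM⟩ := hg
  have e : ∀ x, gradient (fun x => g x + c) x = gradient g x := fun x => by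
    rw [Cls.grad h (φ := fun t => t + c) ((hasDerivAt_id (g x)).add_const c), one_smul]
  refine ⟨⟨h.add contDiff_const, M + |c|, fun x => ⟨?_, ?_⟩⟩, e⟩
  · exact (abs_add_le _ _).trans (by linarith [(hM x).1])
  · rw [e]
    linarith [(hM x).2, abs_nonneg c]

theorem Bd.log_sq (hg : Bd g) {d : ℝ} (hd : 0 < d) : Bd (fun x => log (g x ^ 2 + d)) ∧ ∀ x,
    gradient (fun x => log (g x ^ 2 + d)) x = (2 * g x / (g x ^ 2 + d)) • gradient g x := by
  obtain ⟨h, M, hM⟩ := hg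
  have h1 : ∀ x, 0 < g x ^ 2 + d := fun x => by positivity
  have e : ∀ x, gradient (fun x => log (g x ^ 2 + d)) x =
      (2 * g x / (g x ^ 2 + d)) • gradient g x := fun x => by
    refine Cls.grad h (φ := fun t => log (t ^ 2 + d)) ?_
    simpa using ((hasDerivAt_pow 2 (g x)).add_const d).log (h1 x).ne'
  have M0 : 0 ≤ M := (abs_nonneg _).trans (hM 0).1
  refine ⟨⟨((h.pow 2).add contDiff_const).log fun x => (h1 x).ne',
    |log d| + |log (M ^ 2 + d)| + 2 * M / d * M, fun x => ⟨?_, ?_⟩⟩, e⟩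
  · have i1 : g x ^ 2 ≤ M ^ 2 := by
      rw [← sq_abs]
      exact pow_le_pow_left₀ (abs_nonneg _) (hM x).1 2
    have i2 := Cls.log_le (t := g x ^ 2 + d) (C := M ^ 2 + d) hd (by nlinarith) (by linarith)
    have i3 : 0 ≤ 2 * M / d * M := by positivity
    linarith
  · rw [e, norm_smul, Real.norm_eq_abs, abs_div, abs_mul, abs_two, abs_of_pos (h1 x)]
    have i1 : 2 * |g x| / (g x ^ 2 + d) ≤ 2 * M / d :=
      div_le_div₀ (by positivity) (by linarith [(hM x).1]) hd (by nlinarith)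
    have i2 := mul_le_mul i1 (hM x).2 (norm_nonneg _) (by positivity)
    linarith [abs_nonneg (log d), abs_nonneg (log (M ^ 2 + d))]

theorem Fi_nonneg (μ : Measure E) (g : E → ℝ) : 0 ≤ Fi μ g :=
  integral_nonneg fun _ => by positivity

theorem DL.mono {k k' D D' : ℝ} (h : DL μ k D) (hk : k ≤ k') (hD : D ≤ D') : DL μ k' D' := by
  intro g hg
  have h1 : 0 ≤ ∫ x, exp (g x) ∂μ := integral_nonneg fun _ => (exp_pos _).le
  have h2 := mul_le_mul_of_nonneg_right hD h1
  have h3 := mul_le_mul_of_nonneg_right hk (Fi_nonneg μ g)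
  linarith [h g hg]

section PB

variable {B : Type} [MeasurableSpace B] {F G : B → ℝ}

theorem PB.pos (h : PB F) (b : B) : 0 < F b := by
  obtain ⟨-, c, C, hc, h⟩ := h
  exact hc.trans_le (h b).1

theorem PB.mul (h : PB F) (h' : PB G) : PB fun b => F b * G b := by
  obtain ⟨m, c, C, hc, h⟩ := h
  obtain ⟨m', c', C', hc', h'⟩ := h'
  refine ⟨m.mul m', c * c', C * C', mul_pos hc hc', fun b => ⟨?_, ?_⟩⟩
  · exact mul_le_mul (h b).1 (h' b).1 hc'.le (hc.le.trans (h b).1)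
  · exact mul_le_mul (h b).2 (h' b).2 (hc'.le.trans (h' b).1) ((hc.le.trans (h b).1).trans (h b).2)

theorem PB.bdd (h : PB F) : ∃ C : ℝ, 0 ≤ C ∧ ∀ b, |F b| ≤ C ∧ |log (F b)| ≤ C ∧
    |F b * log (F b)| ≤ C ∧ |(F b)⁻¹| ≤ C := by
  obtain ⟨-, c, C, hc, h⟩ := h
  have a1 := abs_nonneg C
  have a2 := abs_nonneg (log c)
  have a3 := abs_nonneg (log C)
  have a4 : 0 ≤ c⁻¹ := by positivity
  have a5 := sq_nonneg C
  refine ⟨|C| + (|log c| + |log C|) + (C ^ 2 + 1) + c⁻¹, by positivity, fun b => ?_⟩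
  have p := hc.trans_le (h b).1
  have i1 : |F b| ≤ |C| := by
    rw [abs_of_pos p]
    exact (h b).2.trans (le_abs_self C)
  have i2 := Cls.log_le hc (h b).1 (h b).2
  have i3 := Vale.Agent.P245.abs_mul_log_le p.le (h b).2
  have i4 : |(F b)⁻¹| ≤ c⁻¹ := by
    rw [abs_of_pos (inv_pos.2 p)]
    exact inv_anti₀ hc (h b).1
  exact ⟨by linarith, by linarith, by linarith, by linarith⟩

theorem PB.int (h : PB F) (ρ : Measure B) [IsFiniteMeasure ρ] : Integrable F ρ := by
  obtain ⟨C, -, hC⟩ := h.bdd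
  exact Vale.Agent.P245.integrable_of_bdd h.1 fun b => (hC b).1

theorem PB.int_log (h : PB F) (ρ : Measure B) [IsFiniteMeasure ρ] :
    Integrable (fun b => F b * log (F b)) ρ := by
  obtain ⟨C, -, hC⟩ := h.bdd
  exact Vale.Agent.P245.integrable_of_bdd (h.1.mul h.1.log) fun b => (hC b).2.2.1

theorem PB.int_pos (h : PB F) (ρ : Measure B) [IsProbabilityMeasure ρ] : 0 < ∫ b, F b ∂ρ := by
  have hi := h.int ρ
  obtain ⟨-, c, C, hc, h⟩ := h
  have := integral_mono (integrable_const c) hi fun b => (h b).1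
  simp only [integral_const, probReal_univ, one_smul] at this
  exact hc.trans_le this

theorem Hh_nonneg (h : PB F) (ρ : Measure B) [IsProbabilityMeasure ρ] (h1 : ∫ b, F b ∂ρ = 1) :
    0 ≤ Hh ρ F := by
  have := Ent_nonneg (μ := ρ) (fun b => (h.pos b).le) (h.int ρ) (h.int_log ρ)
  simpa [Ent, Hh, h1] using this

/-- Averaging against a Markov kernel. -/
theorem PB.kernel {A : Type} [MeasurableSpace A] (h : PB F) (κ : Kernel A B) [IsMarkovKernel κ] :
    PB fun a => ∫ b, F b ∂κ a := by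
  have hi := fun a => h.int (κ a)
  obtain ⟨m, c, C, hc, h⟩ := h
  refine ⟨m.stronglyMeasurable.integral_kernel.measurable, c, C, hc, fun a => ⟨?_, ?_⟩⟩
  · simpa using integral_mono (integrable_const c) (hi a) fun b => (h b).1
  · simpa using integral_mono (hi a) (integrable_const C) fun b => (h b).2

theorem int_comp {A : Type} [MeasurableSpace A] {H : Type} [NormedAddCommGroup H]
    [NormedSpace ℝ H] (ma : Measure A) (κ : Kernel A B) {u : B → H}
    (hu : Integrable u (κ ∘ₘ ma)) : ∫ b, u b ∂(κ ∘ₘ ma) = ∫ a, ∫ b, u b ∂κ a ∂ma := by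
  rw [Measure.comp_eq_comp_const_apply] at hu ⊢
  rw [Kernel.integral_comp hu, Kernel.const_apply]

/-- The mean of a subgaussian vector under a change of measure. -/
theorem mean_abs {ρ : Measure B} [IsProbabilityMeasure ρ] {ξ : B → E} (hξ : Measurable ξ) {L : ℝ}
    (hL : 0 < L) (h : ∀ θ : E, ∫⁻ b, ENNReal.ofReal (exp ⟪θ, ξ b⟫) ∂ρ ≤
      ENNReal.ofReal (exp (L * ‖θ‖ ^ 2))) (hF : PB F) :
    Integrable ξ ρ ∧ ‖∫ b, F b • ξ b ∂ρ‖ ^ 2 ≤ 4 * L * (∫ b, F b ∂ρ) * Ent ρ F := by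
  have hm : ∀ θ : E, Measurable fun b => ⟪θ, ξ b⟫ := fun θ => measurable_const.inner hξ
  have he := fun θ : E =>
    Cls.of_lint (hm θ).exp (fun _ => (exp_pos _).le) (exp_pos _).le (h θ)
  have hi : ∀ θ : E, Integrable (fun b => ⟪θ, ξ b⟫) ρ := fun θ => by
    refine ((he θ).1.add (he (-θ)).1).mono' (hm θ).aestronglyMeasurable (ae_of_all _ fun b => ?_)
    simp only [Pi.add_apply, inner_neg_left, Real.norm_eq_abs]
    have a1 := add_one_le_exp ⟪θ, ξ b⟫
    have a2 := add_one_le_exp (-⟪θ, ξ b⟫)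
    have a3 := exp_pos ⟪θ, ξ b⟫
    have a4 := exp_pos (-⟪θ, ξ b⟫)
    rw [abs_le]
    constructor <;> linarith
  have hx : Integrable ξ ρ := by
    have e := stdOrthonormalBasis ℝ E
    have h1 := integrable_finsetSum (μ := ρ) Finset.univ
      (f := fun i b => ⟪e i, ξ b⟫ • e i) fun i _ => (hi (e i)).smul_const _
    simpa only [e.sum_repr'] using h1
  refine ⟨hx, ?_⟩
  obtain ⟨C, -, hC⟩ := hF.bdd
  have hM := hF.int_pos ρ
  have hv : Integrable (fun b => F b • ξ b) ρ :=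
    hx.bdd_smul C hF.1.aestronglyMeasurable (ae_of_all _ fun b => (hC b).1)
  have key : ∀ θ : E, ⟪θ, ∫ b, F b • ξ b ∂ρ⟫ ≤ Ent ρ F + (∫ b, F b ∂ρ) * (L * ‖θ‖ ^ 2) := by
    intro θ
    have h1 := gibbs (μ := ρ) (G := fun b => ⟪θ, ξ b⟫) (fun b => (hF.pos b).le) (hF.int ρ)
      (hF.int_log ρ) ((hi θ).bdd_mul hF.1.aestronglyMeasurable (ae_of_all _ fun b => (hC b).1))
      (he θ).1 (exp_pos _) (he θ).2
    rw [log_exp] at h1
    rw [← integral_inner hv]
    simpa only [real_inner_smul_right] using h1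
  generalize ∫ b, F b • ξ b ∂ρ = v at key ⊢
  generalize ∫ b, F b ∂ρ = M at key hM ⊢
  have h1 := key ((2 * L * M)⁻¹ • v)
  rw [real_inner_smul_left, real_inner_self_eq_norm_sq, norm_smul, mul_pow, Real.norm_eq_abs,
    sq_abs] at h1
  have e : M * (L * ((2 * L * M)⁻¹ ^ 2 * ‖v‖ ^ 2)) = (4 * L * M)⁻¹ * ‖v‖ ^ 2 := by
    field_simp
    ring
  have e' : (2 * L * M)⁻¹ * ‖v‖ ^ 2 = 2 * ((4 * L * M)⁻¹ * ‖v‖ ^ 2) := by
    field_simp
    ring
  rw [e, e'] at h1
  rw [← inv_mul_le_iff₀ (by positivity)]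
  linarith

end PB

theorem Pot.cv {V : E → ℝ} (hV : Pot V 0) : Cv V := by
  have hc : ConvexOn ℝ univ V := by simpa using hV.cvx
  refine ⟨hV.diff.continuous, hc, |V 0| + ‖gradient V 0‖, fun x => ?_⟩
  rw [Real.norm_eq_abs, abs_of_pos (exp_pos _)]
  refine exp_le_exp.2 ?_
  have h1 := first_of_cvx hV.diff hc 0 x
  rw [sub_zero] at h1
  have h2 := (abs_le.1 (abs_real_inner_le_norm (gradient V 0) x)).1
  have h3 := neg_abs_le (V 0)
  have h4 := mul_nonneg (abs_nonneg (V 0)) (norm_nonneg x)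
  have h5 := norm_nonneg (gradient V 0)
  nlinarith

theorem cv_zero : Cv fun _ : E => (0 : ℝ) :=
  ⟨continuous_const, convexOn_const 0 convex_univ, XG.of_bdd (C := 1) fun _ => by simp⟩

theorem Pot.conv {V : E → ℝ} (hV : Pot V 0) (ht : Tail (ms V)) {s : ℝ} (hs : 0 < s) :
    Pot (Vt (ms V) s) 0 := by
  have := hV.prob
  have hc : ConvexOn ℝ univ V := by simpa using hV.cvx
  have e : {x | 0 < exp (-V x)} = univ := eq_univ_of_forall fun x => exp_pos _
  have h : LCd (fun x => exp (-V x)) 0 :=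
    ⟨hV.meas.neg.exp, fun _ => (exp_pos _).le, by rw [e]; exact convex_univ, by
      rw [e]
      simp only [log_exp, zero_div, zero_mul, add_zero]
      exact hc.neg⟩
  simpa using pot_Vt h le_rfl hs (μ := ms V) rfl ht

end Vale.Agent.P245B
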