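import Vale.Agent.P245B.Main

/-! Definitions for the polylogarithmic bound. -/

open MeasureTheory ProbabilityTheory Real Set Filter Topology
open scoped ENNReal RealInnerProductSpace

noncomputable section

namespace Vale.Agent.P245B

open Vale.Agent.P245 (Ent gibbs Ent_nonneg)

set_option linter.unusedSectionVars false

variable {E : Type} [NormedAddCommGroup E] [InnerProductSpace ℝ E] [FiniteDimensional ℝ E]
  [CompleteSpace E] [MeasurableSpace E] [BorelSpace E]

/-- `C¹` functions with bounded gradient. -/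
def Lc (g : E → ℝ) : Prop := ContDiff ℝ 1 g ∧ ∃ M : ℝ, ∀ x, ‖gradient g x‖ ≤ M

/-- Bounded `C¹` functions with bounded gradient. -/
def Bd (g : E → ℝ) : Prop := ContDiff ℝ 1 g ∧ ∃ M : ℝ, ∀ x, |g x| ≤ M ∧ ‖gradient g x‖ ≤ M

/-- Measurable functions between two positive constants. -/
def PB {B : Type} [MeasurableSpace B] (F : B → ℝ) : Prop :=
  Measurable F ∧ ∃ c C : ℝ, 0 < c ∧ ∀ b, c ≤ F b ∧ F b ≤ C

/-- Fisher information of `exp g`. -/
def Fi (μ : Measure E) (g : E → ℝ) : ℝ := ∫ x, ‖gradient g x‖ ^ 2 * exp (g x) ∂μ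

/-- Defective logarithmic Sobolev inequality. -/
def DL (μ : Measure E) (k D : ℝ) : Prop :=
  ∀ g : E → ℝ, Bd g → Ent μ (fun x => exp (g x)) ≤ k / 4 * Fi μ g + D * ∫ x, exp (g x) ∂μ

/-- Convex potentials. -/
structure Cv (U : E → ℝ) : Prop where
  cont : Continuous U
  cvx : ConvexOn ℝ univ U
  xg : XG fun b => exp (-U b)

/-- The normalising factor of a fibre. -/
def pf (U : E → ℝ) (r : ℝ) (a : E) : ℝ := ∫ b, ga r (a - b) * exp (-U b)

/-- The potential of a fibre. -/
def Wa (U : E → ℝ) (r : ℝ) (a b : E) : ℝ := U b - log (ga r (a - b)) + log (pf U r a)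

/-- The fibres as a kernel. -/
def fk (U : E → ℝ) (r : ℝ) : Kernel E E :=
  Kernel.withDensity (Kernel.const E volume) fun a b => ENNReal.ofReal (exp (-Wa U r a b))

/-- The averaging operator. -/
def Ko {G : Type} [NormedAddCommGroup G] [NormedSpace ℝ G] (U : E → ℝ) (r : ℝ) (F : E → G)
    (a : E) : G := ∫ b, F b ∂fk U r a

/-- The shift of the fibre mean under the weight `F`. -/
def sh (U : E → ℝ) (r : ℝ) (F : E → ℝ) (a : E) : E :=
  (Ko U r F a)⁻¹ • Ko U r (fun b => F b • b) a - Ko U r (fun b => b) a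

/-- The logarithm of the average. -/
def lg (U : E → ℝ) (r : ℝ) (F : E → ℝ) (a : E) : ℝ := log (Ko U r F a)

/-- The integral of `F log F`. -/
def Hh {B : Type} [MeasurableSpace B] (μ : Measure B) (F : B → ℝ) : ℝ := ∫ b, F b * log (F b) ∂μ

/-- The weighted square norm of an averaged field. -/
def Na (U : E → ℝ) (r : ℝ) (ma : Measure E) (f : E → ℝ) (δ : E → E) : ℝ :=
  ∫ a, ‖Ko U r (fun b => f b • δ b) a‖ ^ 2 / Ko U r f a ∂ma

/-- The standard Gaussian measure. -/
def gam (E : Type) [NormedAddCommGroup E] [InnerProductSpace ℝ E] [FiniteDimensional ℝ E]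
    [MeasurableSpace E] [BorelSpace E] : Measure E := ms fun w : E => -log (ga 1 w)

/-- The Gaussian likelihood ratio. -/
def ew (β : ℝ) (v w : E) : ℝ := exp (β * ⟪w, v⟫ - β ^ 2 * ‖v‖ ^ 2 / 2)

/-- A Gaussian mixture density. -/
def mix {B : Type} [MeasurableSpace B] (ρ : Measure B) (f : B → ℝ) (δ : B → E) (β : ℝ) (w : E) :
    ℝ := ∫ b, f b * ew β (δ b) w ∂ρ

/-- The mean of the field under any reweighting is controlled by the entropy. -/
def Spr {B : Type} [MeasurableSpace B] (ρ : Measure B) (f l : B → ℝ) (δ : B → E) (L : ℝ) : Prop :=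
  ∀ e : B → ℝ, PB e → ‖∫ b, (f b * e b) • δ b ∂ρ‖ ^ 2 ≤ 16 * L * (∫ b, f b * e b ∂ρ) *
    (∫ b, f b * (e b * log (e b)) ∂ρ + ∫ b, l b * e b ∂ρ -
      (∫ b, f b * e b ∂ρ) * log (∫ b, f b * e b ∂ρ))

end Vale.Agent.P245B
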