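import Vale.Agent.P245C.FibE

/-! Integrated inequalities along a channel. -/

open MeasureTheory ProbabilityTheory Real Set Filter Topology
open scoped ENNReal RealInnerProductSpace

noncomputable section

namespace Vale.Agent.P245B

open Vale.Agent.P245 (Ent gibbs Ent_nonneg)

set_option linter.unusedSectionVars false

variable {E : Type} [NormedAddCommGroup E] [InnerProductSpace ℝ E] [FiniteDimensional ℝ E]
  [CompleteSpace E] [MeasurableSpace E] [BorelSpace E]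

variable {U F g : E → ℝ} {r : ℝ} {ma mb : Measure E} [IsProbabilityMeasure ma]

theorem int_Ko (hU : Cv U) (hr : 0 < r) (hm : mb = fk U r ∘ₘ ma) {G : Type}
    [NormedAddCommGroup G] [NormedSpace ℝ G] {u : E → G} (hu : StronglyMeasurable u) {C : ℝ}
    (hC : ∀ b, ‖u b‖ ≤ C) : ∫ a, Ko U r u a ∂ma = ∫ b, u b ∂mb := by
  have := fk_markov hU hr
  subst hm
  exact (int_comp ma (fk U r) (Integrable.of_bound hu.aestronglyMeasurable C
    (ae_of_all _ hC))).symm

namespace Drop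

theorem int_bdd (hU : Cv U) (hr : 0 < r) {G : Type} [NormedAddCommGroup G] [NormedSpace ℝ G]
    {u : E → G} (hu : StronglyMeasurable u) {C : ℝ} (hC : ∀ b, ‖u b‖ ≤ C) :
    Integrable (Ko U r u) ma :=
  Integrable.of_bound (Ko_meas hU hr hu).aestronglyMeasurable C (ae_of_all _ (Ko_bdd hU hr hC))

theorem drop_eq (hU : Cv U) (hr : 0 < r) (hm : mb = fk U r ∘ₘ ma) (hF : PB F) :
    Integrable (fun a => Ko U r (fun b => F b * log (F b)) a -
      Ko U r F a * log (Ko U r F a)) ma ∧ Hh mb F - Hh ma (Ko U r F) =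
      ∫ a, (Ko U r (fun b => F b * log (F b)) a - Ko U r F a * log (Ko U r F a)) ∂ma := by
  obtain ⟨C, -, hC⟩ := hF.bdd
  have h1 : StronglyMeasurable fun b => F b * log (F b) := (hF.1.mul hF.1.log).stronglyMeasurable
  have h2 := int_bdd (ma := ma) hU hr h1 fun b => (hC b).2.2.1
  have h3 := (Ko_pb hU hr hF).int_log ma
  refine ⟨h2.sub h3, ?_⟩
  rw [integral_sub h2 h3, int_Ko hU hr hm h1 fun b => (hC b).2.2.1]
  rfl

theorem int_pb (hU : Cv U) (hr : 0 < r) (hm : mb = fk U r ∘ₘ ma) (hF : PB F) :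
    ∫ a, Ko U r F a ∂ma = ∫ b, F b ∂mb := by
  obtain ⟨C, -, hC⟩ := hF.bdd
  exact int_Ko hU hr hm hF.1.stronglyMeasurable fun b => (hC b).1

theorem fi_bdd (hg : Bd g) : StronglyMeasurable (fun b => ‖gradient g b‖ ^ 2 * exp (g b)) ∧
    ∃ C, ∀ b, ‖‖gradient g b‖ ^ 2 * exp (g b)‖ ≤ C := by
  refine ⟨((hg.lc.grad_cont.norm.pow 2).mul hg.cont.rexp).stronglyMeasurable, ?_⟩
  obtain ⟨-, M, hM⟩ := hg
  refine ⟨M ^ 2 * exp M, fun b => ?_⟩
  rw [Real.norm_of_nonneg (by positivity)]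
  gcongr
  · exact (hM b).2
  · exact (le_abs_self _).trans (hM b).1

theorem cs (hg : Bd g) (ν : Measure E) [IsProbabilityMeasure ν] :
    ‖∫ b, exp (g b) • gradient g b ∂ν‖ ^ 2 / ∫ b, exp (g b) ∂ν ≤
      ∫ b, ‖gradient g b‖ ^ 2 * exp (g b) ∂ν := by
  obtain ⟨h1, C, hC⟩ := fi_bdd hg
  have i1 := hg.pb.int ν
  have i2 : Integrable (fun b => ‖gradient g b‖ ^ 2 * exp (g b)) ν :=
    Integrable.of_bound h1.aestronglyMeasurable C (ae_of_all _ hC)
  have I0 := hg.pb.int_pos ν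
  have a1 : ‖∫ b, exp (g b) • gradient g b ∂ν‖ ≤ ∫ b, exp (g b) * ‖gradient g b‖ ∂ν := by
    simpa only [norm_smul, Real.norm_of_nonneg (exp_pos _).le] using
      norm_integral_le_integral_norm (μ := ν) fun b => exp (g b) • gradient g b
  generalize ‖∫ b, exp (g b) • gradient g b ∂ν‖ = N, norm_nonneg
    (∫ b, exp (g b) • gradient g b ∂ν) = N0 at a1 ⊢
  obtain ⟨t, ht⟩ : ∃ t, t = N / ∫ b, exp (g b) ∂ν := ⟨_, rfl⟩
  have t0 : 0 ≤ t := ht ▸ div_nonneg N0 I0.le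
  have a2 : ∫ b, 2 * t * (exp (g b) * ‖gradient g b‖) ∂ν ≤
      ∫ b, (‖gradient g b‖ ^ 2 * exp (g b) + t ^ 2 * exp (g b)) ∂ν :=
    integral_mono_of_nonneg (ae_of_all _ fun b => by positivity) (i2.add (i1.const_mul _))
      (ae_of_all _ fun b => by
        nlinarith [mul_nonneg (sq_nonneg (‖gradient g b‖ - t)) (exp_pos (g b)).le])
  rw [integral_const_mul, integral_add i2 (i1.const_mul _), integral_const_mul] at a2
  have a3 : N ^ 2 / ∫ b, exp (g b) ∂ν = t * N := by rw [ht]; ring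
  have a4 : t ^ 2 * ∫ b, exp (g b) ∂ν = t * N := by rw [ht]; field_simp
  nlinarith [mul_le_mul_of_nonneg_left a1 t0]

end Drop

theorem Fi_lg (hU : Cv U) (hr : 0 < r) (hF : PB F) (ma : Measure E) :
    r ^ 2 * Fi ma (lg U r F) = ∫ a, Ko U r F a * ‖sh U r F a‖ ^ 2 ∂ma := by
  rw [Fi, ← integral_const_mul]
  refine integral_congr_ae (ae_of_all _ fun a => ?_)
  simp only [(lg_grad hU hr hF a).gradient, exp_lg hU hr hF, norm_smul, norm_inv,
    Real.norm_of_nonneg hr.le]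
  field_simp

theorem lip_le_drop (hU : Cv U) (hr : 0 < r) (hm : mb = fk U r ∘ₘ ma) (hF : PB F) {φ : E → E}
    (hφ : ∀ x y, ‖φ x - φ y‖ ≤ ‖x - y‖) :
    Integrable (fun a => Ko U r F a *
      ‖(Ko U r F a)⁻¹ • Ko U r (fun b => F b • φ b) a - Ko U r φ a‖ ^ 2) ma ∧
    ∫ a, Ko U r F a * ‖(Ko U r F a)⁻¹ • Ko U r (fun b => F b • φ b) a - Ko U r φ a‖ ^ 2 ∂ma ≤
      2 * r * (Hh mb F - Hh ma (Ko U r F)) := by
  obtain ⟨h1, h2⟩ := Drop.drop_eq hU hr hm hF
  have hc : Continuous φ := (LipschitzWith.of_dist_le_mul (K := 1) fun x y => by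
    simpa [dist_eq_norm] using hφ x y).continuous
  have m1 := (Ko_pb hU hr hF).1
  have m2 := Ko_meas hU hr (hF.1.stronglyMeasurable.smul hc.stronglyMeasurable)
  have m3 := Ko_meas hU hr hc.stronglyMeasurable
  have h3 : Integrable (fun a => Ko U r F a *
      ‖(Ko U r F a)⁻¹ • Ko U r (fun b => F b • φ b) a - Ko U r φ a‖ ^ 2) ma :=
    (h1.const_mul (2 * r)).mono' (m1.stronglyMeasurable.mul
      (((m1.inv.stronglyMeasurable.smul m2).sub m3).norm.pow 2)).aestronglyMeasurable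
      (ae_of_all _ fun a => by
        rw [Real.norm_of_nonneg (mul_nonneg ((Ko_pb hU hr hF).pos a).le (sq_nonneg _))]
        exact fib_lip hU hr hF hφ a)
  refine ⟨h3, ?_⟩
  rw [h2, ← integral_const_mul]
  exact integral_mono h3 (h1.const_mul _) (fib_lip hU hr hF hφ)

theorem fi_le_drop (hU : Cv U) (hr : 0 < r) (hm : mb = fk U r ∘ₘ ma) (hF : PB F) :
    r * Fi ma (lg U r F) ≤ 2 * (Hh mb F - Hh ma (Ko U r F)) := by
  have h1 := (lip_le_drop hU hr hm hF (φ := fun b => b) fun _ _ => le_rfl).2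
  refine le_of_mul_le_mul_left ?_ hr
  rw [← mul_assoc, ← sq, Fi_lg hU hr hF]
  exact h1.trans (le_of_eq (by ring))

theorem drop_le_fi (hU : Cv U) (hr : 0 < r) (hm : mb = fk U r ∘ₘ ma) (hg : Bd g) :
    Hh mb (fun b => exp (g b)) - Hh ma (Ko U r fun b => exp (g b)) ≤ r / 2 * Fi mb g := by
  obtain ⟨h1, h2⟩ := Drop.drop_eq hU hr hm hg.pb
  obtain ⟨h3, C, hC⟩ := Drop.fi_bdd hg
  rw [h2, Fi, ← int_Ko hU hr hm h3 hC, ← integral_const_mul]
  exact integral_mono h1 ((Drop.int_bdd hU hr h3 hC).const_mul _) (fib_drop hU hr hg)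

theorem sdpi (hU : Cv U) (hr : 0 < r) (hm : mb = fk U r ∘ₘ ma) {k M : ℝ} (hk : 0 ≤ k)
    (h : DL ma k M) (hF : PB F) : Ent ma (Ko U r F) - M * ∫ b, F b ∂mb ≤
      k / (2 * r) * (Hh mb F - Hh ma (Ko U r F)) := by
  have h1 := h _ (lg_bd hU hr hF)
  have h2 := mul_le_mul_of_nonneg_left (fi_le_drop hU hr hm hF) (by positivity : 0 ≤ k / (4 * r))
  have e1 : k / (4 * r) * (r * Fi ma (lg U r F)) = k / 4 * Fi ma (lg U r F) := by field_simp
  have e2 : k / (4 * r) * (2 * (Hh mb F - Hh ma (Ko U r F))) =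
      k / (2 * r) * (Hh mb F - Hh ma (Ko U r F)) := by
    field_simp
    ring
  simp only [exp_lg hU hr hF] at h1
  rw [Drop.int_pb hU hr hm hF] at h1
  linarith

theorem fi_bw (hr : 0 < r) (hg : Bd g) (ma : Measure E) :
    Fi ma (lg (fun _ => 0) r fun b => exp (g b)) =
      Na (fun _ => 0) r ma (fun b => exp (g b)) (gradient g) := by
  refine integral_congr_ae (ae_of_all _ fun a => ?_)
  have h0 := (Ko_pb cv_zero hr hg.pb).pos a
  simp only [(lg_grad cv_zero hr hg.pb a).gradient, exp_lg cv_zero hr hg.pb, grad_zero hr hg,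
    norm_smul, norm_inv, Real.norm_of_nonneg h0.le]
  field_simp

theorem dl_conv {k D : ℝ} (hk : 0 ≤ k) (h : DL ma k D) (hr : 0 < r) :
    DL (ms (Vt ma r)) (k + 2 * r) D := by
  intro g hg
  have hm := dis_bw ma hr
  have := fk_markov (E := E) cv_zero hr
  have h1 := h _ (lg_bd cv_zero hr hg.pb)
  have h2 := drop_le_fi cv_zero hr hm hg
  obtain ⟨h3, C, hC⟩ := Drop.fi_bdd hg
  have h4 : Fi ma (lg (fun _ => 0) r fun b => exp (g b)) ≤ Fi (ms (Vt ma r)) g := by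
    rw [fi_bw hr hg, Fi, ← int_Ko cv_zero hr hm h3 hC]
    exact integral_mono_of_nonneg (ae_of_all _ fun a =>
      div_nonneg (sq_nonneg _) ((Ko_pb cv_zero hr hg.pb).pos a).le)
      (Drop.int_bdd cv_zero hr h3 hC) (ae_of_all _ fun a => Drop.cs hg _)
  have h5 := mul_le_mul_of_nonneg_left h4 (by positivity : 0 ≤ k / 4)
  simp only [exp_lg cv_zero hr hg.pb, Ent, Drop.int_pb cv_zero hr hm hg.pb] at h1
  unfold Hh at h2
  unfold Ent
  linarith

end Vale.Agent.P245B
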