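import Vale.Agent.P245C.Cls

/-! From test functions to functions with bounded gradient. -/

open MeasureTheory ProbabilityTheory Real Set Filter Topology
open scoped ENNReal RealInnerProductSpace

noncomputable section

namespace Vale.Agent.P245B

open Vale.Agent.P245 (Ent gibbs Ent_nonneg)

set_option linter.unusedSectionVars false

variable {E : Type} [NormedAddCommGroup E] [InnerProductSpace ℝ E] [FiniteDimensional ℝ E]
  [CompleteSpace E] [MeasurableSpace E] [BorelSpace E]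

namespace Ext

theorem conv_bd {F : Type} [NormedAddCommGroup F] [NormedSpace ℝ F] [CompleteSpace F]
    (φ : ContDiffBump (0 : E)) {u : E → F} (hu : Continuous u) {M : ℝ} (h : ∀ x, ‖u x‖ ≤ M)
    (x : E) :
    ‖convolution (φ.normed volume) u (ContinuousLinearMap.lsmul ℝ ℝ) volume x‖ ≤ M := by
  have h1 := dist_convolution_le (μ := (volume : Measure E)) (x₀ := x) (z₀ := (0 : F))
    ((norm_nonneg _).trans (h x)) φ.support_normed_eq.subset φ.nonneg_normed φ.integral_normed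
    hu.aestronglyMeasurable (fun y _ => by simpa using h y)
  rwa [dist_zero_right] at h1

theorem conv_fderiv (φ : ContDiffBump (0 : E)) {g : E → ℝ} (hg : ContDiff ℝ 1 g)
    (hs : HasCompactSupport g) (x : E) :
    fderiv ℝ (convolution (φ.normed volume) g (ContinuousLinearMap.lsmul ℝ ℝ) volume) x =
      convolution (φ.normed volume) (fderiv ℝ g) (ContinuousLinearMap.lsmul ℝ ℝ) volume x := by
  rw [(hs.hasFDerivAt_convolution_right (ContinuousLinearMap.lsmul ℝ ℝ)
    φ.integrable_normed.locallyIntegrable hg x).fderiv]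
  simp only [convolution_def]
  refine integral_congr_ae (Eventually.of_forall fun t => ?_)
  ext v
  simp

theorem bump : ∃ (c : ℕ → E → ℝ) (B : ℝ), 0 ≤ B ∧
    (∀ k, ContDiff ℝ 1 (c k) ∧ HasCompactSupport (c k)) ∧
    (∀ k x, |c k x| ≤ 1 ∧ (1 + ‖x‖) * ‖fderiv ℝ (c k) x‖ ≤ B) ∧
    ∀ x, ∀ᶠ k in atTop, c k =ᶠ[𝓝 x] fun _ => 1 := by
  let χ : ContDiffBump (0 : E) := ⟨1, 2, one_pos, one_lt_two⟩
  have hχ : ContDiff ℝ 1 (χ : E → ℝ) := χ.contDiff
  obtain ⟨B, hB⟩ := (hχ.continuous_fderiv (by norm_num)).bounded_above_of_compact_support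
    (χ.hasCompactSupport.fderiv (𝕜 := ℝ))
  have hpos : ∀ k : ℕ, (0 : ℝ) < ((k : ℝ) + 1)⁻¹ := fun k => by positivity
  have hle : ∀ k : ℕ, ((k : ℝ) + 1)⁻¹ ≤ 1 := fun k =>
    inv_le_one_of_one_le₀ (by linarith [k.cast_nonneg (α := ℝ)])
  have hB0 : 0 ≤ B := (norm_nonneg _).trans (hB 0)
  have hB3 : ∀ y : E, (1 + ‖y‖) * ‖fderiv ℝ (χ : E → ℝ) y‖ ≤ 3 * B := by
    intro y
    by_cases hy : ‖y‖ ≤ 2
    · exact mul_le_mul (by linarith) (hB y) (norm_nonneg _) (by norm_num)
    · have h0 : fderiv ℝ (χ : E → ℝ) y = 0 := by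
        refine Function.notMem_support.1 fun hm => hy ?_
        have h1 := support_fderiv_subset ℝ hm
        rw [χ.tsupport_eq, mem_closedBall_zero_iff] at h1
        exact h1
      rw [h0, norm_zero, mul_zero]
      positivity
  refine ⟨fun k x => χ (((k : ℝ) + 1)⁻¹ • x), 3 * B, by positivity, fun k => ⟨?_, ?_⟩,
    fun k x => ⟨?_, ?_⟩, fun x => ?_⟩
  · exact hχ.comp (contDiff_id.const_smul _)
  · exact χ.hasCompactSupport.comp_smul (hpos k).ne'
  · rw [abs_of_nonneg χ.nonneg]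
    exact χ.le_one
  · have h1 : HasFDerivAt (fun x : E => ((k : ℝ) + 1)⁻¹ • x)
        (((k : ℝ) + 1)⁻¹ • ContinuousLinearMap.id ℝ E) x := (hasFDerivAt_id x).const_smul _
    have h2 := ((hχ.differentiable (by norm_num)) (((k : ℝ) + 1)⁻¹ • x)).hasFDerivAt.comp x h1
    have h3 : fderiv ℝ (fun x : E => χ (((k : ℝ) + 1)⁻¹ • x)) x = _ := h2.fderiv
    rw [h3]
    have h4 : ‖((k : ℝ) + 1)⁻¹ • ContinuousLinearMap.id ℝ E‖ ≤ ((k : ℝ) + 1)⁻¹ := by
      rw [norm_smul, Real.norm_eq_abs, abs_of_pos (hpos k)]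
      exact mul_le_of_le_one_right (hpos k).le ContinuousLinearMap.norm_id_le
    have h5 := (ContinuousLinearMap.opNorm_comp_le
      (fderiv ℝ (χ : E → ℝ) (((k : ℝ) + 1)⁻¹ • x)) _).trans
      (mul_le_mul_of_nonneg_left h4 (norm_nonneg _))
    have h6 := hB3 (((k : ℝ) + 1)⁻¹ • x)
    rw [norm_smul, Real.norm_eq_abs, abs_of_pos (hpos k)] at h6
    refine (mul_le_mul_of_nonneg_left h5 (by positivity)).trans (le_trans ?_ h6)
    have h7 := mul_le_mul_of_nonneg_left (hle k)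
      (norm_nonneg (fderiv ℝ (χ : E → ℝ) (((k : ℝ) + 1)⁻¹ • x)))
    linarith
  · obtain ⟨n, hn⟩ := exists_nat_gt ‖x‖
    filter_upwards [eventually_ge_atTop n] with k hk
    have hk' : (n : ℝ) ≤ k := by exact_mod_cast hk
    have ho : Metric.ball (0 : E) ((k : ℝ) + 1) ∈ 𝓝 x :=
      Metric.isOpen_ball.mem_nhds (by rw [mem_ball_zero_iff]; linarith)
    filter_upwards [ho] with y hy
    rw [mem_ball_zero_iff] at hy
    refine χ.one_of_mem_closedBall ?_
    rw [mem_closedBall_zero_iff, norm_smul, Real.norm_eq_abs, abs_of_pos (hpos k)]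
    show _ ≤ (1 : ℝ)
    rw [inv_mul_le_iff₀ (by positivity)]
    linarith

theorem lim {μ : Measure E} (ht : Tail μ) {A D M : ℝ} {G : ℕ → E → ℝ} {g : E → ℝ}
    (hG : ∀ j, Continuous (G j))
    (hb : ∀ j x, |G j x| ≤ M * (1 + ‖x‖) ∧ ‖gradient (G j) x‖ ≤ M)
    (hl : ∀ x, Tendsto (fun j => G j x) atTop (𝓝 (g x)) ∧
      Tendsto (fun j => gradient (G j) x) atTop (𝓝 (gradient g x)))
    (h : ∀ j, Ent μ (fun x => exp (G j x)) ≤ A * Fi μ (G j) + D * ∫ x, exp (G j x) ∂μ) :
    Ent μ (fun x => exp (g x)) ≤ A * Fi μ g + D * ∫ x, exp (g x) ∂μ := by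
  have key : ∀ (Φ : ℝ × E → ℝ) (b : E → ℝ), Continuous Φ → Integrable b μ →
      (∀ j x, ‖Φ (G j x, gradient (G j) x)‖ ≤ b x) →
      Tendsto (fun j => ∫ x, Φ (G j x, gradient (G j) x) ∂μ) atTop
        (𝓝 (∫ x, Φ (g x, gradient g x) ∂μ)) := by
    intro Φ b hΦ hi hd
    refine tendsto_integral_of_dominated_convergence b
      (fun j => (hΦ.measurable.comp
        ((hG j).measurable.prodMk (measurable_grad (G j)))).aestronglyMeasurable) hi
      (fun j => Eventually.of_forall (hd j)) (Eventually.of_forall fun x => ?_)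
    exact (hΦ.tendsto _).comp ((hl x).1.prodMk_nhds (hl x).2)
  have he : ∀ j x, exp (G j x) ≤ exp (M * (1 + ‖x‖)) := fun j x =>
    exp_le_exp.2 ((le_abs_self _).trans (hb j x).1)
  have t1 := key (fun p => exp p.1 * log (exp p.1)) (fun x => exp ((M + M) * (1 + ‖x‖)))
    (continuous_mul_log.comp (continuous_exp.comp continuous_fst)) (ht.int_exp _) (fun j x => by
      rw [log_exp, norm_mul, Real.norm_eq_abs, Real.norm_eq_abs, abs_of_pos (exp_pos _), add_mul,
        exp_add]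
      refine mul_le_mul (he j x) ((hb j x).1.trans ?_) (abs_nonneg _) (exp_pos _).le
      linarith [add_one_le_exp (M * (1 + ‖x‖))])
  have t2 := key (fun p => exp p.1) (fun x => exp (M * (1 + ‖x‖)))
    (continuous_exp.comp continuous_fst) (ht.int_exp _) (fun j x => by
      rw [Real.norm_eq_abs, abs_of_pos (exp_pos _)]
      exact he j x)
  have t3 := key (fun p => ‖p.2‖ ^ 2 * exp p.1) (fun x => M ^ 2 * exp (M * (1 + ‖x‖)))
    ((continuous_snd.norm.pow 2).mul (continuous_exp.comp continuous_fst))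
    ((ht.int_exp _).const_mul _) (fun j x => by
      rw [Real.norm_of_nonneg (by positivity)]
      exact mul_le_mul (pow_le_pow_left₀ (norm_nonneg _) (hb j x).2 2) (he j x) (exp_pos _).le
        (sq_nonneg _))
  have t4 : Tendsto (fun j => Ent μ (fun x => exp (G j x))) atTop
      (𝓝 (Ent μ fun x => exp (g x))) :=
    t1.sub ((continuous_mul_log.tendsto _).comp t2)
  exact le_of_tendsto_of_tendsto' t4 ((t3.const_mul A).add (t2.const_mul D)) h

end Ext

/-- Smooth approximation of a compactly supported `C¹` function. -/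
theorem moll {g : E → ℝ} (hg : ContDiff ℝ 1 g) (hs : HasCompactSupport g) :
    ∃ (G : ℕ → E → ℝ) (M : ℝ), (∀ j, Tst (G j)) ∧
      (∀ j x, |G j x| ≤ M ∧ ‖gradient (G j) x‖ ≤ M) ∧
      ∀ x, Tendsto (fun j => G j x) atTop (𝓝 (g x)) ∧
        Tendsto (fun j => gradient (G j) x) atTop (𝓝 (gradient g x)) := by
  let φ : ℕ → ContDiffBump (0 : E) := fun j =>
    ⟨1 / ((j : ℝ) + 1) / 2, 1 / ((j : ℝ) + 1), by positivity, half_lt_self (by positivity)⟩
  have hφ : Tendsto (fun j => (φ j).rOut) atTop (𝓝 0) := tendsto_one_div_add_atTop_nhds_zero_nat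
  have hd : Continuous (fderiv ℝ g) := hg.continuous_fderiv (by norm_num)
  obtain ⟨M₁, h1⟩ := hg.continuous.bounded_above_of_compact_support hs
  obtain ⟨M₂, h2⟩ := hd.bounded_above_of_compact_support (hs.fderiv (𝕜 := ℝ))
  refine ⟨fun j => convolution ((φ j).normed volume) g (ContinuousLinearMap.lsmul ℝ ℝ) volume,
    max M₁ M₂, fun j => Tst.of_supp ?_ ?_, fun j x => ⟨?_, ?_⟩, fun x => ⟨?_, ?_⟩⟩
  · exact (φ j).hasCompactSupport_normed.contDiff_convolution_left (n := 2) _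
      (φ j).contDiff_normed hg.continuous.locallyIntegrable
  · exact (φ j).hasCompactSupport_normed.convolution _ hs
  · exact (Ext.conv_bd (φ j) hg.continuous h1 x).trans (le_max_left _ _)
  · rw [norm_grad, Ext.conv_fderiv (φ j) hg hs]
    exact (Ext.conv_bd (φ j) hd h2 x).trans (le_max_right _ _)
  · exact ContDiffBump.convolution_tendsto_right_of_continuous hφ hg.continuous x
  · have h3 := ContDiffBump.convolution_tendsto_right_of_continuous (μ := (volume : Measure E))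
      hφ hd x
    refine (((InnerProductSpace.toDual ℝ E).symm.continuous.tendsto _).comp h3).congr fun j => ?_
    rw [Function.comp_apply, ← Ext.conv_fderiv (φ j) hg hs]
    rfl

theorem cut_lc {g : E → ℝ} (hg : Lc g) : ∃ (G : ℕ → E → ℝ) (M : ℝ),
    (∀ j, ContDiff ℝ 1 (G j) ∧ HasCompactSupport (G j)) ∧
    (∀ j x, |G j x| ≤ M * (1 + ‖x‖) ∧ ‖gradient (G j) x‖ ≤ M) ∧
    ∀ x, ∀ᶠ j in atTop, G j x = g x ∧ gradient (G j) x = gradient g x := by
  obtain ⟨c, B, hB, h1, h2, h3⟩ := Ext.bump (E := E)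
  obtain ⟨C, hC⟩ := hg.lg.2
  obtain ⟨hg1, M, hM⟩ := hg
  have hM0 : 0 ≤ M := (norm_nonneg _).trans (hM 0)
  have hC0 : 0 ≤ C := by simpa using (abs_nonneg _).trans (hC 0)
  refine ⟨fun k x => c k x * g x, C + M + C * B, fun k => ⟨(h1 k).1.mul hg1, (h1 k).2.mul_right⟩,
    fun k x => ⟨?_, ?_⟩, fun x => ?_⟩
  · rw [abs_mul]
    have h4 := mul_le_mul (h2 k x).1 (hC x) (abs_nonneg _) zero_le_one
    have h5 : 0 ≤ (M + C * B) * (1 + ‖x‖) := by positivity
    linarith
  · rw [norm_grad, fderiv_fun_mul ((h1 k).1.differentiable (by norm_num) x)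
      (hg1.differentiable (by norm_num) x)]
    refine (norm_add_le _ _).trans (add_le_add ?_ ?_)
    · rw [norm_smul, Real.norm_eq_abs, ← norm_grad]
      have h4 := mul_le_mul (h2 k x).1 (hM x) (norm_nonneg _) zero_le_one
      linarith
    · rw [norm_smul, Real.norm_eq_abs]
      refine (mul_le_mul_of_nonneg_right (hC x) (norm_nonneg _)).trans ?_
      rw [mul_assoc]
      exact mul_le_mul_of_nonneg_left (h2 k x).2 hC0
  · filter_upwards [h3 x] with k hk
    have e : (fun y => c k y * g y) =ᶠ[𝓝 x] g := by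
      filter_upwards [hk] with y hy
      rw [hy, one_mul]
    exact ⟨e.eq_of_nhds, e.gradient_eq⟩

theorem ext_lc {μ : Measure E} [IsFiniteMeasure μ] (ht : Tail μ) {A D : ℝ}
    (h : ∀ g : E → ℝ, Tst g →
      Ent μ (fun x => exp (g x)) ≤ A * Fi μ g + D * ∫ x, exp (g x) ∂μ) {g : E → ℝ} (hg : Lc g) :
    Ent μ (fun x => exp (g x)) ≤ A * Fi μ g + D * ∫ x, exp (g x) ∂μ := by
  obtain ⟨G, M, h1, h2, h3⟩ := cut_lc hg
  refine Ext.lim ht (fun j => (h1 j).1.continuous) h2 (fun x => ⟨?_, ?_⟩) fun j => ?_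
  · exact tendsto_const_nhds.congr' ((h3 x).mono fun j hj => hj.1.symm)
  · exact tendsto_const_nhds.congr' ((h3 x).mono fun j hj => hj.2.symm)
  · obtain ⟨H, N, h4, h5, h6⟩ := moll (h1 j).1 (h1 j).2
    refine Ext.lim ht (M := N) (fun i => (h4 i).cont) (fun i x => ⟨?_, (h5 i x).2⟩) h6
      fun i => h _ (h4 i)
    have h7 : 0 ≤ N * ‖x‖ := mul_nonneg ((abs_nonneg _).trans (h5 i x).1) (norm_nonneg _)
    linarith [(h5 i x).1]

theorem LSI.dl {μ : Measure E} [IsFiniteMeasure μ] (ht : Tail μ) {K : ℝ} (h : LSI μ K) :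
    DL μ K 0 := by
  intro g hg
  refine ext_lc ht (fun f hf => ?_) hg.lc
  have h1 : Tst fun x => exp (f x / 2) :=
    ⟨(hf.1.div_const 2).exp, PotL.supp hf fun t => exp (t / 2)⟩
  have h2 : ∀ x, exp (f x / 2) ^ 2 = exp (f x) := fun x => by
    rw [sq, ← exp_add, add_halves]
  have h3 : ∀ x, gradient (fun x => exp (f x / 2)) x = (exp (f x / 2) * (1 / 2)) • gradient f x :=
    fun x => PotL.grad hf (φ := fun t => exp (t / 2)) ((hasDerivAt_id' (f x)).div_const 2).exp
  have h4 := h _ h1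
  have h5 : Dir μ (fun x => exp (f x / 2)) = 1 / 4 * Fi μ f := by
    rw [Dir, Fi, ← integral_const_mul]
    refine integral_congr_ae (Eventually.of_forall fun x => ?_)
    simp only []
    rw [h3, norm_smul, mul_pow, Real.norm_eq_abs, sq_abs, mul_pow, h2]
    ring
  simp only [h2] at h4
  rw [h5] at h4
  linarith

end Vale.Agent.P245B
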