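import Vale.Agent.P245C.Cls

/-! The fibres of a Gaussian channel. -/

open MeasureTheory ProbabilityTheory Real Set Filter Topology
open scoped ENNReal RealInnerProductSpace

noncomputable section

namespace Vale.Agent.P245B

open Vale.Agent.P245 (Ent gibbs Ent_nonneg)

set_option linter.unusedSectionVars false

variable {E : Type} [NormedAddCommGroup E] [InnerProductSpace ℝ E] [FiniteDimensional ℝ E]
  [CompleteSpace E] [MeasurableSpace E] [BorelSpace E]

variable {U : E → ℝ} {r : ℝ}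

namespace Fib

theorem dom0 (hr : 0 < r) (C ρ : ℝ) : ∃ h : E → ℝ, Integrable h ∧
    ∀ a b : E, ‖a‖ ≤ ρ → ga r (a - b) * exp (C * (1 + ‖b‖)) ≤ h b := by
  have h2 : 0 < 2 * r := by positivity
  have i1 := gs_pos (E := E) hr
  have i2 := gs_pos (E := E) h2
  refine ⟨fun b => (exp (ρ ^ 2 / (2 * r)) * exp C * (∫ w : E, gs (2 * r) w) / ∫ w : E, gs r w) *
    (exp (C * ‖b‖) * ga (2 * r) b), (ga_tail h2 C).const_mul _, fun a b ha => ?_⟩
  have h1 : ‖b‖ ≤ ‖a‖ + ‖a - b‖ := by
    have := norm_sub_le a (a - b)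
    rwa [sub_sub_cancel] at this
  have h3 : ‖b‖ ^ 2 ≤ 2 * ρ ^ 2 + 2 * ‖a - b‖ ^ 2 := by
    have h4 := pow_le_pow_left₀ (norm_nonneg _) h1 2
    have h5 := pow_le_pow_left₀ (norm_nonneg _) ha 2
    nlinarith [sq_nonneg (‖a‖ - ‖a - b‖)]
  have h4 : gs r (a - b) ≤ exp (ρ ^ 2 / (2 * r)) * gs (2 * r) b := by
    rw [gs, gs, ← exp_add, exp_le_exp, ← sub_nonneg]
    have e : ρ ^ 2 / (2 * r) + -(‖b‖ ^ 2 / (2 * (2 * r))) - -(‖a - b‖ ^ 2 / (2 * r)) =
        (2 * ρ ^ 2 + 2 * ‖a - b‖ ^ 2 - ‖b‖ ^ 2) / (4 * r) := by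
      field_simp
      ring
    rw [e]
    exact div_nonneg (sub_nonneg.2 h3) (by positivity)
  calc ga r (a - b) * exp (C * (1 + ‖b‖))
      ≤ exp (ρ ^ 2 / (2 * r)) * gs (2 * r) b / (∫ w : E, gs r w) * exp (C * (1 + ‖b‖)) := by
        unfold ga
        gcongr
    _ = _ := by
        simp only [ga, mul_add, mul_one, exp_add]
        field_simp

theorem dom (hU : Cv U) (hr : 0 < r) {G : Type} [NormedAddCommGroup G] [NormedSpace ℝ G]
    {F : E → G} (hF : XG F) (ρ : ℝ) : ∃ h : E → ℝ, Integrable h ∧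
      ∀ a b : E, ‖a‖ ≤ ρ → ‖(ga r (a - b) * exp (-U b)) • F b‖ ≤ h b := by
  obtain ⟨C, hC⟩ := hU.xg.smul hF
  obtain ⟨h, hi, hh⟩ := dom0 (E := E) hr C ρ
  refine ⟨h, hi, fun a b ha => le_trans ?_ (hh a b ha)⟩
  rw [mul_smul, norm_smul, Real.norm_of_nonneg (ga_pos hr _).le]
  exact mul_le_mul_of_nonneg_left (hC b) (ga_pos hr _).le

theorem aesm (hU : Cv U) (r : ℝ) (a : E) {G : Type} [NormedAddCommGroup G] [NormedSpace ℝ G]
    {F : E → G} (hm : AEStronglyMeasurable F volume) :
    AEStronglyMeasurable (fun b => (ga r (a - b) * exp (-U b)) • F b) volume :=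
  ((Smo.cont r a).mul hU.cont.neg.rexp).aestronglyMeasurable.smul hm

theorem cont (hU : Cv U) (hr : 0 < r) {G : Type} [NormedAddCommGroup G] [NormedSpace ℝ G]
    {F : E → G} (hm : AEStronglyMeasurable F volume) (hF : XG F) :
    Continuous fun a => ∫ b, (ga r (a - b) * exp (-U b)) • F b := by
  refine continuous_iff_continuousAt.2 fun a => ?_
  obtain ⟨h, hi, hh⟩ := dom hU hr hF (‖a‖ + 1)
  refine continuousAt_of_dominated (Eventually.of_forall fun x => aesm hU r x hm) ?_ hi
    (ae_of_all _ fun b => Continuous.continuousAt ?_)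
  · filter_upwards [(isOpen_lt continuous_norm continuous_const).mem_nhds (lt_add_one ‖a‖)]
      with x hx
    exact ae_of_all _ fun b => hh x b (le_of_lt hx)
  · exact (((ga_cont r).comp (continuous_id.sub continuous_const)).mul continuous_const).smul
      continuous_const

theorem xg_one : XG fun _ : E => (1 : ℝ) := XG.of_bdd (C := 1) fun _ => by simp

end Fib

theorem pf_int (hU : Cv U) (hr : 0 < r) (a : E) {G : Type} [NormedAddCommGroup G]
    [NormedSpace ℝ G] {F : E → G} (hm : AEStronglyMeasurable F volume) (hF : XG F) :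
    Integrable fun b => (ga r (a - b) * exp (-U b)) • F b := by

  obtain ⟨h, hi, hh⟩ := Fib.dom hU hr hF ‖a‖
  exact hi.mono' (Fib.aesm hU r a hm) (ae_of_all _ fun b => hh a b le_rfl)

theorem Fib.int (hU : Cv U) (hr : 0 < r) (a : E) :
    Integrable fun b => ga r (a - b) * exp (-U b) := by
  simpa using pf_int hU hr a aestronglyMeasurable_const Fib.xg_one

theorem pf_pos (hU : Cv U) (hr : 0 < r) (a : E) : 0 < pf U r a := by

  rw [pf, integral_pos_iff_support_of_nonneg (fun b => (mul_pos (ga_pos hr _) (exp_pos _)).le)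
    (Fib.int hU hr a)]
  have e : (Function.support fun b => ga r (a - b) * exp (-U b)) = univ :=
    eq_univ_of_forall fun b => (mul_pos (ga_pos hr _) (exp_pos _)).ne'
  rw [e]
  exact isOpen_univ.measure_pos _ univ_nonempty

theorem pf_cont (hU : Cv U) (hr : 0 < r) : Continuous (pf U r) := by

  have h := Fib.cont hU hr aestronglyMeasurable_const Fib.xg_one
  simp only [smul_eq_mul, mul_one] at h
  exact h

theorem pf_zero (hr : 0 < r) (a : E) : pf (fun _ => 0) r a = 1 := by

  simp only [pf, neg_zero, exp_zero, mul_one]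
  rw [integral_sub_left_eq_self (ga r) volume a, ga_one hr]

theorem pf_Vt (hU : Cv U) [IsProbabilityMeasure (ms U)] (hr : 0 < r) (a : E) :
    exp (-Vt (ms U) r a) = pf U r a := by

  rw [exp_Vt hr, integral_ms hU.cont.measurable, pf]

theorem exp_Wa (hU : Cv U) (hr : 0 < r) (a b : E) :
    exp (-Wa U r a b) = ga r (a - b) * exp (-U b) / pf U r a := by

  rw [Wa, neg_add, neg_sub, sub_eq_add_neg, exp_add, exp_add, exp_log (ga_pos hr _),
    exp_neg (log _), exp_log (pf_pos hU hr a), div_eq_mul_inv]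

theorem Wa_cont (hU : Cv U) (hr : 0 < r) : Continuous (Function.uncurry (Wa U r)) := by

  exact ((hU.cont.comp continuous_snd).sub (((ga_cont r).comp
    (continuous_fst.sub continuous_snd)).log fun _ => (ga_pos hr _).ne')).add
    (((pf_cont hU hr).comp continuous_fst).log fun _ => (pf_pos hU hr _).ne')

theorem Wa_cvx (hU : Cv U) (hr : 0 < r) (a : E) :
    ConvexOn ℝ univ fun b => Wa U r a b - r⁻¹ / 2 * ‖b‖ ^ 2 := by

  have h := (hU.cvx.add (((-r⁻¹) • innerSL ℝ a).toLinearMap.convexOn convex_univ)).add_const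
    (‖a‖ ^ 2 / (2 * r) + log (∫ w : E, gs r w) + log (pf U r a))
  refine h.congr fun b _ => ?_
  simp only [Pi.add_apply, ContinuousLinearMap.coe_coe, smul_apply,
    innerSL_apply_apply, smul_eq_mul, Wa, ga]
  rw [log_div (by unfold gs; exact (exp_pos _).ne') (gs_pos hr).ne', gs, log_exp, norm_sub_sq_real]
  field_simp
  ring

theorem fk_apply (hU : Cv U) (hr : 0 < r) (a : E) : fk U r a = ms (Wa U r a) := by

  rw [fk, Kernel.withDensity_apply _ (Wa_cont hU hr).neg.rexp.measurable.ennreal_ofReal,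
    Kernel.const_apply, ms]

theorem Fib.wm (hU : Cv U) (hr : 0 < r) (a : E) : Measurable (Wa U r a) :=
  ((Wa_cont hU hr).comp (Continuous.prodMk_right a)).measurable

theorem fk_markov (hU : Cv U) (hr : 0 < r) : IsMarkovKernel (fk U r) := by

  refine ⟨fun a => ⟨?_⟩⟩
  rw [← lintegral_one, fk_apply hU hr, lintegral_ms (Fib.wm hU hr a) measurable_const]
  simp only [mul_one, exp_Wa hU hr]
  rw [← ofReal_integral_eq_lintegral_ofReal ((Fib.int hU hr a).div_const _) (ae_of_all _ fun b =>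
    (div_pos (mul_pos (ga_pos hr _) (exp_pos _)) (pf_pos hU hr a)).le), integral_div]
  exact (congrArg ENNReal.ofReal (div_self (pf_pos hU hr a).ne')).trans ENNReal.ofReal_one

theorem fk_tail (hU : Cv U) (hr : 0 < r) (a : E) : Tail (fk U r a) := by

  intro C
  rw [fk_apply hU hr, integrable_ms (Fib.wm hU hr a)]
  have hx : XG fun x : E => exp (C * ‖x‖) := ⟨|C|, fun x => by
    rw [Real.norm_of_nonneg (exp_pos _).le, exp_le_exp]
    nlinarith [le_abs_self C, abs_nonneg C, norm_nonneg x]⟩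
  refine ((pf_int hU hr a (by fun_prop : Continuous fun x : E =>
    exp (C * ‖x‖)).aestronglyMeasurable hx).div_const (pf U r a)).congr (ae_of_all _ fun b => ?_)
  simp only [exp_Wa hU hr, smul_eq_mul]
  ring

theorem Ko_eq (hU : Cv U) (hr : 0 < r) {G : Type} [NormedAddCommGroup G] [NormedSpace ℝ G]
    (F : E → G) (a : E) :
    Ko U r F a = (pf U r a)⁻¹ • ∫ b, (ga r (a - b) * exp (-U b)) • F b := by

  have hm : Measurable fun x => ENNReal.ofReal (exp (-Wa U r a x)) :=
    (Fib.wm hU hr a).neg.exp.ennreal_ofReal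
  rw [Ko, fk_apply hU hr, ms, integral_withDensity_eq_integral_toReal_smul hm
    (ae_of_all _ fun _ => ENNReal.ofReal_lt_top),
    ← integral_smul]
  refine integral_congr_ae (ae_of_all _ fun b => ?_)
  simp only
  rw [ENNReal.toReal_ofReal (exp_pos _).le, exp_Wa hU hr, div_eq_inv_mul, mul_smul]

theorem Ko_meas (hU : Cv U) (hr : 0 < r) {G : Type} [NormedAddCommGroup G] [NormedSpace ℝ G]
    {F : E → G} (hF : StronglyMeasurable F) : StronglyMeasurable (Ko U r F) := by

  have := fk_markov hU hr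
  exact hF.integral_kernel

theorem Ko_cont (hU : Cv U) (hr : 0 < r) {G : Type} [NormedAddCommGroup G] [NormedSpace ℝ G]
    {F : E → G} (hm : StronglyMeasurable F) (hF : XG F) : Continuous (Ko U r F) := by

  rw [funext (Ko_eq hU hr F)]
  exact ((pf_cont hU hr).inv₀ fun a => (pf_pos hU hr a).ne').smul
    (Fib.cont hU hr hm.aestronglyMeasurable hF)

theorem Ko_pb (hU : Cv U) (hr : 0 < r) {F : E → ℝ} (hF : PB F) : PB (Ko U r F) := by

  have := fk_markov hU hr
  exact hF.kernel (fk U r)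

theorem Ko_bdd (hU : Cv U) (hr : 0 < r) {G : Type} [NormedAddCommGroup G] [NormedSpace ℝ G]
    {F : E → G} {C : ℝ} (hF : ∀ b, ‖F b‖ ≤ C) (a : E) : ‖Ko U r F a‖ ≤ C := by

  have := fk_markov hU hr
  simpa [Ko] using norm_integral_le_of_norm_le_const (μ := fk U r a) (ae_of_all _ hF)

theorem dis_fw (hU : Cv U) [IsProbabilityMeasure (ms U)] (hr : 0 < r) :
    ms U = fk U r ∘ₘ ms (Vt (ms U) r) := by

  refine Measure.ext_of_lintegral _ fun F hF => ?_
  have hg : Measurable fun p : E × E => ENNReal.ofReal (ga r (p.1 - p.2)) :=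
    ((ga_cont r).comp (continuous_fst.sub continuous_snd)).measurable.ennreal_ofReal
  have hu : Measurable fun b => ENNReal.ofReal (exp (-U b)) * F b :=
    hU.cont.neg.rexp.measurable.ennreal_ofReal.mul hF
  rw [Measure.lintegral_bind (fk U r).aemeasurable hF.aemeasurable,
    lintegral_ms (Vt_diff hr).continuous.measurable hF.lintegral_kernel,
    lintegral_ms hU.cont.measurable hF]
  have e : ∀ a, ENNReal.ofReal (exp (-Vt (ms U) r a)) * ∫⁻ b, F b ∂fk U r a =
      ∫⁻ b, ENNReal.ofReal (ga r (a - b)) * (ENNReal.ofReal (exp (-U b)) * F b) := fun a => by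
    rw [fk_apply hU hr, lintegral_ms (Fib.wm hU hr a) hF,
      ← lintegral_const_mul' _ _ ENNReal.ofReal_ne_top, pf_Vt hU hr]
    refine lintegral_congr fun b => ?_
    rw [← mul_assoc, ← mul_assoc, ← ENNReal.ofReal_mul (pf_pos hU hr a).le,
      ← ENNReal.ofReal_mul (ga_pos hr _).le, exp_Wa hU hr, mul_div_cancel₀ _ (pf_pos hU hr a).ne']
  simp only [e]
  rw [lintegral_lintegral_swap (hg.mul (hu.comp measurable_snd)).aemeasurable]
  refine lintegral_congr fun b => ?_
  have hb : Measurable fun x : E => ENNReal.ofReal (ga r (x - b)) :=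
    ((ga_cont r).measurable.comp (measurable_sub_const b)).ennreal_ofReal
  rw [lintegral_mul_const _ hb,
    lintegral_sub_right_eq_self (fun z => ENNReal.ofReal (ga r z)) b,
    ← ofReal_integral_eq_lintegral_ofReal (ga_int hr) (ae_of_all _ fun x => (ga_pos hr _).le),
    ga_one hr, ENNReal.ofReal_one, one_mul]

theorem dis_bw (μ : Measure E) [IsProbabilityMeasure μ] (hr : 0 < r) :
    ms (Vt μ r) = fk (fun _ => 0) r ∘ₘ μ := by

  refine Measure.ext_of_lintegral _ fun F hF => ?_
  rw [Measure.lintegral_bind (fk _ r).aemeasurable hF.aemeasurable, lintegral_Vt hr hF]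
  refine lintegral_congr fun a => ?_
  rw [fk_apply cv_zero hr, lintegral_ms (Fib.wm cv_zero hr a) hF,
    ← lintegral_add_left_eq_self (fun b => ENNReal.ofReal (exp (-Wa (fun _ => 0) r a b)) * F b) a]
  refine lintegral_congr fun z => ?_
  rw [exp_Wa cv_zero hr, pf_zero hr, sub_add_cancel_left, ga_neg, mul_comm]
  simp

end Vale.Agent.P245B
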