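import Vale.Agent.P245C.Cls

/-! The sharp transport inequality for Lipschitz maps. -/

open MeasureTheory ProbabilityTheory Real Set Filter Topology
open scoped ENNReal RealInnerProductSpace

noncomputable section

namespace Vale.Agent.P245B

open Vale.Agent.P245 (Ent gibbs Ent_nonneg)

set_option linter.unusedSectionVars false

variable {E : Type} [NormedAddCommGroup E] [InnerProductSpace ℝ E] [FiniteDimensional ℝ E]
  [CompleteSpace E] [MeasurableSpace E] [BorelSpace E]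

namespace T1

theorem pl {W a b : E → ℝ} {r κ s : ℝ} (hW : Measurable W)
    (hc : ConvexOn ℝ univ fun x => W x - r⁻¹ / 2 * ‖x‖ ^ 2) [IsProbabilityMeasure (ms W)]
    (ha : Measurable a) (hb : Measurable b) (hab : ∀ x y, a y ≤ b x + κ * ‖y - x‖ ^ 2)
    (h0 : 0 < s) (h1 : s < 1) (h2 : κ ≤ r⁻¹ / 2 * (1 - s)) :
    (∫⁻ x, ENNReal.ofReal (exp (-(s / (1 - s)) * b x)) ∂ms W) ^ (1 - s) *
        (∫⁻ x, ENNReal.ofReal (exp (a x)) ∂ms W) ^ s ≤ 1 := by
  have m1 : Measurable fun x => ENNReal.ofReal (exp (-(s / (1 - s)) * b x)) := by fun_prop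
  have m2 : Measurable fun x => ENNReal.ofReal (exp (a x)) := by fun_prop
  have e1 : ∫⁻ x, ENNReal.ofReal (exp (-W x)) * 1 = 1 := by
    rw [← lintegral_ms hW measurable_const, lintegral_const, measure_univ, one_mul]
  have hs : 0 < 1 - s := by linarith
  rw [lintegral_ms hW m1, lintegral_ms hW m2, ← e1]
  refine Vale.Agent.Lib.PL.prekopa_leindler volume hs h0 (by ring) (by fun_prop)
    (by fun_prop) (by fun_prop) fun x y => ?_
  rw [← ENNReal.ofReal_mul (exp_pos _).le, ← ENNReal.ofReal_mul (exp_pos _).le, ← exp_add,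
    ← exp_add, ENNReal.ofReal_rpow_of_pos (exp_pos _), ENNReal.ofReal_rpow_of_pos (exp_pos _),
    ← ENNReal.ofReal_mul (by positivity), ← exp_mul, ← exp_mul, ← exp_add, mul_one]
  refine ENNReal.ofReal_le_ofReal (exp_le_exp.2 ?_)
  have c1 := hc.2 (mem_univ x) (mem_univ y) hs.le h0.le (by ring)
  simp only [smul_eq_mul] at c1
  rw [BE.norm_mix] at c1
  have c2 := hab x y
  rw [norm_sub_rev] at c2
  have c3 := mul_le_mul_of_nonneg_right h2 (sq_nonneg ‖x - y‖)
  have c4 := mul_le_mul_of_nonneg_left (c2.trans (add_le_add_right c3 (b x))) h0.le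
  have c5 : -(s / (1 - s)) * b x * (1 - s) = -(s * b x) := by field_simp
  rw [add_mul, c5]
  linarith

end T1

theorem ic_sharp {W : E → ℝ} {r : ℝ} (hr : 0 < r) (hW : Continuous W)
    (hc : ConvexOn ℝ univ fun x => W x - r⁻¹ / 2 * ‖x‖ ^ 2) [IsProbabilityMeasure (ms W)]
    {κ : ℝ} (hκ : κ < 1 / (2 * r)) : IC (ms W) κ := by
  rintro a b ha hb ⟨M, hM⟩ hab
  have h1 : 2 * r * κ < 1 := by
    rw [lt_div_iff₀ (by positivity)] at hκ
    linarith
  obtain ⟨s, h0, h2, h3⟩ : ∃ s : ℝ, 0 < s ∧ s < 1 ∧ κ ≤ r⁻¹ / 2 * (1 - s) := by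
    refine ⟨min (1 / 2) (1 - 2 * r * κ), lt_min (by norm_num) (by linarith),
      (min_le_left _ _).trans_lt (by norm_num), ?_⟩
    have h4 := mul_le_mul_of_nonneg_left (show 2 * r * κ ≤ 1 - min (1 / 2) (1 - 2 * r * κ) by
      linarith [min_le_right (1 / 2) (1 - 2 * r * κ)]) (show 0 ≤ r⁻¹ / 2 by positivity)
    have h5 : r⁻¹ / 2 * (2 * r * κ) = κ := by field_simp
    rwa [h5] at h4
  have hs : 0 < 1 - s := by linarith
  have ib : Integrable b (ms W) := P245.integrable_of_bdd hb fun x => (hM x).2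
  have ie : ∀ {u : E → ℝ} {D : ℝ}, Measurable u → (∀ x, |u x| ≤ D) →
      Integrable (fun x => exp (u x)) (ms W) := fun {u D} hu hD =>
    P245.integrable_of_bdd hu.exp (C := exp D) fun x => by
      rw [abs_of_pos (exp_pos _)]
      exact exp_le_exp.2 ((le_abs_self _).trans (hD x))
  have i1 := ie ha fun x => (hM x).1
  have i2 := ie (u := fun x => -(s / (1 - s)) * b x) (D := |-(s / (1 - s))| * M) (hb.const_mul _)
    fun x => by
      rw [abs_mul]
      exact mul_le_mul_of_nonneg_left (hM x).2 (abs_nonneg _)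
  have p1 := integral_exp_pos i1
  have p2 := integral_exp_pos i2
  have h4 := T1.pl hW.measurable hc ha hb hab h0 h2 h3
  rw [← ofReal_integral_eq_lintegral_ofReal i1 (Eventually.of_forall fun _ => (exp_pos _).le),
    ← ofReal_integral_eq_lintegral_ofReal i2 (Eventually.of_forall fun _ => (exp_pos _).le),
    ENNReal.ofReal_rpow_of_pos p1, ENNReal.ofReal_rpow_of_pos p2,
    ← ENNReal.ofReal_mul (by positivity), ENNReal.ofReal_le_one] at h4
  have h5 := rpow_le_rpow (exp_pos _).le (jensen_exp (ib.const_mul (-(s / (1 - s)))) i2) hs.le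
  rw [integral_const_mul, ← exp_mul] at h5
  have h6 := (mul_le_mul_of_nonneg_right h5 (rpow_nonneg p1.le s)).trans h4
  have h7 : -(s / (1 - s)) * (∫ x, b x ∂ms W) * (1 - s) = -((∫ x, b x ∂ms W) * s) := by field_simp
  rw [h7, exp_neg, inv_mul_le_iff₀ (exp_pos _), mul_one, exp_mul] at h6
  exact (rpow_le_rpow_iff p1.le (exp_pos _).le h0).1 h6

theorem herbst {W φ : E → ℝ} {r : ℝ} (hr : 0 < r) (hW : Continuous W)
    (hc : ConvexOn ℝ univ fun x => W x - r⁻¹ / 2 * ‖x‖ ^ 2) [IsProbabilityMeasure (ms W)]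
    (ht : Tail (ms W)) {c : ℝ} (hφ : ∀ x y, |φ x - φ y| ≤ c * ‖x - y‖) :
    ∫ x, exp (φ x) ∂ms W ≤ exp (∫ x, φ x ∂ms W + r * c ^ 2 / 2) := by
  have hl := LG.of_lip hφ
  have ib : Integrable φ (ms W) := ht.int hl.1.aestronglyMeasurable hl.xg
  have ie : Integrable (fun x => exp (φ x)) (ms W) := ht.int hl.1.exp.aestronglyMeasurable hl.exp_xg
  have key : ∀ t, r < t → ∫ x, exp (φ x) ∂ms W ≤ exp (∫ x, φ x ∂ms W + t * c ^ 2 / 2) := by
    intro t hrt
    have ht0 : 0 < t := hr.trans hrt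
    have e : (fun x => exp (φ x - t * c ^ 2 / 2)) = fun x => exp (φ x) * exp (-(t * c ^ 2 / 2)) := by
      funext x
      rw [← exp_add, sub_eq_add_neg]
    have h1 := (ic_sharp hr hW hc (κ := 1 / (2 * t))
      (one_div_lt_one_div_of_lt (by positivity) (by linarith))).ext (by positivity)
      (a := fun x => φ x - t * c ^ 2 / 2) (b := φ) (hl.1.sub_const _) hl.1
      (by rw [e]; exact ie.mul_const _) ib fun x y => by
        have a1 := (abs_le.1 (hφ y x)).2
        have a2 : 0 ≤ 1 / (2 * t) * (‖y - x‖ - t * c) ^ 2 := by positivity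
        have a3 : 1 / (2 * t) * (‖y - x‖ - t * c) ^ 2 =
            1 / (2 * t) * ‖y - x‖ ^ 2 - c * ‖y - x‖ + t * c ^ 2 / 2 := by
          field_simp
          ring
        linarith
    rw [e, integral_mul_const, exp_neg, mul_inv_le_iff₀ (exp_pos _), ← exp_add] at h1
    exact h1
  have hcont : Continuous fun t : ℝ => exp (∫ x, φ x ∂ms W + t * c ^ 2 / 2) := by fun_prop
  exact ge_of_tendsto ((hcont.tendsto r).mono_left (nhdsWithin_le_nhds (s := Ioi r)))
    (eventually_nhdsWithin_of_forall key)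

theorem t1_lip {W w : E → ℝ} {r : ℝ} (hr : 0 < r) (hW : Continuous W)
    (hc : ConvexOn ℝ univ fun x => W x - r⁻¹ / 2 * ‖x‖ ^ 2) [IsProbabilityMeasure (ms W)]
    (ht : Tail (ms W)) {φ : E → E} (hφ : ∀ x y, ‖φ x - φ y‖ ≤ ‖x - y‖) (hm : Measurable w)
    (h0 : ∀ x, 0 ≤ w x) (hw : XG w) :
    ‖∫ x, w x • φ x ∂ms W - (∫ x, w x ∂ms W) • ∫ x, φ x ∂ms W‖ ^ 2 ≤
      2 * r * (∫ x, w x ∂ms W) * Ent (ms W) w := by
  have hcont : Continuous φ := (LipschitzWith.mk_one fun x y => by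
    rw [dist_eq_norm, dist_eq_norm]
    exact hφ x y).continuous
  have hx : XG φ := XG.of_lin (C := ‖φ 0‖ + 1) fun x => by
    have a1 := hφ x 0
    have a2 := norm_sub_norm_le (φ x) (φ 0)
    have a3 := mul_nonneg (norm_nonneg (φ 0)) (norm_nonneg x)
    rw [sub_zero] at a1
    linarith
  have i1 : Integrable w (ms W) := ht.int hm.aestronglyMeasurable hw
  have i2 : Integrable φ (ms W) := ht.int hcont.aestronglyMeasurable hx
  have i3 : Integrable (fun x => w x • φ x) (ms W) :=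
    ht.int (hm.aestronglyMeasurable.smul hcont.aestronglyMeasurable) (hw.smul hx)
  have i4 : Integrable (fun x => w x * log (w x)) (ms W) :=
    ht.int (hm.mul hm.log).aestronglyMeasurable (hw.mul_log h0)
  rcases (integral_nonneg h0 : 0 ≤ ∫ x, w x ∂ms W).eq_or_lt with h1 | h1
  · have h2 := (integral_eq_zero_iff_of_nonneg h0 i1).1 h1.symm
    have h3 : ∫ x, w x • φ x ∂ms W = 0 := by
      refine integral_eq_zero_of_ae ?_
      filter_upwards [h2] with x hx
      rw [hx, Pi.zero_apply, zero_smul, Pi.zero_apply]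
    rw [h3, ← h1]
    simp
  · set m := ∫ x, w x ∂ms W with hm'
    set v := ∫ x, w x • φ x ∂ms W - m • ∫ x, φ x ∂ms W with hv
    set θ := (r * m)⁻¹ • v with hθ
    have hL : ∀ x y, |⟪θ, φ x⟫ - ⟪θ, φ y⟫| ≤ ‖θ‖ * ‖x - y‖ := fun x y => by
      rw [← inner_sub_right]
      exact (abs_real_inner_le_norm _ _).trans (mul_le_mul_of_nonneg_left (hφ x y) (norm_nonneg _))
    have hl := LG.of_lip hL
    have e1 : (fun x => w x * ⟪θ, φ x⟫) = fun x => ⟪θ, w x • φ x⟫ := by
      funext x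
      rw [inner_smul_right]
    have h2 := gibbs h0 i1 i4 (G := fun x => ⟪θ, φ x⟫) (by rw [e1]; exact i3.const_inner θ)
      (ht.int hl.1.exp.aestronglyMeasurable hl.exp_xg) (exp_pos _) (herbst hr hW hc ht hL)
    rw [e1, integral_inner i3, integral_inner i2, log_exp, ← hm'] at h2
    have e2 : ⟪θ, ∫ x, w x • φ x ∂ms W⟫ - m * ⟪θ, ∫ x, φ x ∂ms W⟫ = (r * m)⁻¹ * ‖v‖ ^ 2 := by
      rw [← inner_smul_right, ← inner_sub_right, ← hv, hθ, real_inner_smul_left,
        real_inner_self_eq_norm_sq]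
    have e3 : m * (r * ‖θ‖ ^ 2 / 2) = (r * m)⁻¹ * ‖v‖ ^ 2 / 2 := by
      rw [hθ, norm_smul, mul_pow, Real.norm_eq_abs, sq_abs]
      field_simp
    have h3 : (r * m)⁻¹ * ‖v‖ ^ 2 ≤ 2 * Ent (ms W) w := by linarith
    rw [inv_mul_le_iff₀ (mul_pos hr h1)] at h3
    linarith

end Vale.Agent.P245B
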