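import Vale.Agent.P245C.FibG
import Vale.Agent.P245C.T1
import Vale.Agent.P245C.BEs

/-! Fibrewise entropy inequalities. -/

open MeasureTheory ProbabilityTheory Real Set Filter Topology
open scoped ENNReal RealInnerProductSpace

noncomputable section

namespace Vale.Agent.P245B

open Vale.Agent.P245 (Ent gibbs Ent_nonneg)

set_option linter.unusedSectionVars false

variable {E : Type} [NormedAddCommGroup E] [InnerProductSpace ℝ E] [FiniteDimensional ℝ E]
  [CompleteSpace E] [MeasurableSpace E] [BorelSpace E]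

variable {U F g : E → ℝ} {r : ℝ}

namespace FibE

theorem wa_cont (hU : Cv U) (hr : 0 < r) (a : E) : Continuous (Wa U r a) :=
  (Wa_cont hU hr).uncurry_left a

theorem prob (hU : Cv U) (hr : 0 < r) (a : E) : IsProbabilityMeasure (ms (Wa U r a)) := by
  rw [← fk_apply hU hr]
  exact (fk_markov hU hr).isProbabilityMeasure a

theorem tail (hU : Cv U) (hr : 0 < r) (a : E) : Tail (ms (Wa U r a)) := by
  rw [← fk_apply hU hr]
  exact fk_tail hU hr a

theorem ko_dens (hU : Cv U) (hr : 0 < r) {G : Type} [NormedAddCommGroup G] [NormedSpace ℝ G]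
    (u : E → G) (a : E) : Ko U r u a = ∫ b, exp (-Wa U r a b) • u b := by
  rw [Ko_eq hU hr, ← integral_smul]
  refine integral_congr_ae (Eventually.of_forall fun b => ?_)
  simp only [exp_Wa hU hr, smul_smul, div_eq_inv_mul]

theorem ko_tilt (hU : Cv U) (hr : 0 < r) {G : Type} [NormedAddCommGroup G] [NormedSpace ℝ G]
    (u : E → G) (a a' : E) :
    ∫ b, exp (Wa U r a b - Wa U r a' b) • u b ∂ms (Wa U r a) = Ko U r u a' := by
  rw [← fk_apply hU hr, ko_dens hU hr]
  refine (ko_dens hU hr _ a).trans (integral_congr_ae (Eventually.of_forall fun b => ?_))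
  simp only [smul_smul, ← exp_add]
  congr 2
  ring

theorem one (hU : Cv U) (hr : 0 < r) {a a' v : E} {c : ℝ}
    (h : ∀ b, Wa U r a b - Wa U r a' b = ⟪v, b⟫ + c) :
    ‖Ko U r (fun b => b) a' - Ko U r (fun b => b) a‖ ^ 2 ≤
      2 * r * (⟪v, Ko U r (fun b => b) a'⟫ + c) := by
  have := prob hU hr a
  have := (fk_markov hU hr).isProbabilityMeasure a'
  have hl : LG fun b => Wa U r a b - Wa U r a' b := LG.of_lip (R := ‖v‖) fun x y => by
    rw [h, h, add_sub_add_right_eq_sub, ← inner_sub_right]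
    exact abs_real_inner_le_norm _ _
  have h1 := t1_lip hr (wa_cont hU hr a) (Wa_cvx hU hr a) (tail hU hr a) (φ := fun b => b)
    (fun _ _ => le_rfl) hl.1.exp (fun _ => (exp_pos _).le) hl.exp_xg
  have h2 : ∫ b, exp (Wa U r a b - Wa U r a' b) ∂ms (Wa U r a) = 1 := by
    have h3 := ko_tilt hU hr (fun _ => (1 : ℝ)) a a'
    simpa [Ko] using h3
  have hi : Integrable (fun b : E => b) (fk U r a') :=
    (fk_tail hU hr a').int aestronglyMeasurable_id
      (XG.of_lin (C := 1) fun x => by rw [one_mul]; exact le_add_of_nonneg_left zero_le_one)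
  have h4 : ∫ b, exp (Wa U r a b - Wa U r a' b) * log (exp (Wa U r a b - Wa U r a' b))
      ∂ms (Wa U r a) = ⟪v, Ko U r (fun b => b) a'⟫ + c := by
    have h3 := ko_tilt hU hr (fun b => ⟪v, b⟫ + c) a a'
    rw [Ko, integral_add (hi.const_inner v) (integrable_const c), integral_inner hi] at h3
    simp only [integral_const, probReal_univ, smul_eq_mul, one_mul] at h3
    rw [Ko, ← h3]
    exact integral_congr_ae (Eventually.of_forall fun b => by simp only [log_exp, h])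
  rw [Ent, h2, h4, ko_tilt hU hr, one_smul, ← fk_apply hU hr, log_one, mul_zero, sub_zero,
    mul_one] at h1
  exact h1

theorem affine (hr : 0 < r) (U : E → ℝ) (a a' : E) :
    ∃ c : ℝ, ∀ b, Wa U r a b - Wa U r a' b = ⟪r⁻¹ • (a' - a), b⟫ + c := by
  refine ⟨(‖a‖ ^ 2 - ‖a'‖ ^ 2) / (2 * r) + (log (pf U r a) - log (pf U r a')), fun b => ?_⟩
  have e : ∀ z : E, log (ga r z) = -(‖z‖ ^ 2 / (2 * r)) - log (∫ w : E, gs r w) := fun z => by
    rw [ga, gs, log_div (exp_pos _).ne' (gs_pos hr).ne', log_exp]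
  rw [Wa, Wa, e, e, norm_sub_sq_real, norm_sub_sq_real, real_inner_smul_left, inner_sub_left]
  field_simp
  ring

end FibE

theorem fib_lip (hU : Cv U) (hr : 0 < r) (hF : PB F) {φ : E → E}
    (hφ : ∀ x y, ‖φ x - φ y‖ ≤ ‖x - y‖) (a : E) :
    Ko U r F a * ‖(Ko U r F a)⁻¹ • Ko U r (fun b => F b • φ b) a - Ko U r φ a‖ ^ 2 ≤
      2 * r * (Ko U r (fun b => F b * log (F b)) a - Ko U r F a * log (Ko U r F a)) := by
  have := FibE.prob hU hr a
  have hk := (Ko_pb hU hr hF).pos a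
  obtain ⟨C, -, hC⟩ := hF.bdd
  have h1 := t1_lip hr (FibE.wa_cont hU hr a) (Wa_cvx hU hr a) (FibE.tail hU hr a) hφ hF.1
    (fun b => (hF.pos b).le) (XG.of_bdd (C := C) fun b => (hC b).1)
  rw [← fk_apply hU hr] at h1
  have e : (Ko U r F a)⁻¹ • Ko U r (fun b => F b • φ b) a - Ko U r φ a =
      (Ko U r F a)⁻¹ • (Ko U r (fun b => F b • φ b) a - Ko U r F a • Ko U r φ a) := by
    rw [smul_sub, smul_smul, inv_mul_cancel₀ hk.ne', one_smul]
  rw [e, norm_smul, mul_pow, Real.norm_of_nonneg (inv_nonneg.2 hk.le), ← mul_assoc, sq,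
    mul_inv_cancel_left₀ hk.ne', inv_mul_le_iff₀ hk, ← mul_assoc, mul_comm (Ko U r F a)]
  exact h1

theorem sh_le (hU : Cv U) (hr : 0 < r) (hF : PB F) (a : E) :
    Ko U r F a * ‖sh U r F a‖ ^ 2 ≤
      2 * r * (Ko U r (fun b => F b * log (F b)) a - Ko U r F a * log (Ko U r F a)) :=
  fib_lip hU hr hF (φ := fun b => b) (fun _ _ => le_rfl) a

theorem sh_bdd (hU : Cv U) (hr : 0 < r) (hF : PB F) : ∃ M : ℝ, ∀ a, ‖sh U r F a‖ ≤ M := by
  obtain ⟨C, -, hC⟩ := hF.bdd
  obtain ⟨D, -, hD⟩ := (Ko_pb hU hr hF).bdd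
  refine ⟨1 + D * (2 * r * (C + D)), fun a => ?_⟩
  have hk := (Ko_pb hU hr hF).pos a
  have h1 := sh_le hU hr hF a
  have h2 : Ko U r (fun b => F b * log (F b)) a ≤ C :=
    (le_abs_self _).trans (Ko_bdd hU hr (F := fun b => F b * log (F b)) (fun b => (hC b).2.2.1) a)
  have h3 := (abs_le.1 (hD a).2.2.1).1
  have h4 : Ko U r F a * ‖sh U r F a‖ ^ 2 ≤ 2 * r * (C + D) :=
    h1.trans (mul_le_mul_of_nonneg_left (by linarith) (by positivity))
  have h5 : ‖sh U r F a‖ ^ 2 ≤ D * (2 * r * (C + D)) := by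
    refine ((le_inv_mul_iff₀ hk).2 h4).trans (mul_le_mul_of_nonneg_right
      ((le_abs_self _).trans (hD a).2.2.2) (le_trans ?_ h4))
    positivity
  nlinarith [sq_nonneg (‖sh U r F a‖ - 1)]

theorem lg_bd (hU : Cv U) (hr : 0 < r) (hF : PB F) : Bd (lg U r F) := by
  obtain ⟨M, hM⟩ := sh_bdd hU hr hF
  obtain ⟨D, -, hD⟩ := (Ko_pb hU hr hF).bdd
  refine ⟨contDiff_one_iff_fderiv.2 ⟨fun a => (lg_grad hU hr hF a).differentiableAt, ?_⟩,
    max D (r⁻¹ * M), fun a => ⟨(hD a).2.1.trans (le_max_left _ _), le_trans ?_ (le_max_right _ _)⟩⟩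
  · rw [funext fun a => (lg_grad hU hr hF a).hasFDerivAt.fderiv]
    exact (InnerProductSpace.toDual ℝ E).continuous.comp ((sh_cont hU hr hF).const_smul r⁻¹)
  · rw [(lg_grad hU hr hF a).gradient, norm_smul, Real.norm_of_nonneg (inv_nonneg.2 hr.le)]
    exact mul_le_mul_of_nonneg_left (hM a) (inv_nonneg.2 hr.le)

theorem fib_drop (hU : Cv U) (hr : 0 < r) (hg : Bd g) (a : E) :
    Ko U r (fun b => exp (g b) * log (exp (g b))) a -
        Ko U r (fun b => exp (g b)) a * log (Ko U r (fun b => exp (g b)) a) ≤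
      r / 2 * Ko U r (fun b => ‖gradient g b‖ ^ 2 * exp (g b)) a := by
  have := FibE.prob hU hr a
  have h1 := bakry_lc hr (FibE.wa_cont hU hr a) (Wa_cvx hU hr a) (FibE.tail hU hr a) hg.lc
  rw [← fk_apply hU hr] at h1
  exact h1

theorem mean_lip (hU : Cv U) (hr : 0 < r) (a a' : E) :
    ‖Ko U r (fun b => b) a - Ko U r (fun b => b) a'‖ ≤ ‖a - a'‖ := by
  obtain ⟨c, hc⟩ := FibE.affine hr U a a'
  have h1 := FibE.one hU hr hc
  have h2 := FibE.one hU hr (a := a') (a' := a) (v := -(r⁻¹ • (a' - a))) (c := -c) fun b => by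
    rw [inner_neg_left, ← neg_add, ← hc, neg_sub]
  generalize Ko U r (fun b => b) a = m at h1 h2 ⊢
  generalize Ko U r (fun b => b) a' = m' at h1 h2 ⊢
  rw [norm_sub_rev m' m] at h1
  rw [inner_neg_left] at h2
  have h3 : r * (⟪r⁻¹ • (a' - a), m'⟫ - ⟪r⁻¹ • (a' - a), m⟫) = ⟪a - a', m - m'⟫ := by
    rw [← inner_sub_right, real_inner_smul_left, mul_inv_cancel_left₀ hr.ne', ← inner_neg_neg,
      neg_sub, neg_sub]
  have h4 := real_inner_le_norm (a - a') (m - m')
  have h5 : ‖m - m'‖ ^ 2 ≤ ‖a - a'‖ * ‖m - m'‖ := by linarith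
  by_contra h6
  nlinarith [norm_nonneg (a - a'), not_le.1 h6]

end Vale.Agent.P245B
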