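import Vale.Agent.P245C.Fib

/-! The gradient of the logarithm of an average. -/

open MeasureTheory ProbabilityTheory Real Set Filter Topology
open scoped ENNReal RealInnerProductSpace

noncomputable section

namespace Vale.Agent.P245B

open Vale.Agent.P245 (Ent gibbs Ent_nonneg)

set_option linter.unusedSectionVars false

variable {E : Type} [NormedAddCommGroup E] [InnerProductSpace ℝ E] [FiniteDimensional ℝ E]
  [CompleteSpace E] [MeasurableSpace E] [BorelSpace E]

variable {U F g : E → ℝ} {r : ℝ}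

namespace FibG

theorem grad_int {φ : E → E → ℝ} {φ' : E → E → E} {a : E} {s : Set E} (hs : s ∈ 𝓝 a)
    {B : E → ℝ} (hm : ∀ x, AEStronglyMeasurable (φ x) volume) (hi : Integrable (φ a))
    (hm' : AEStronglyMeasurable (φ' a) volume) (hb : ∀ b, ∀ x ∈ s, ‖φ' x b‖ ≤ B b)
    (hB : Integrable B) (hd : ∀ b, ∀ x ∈ s, HasGradientAt (fun x => φ x b) (φ' x b) x) :
    HasGradientAt (fun x => ∫ b, φ x b) (∫ b, φ' a b) a := by
  have h1 : AEStronglyMeasurable (fun b => InnerProductSpace.toDual ℝ E (φ' a b)) volume :=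
    (InnerProductSpace.toDual ℝ E).continuous.comp_aestronglyMeasurable hm'
  have h2 : ∀ b, ∀ x ∈ s, ‖InnerProductSpace.toDual ℝ E (φ' x b)‖ ≤ B b := fun b x hx => by
    rw [LinearIsometryEquiv.norm_map]
    exact hb b x hx
  have h := hasFDerivAt_integral_of_dominated_of_fderiv_le (μ := volume) (𝕜 := ℝ) (F := φ)
    (F' := fun x b => InnerProductSpace.toDual ℝ E (φ' x b)) (x₀ := a) (bound := B) hs
    (Eventually.of_forall hm) hi h1 (ae_of_all _ h2) hB
    (ae_of_all _ fun b x hx => (hd b x hx).hasFDerivAt)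
  refine hasGradientAt_iff_hasFDerivAt.2 (h.congr_fderiv ?_)
  have h3 := mem_of_mem_nhds hs
  ext v
  rw [ContinuousLinearMap.integral_apply (hB.mono' h1 (ae_of_all _ fun b => h2 b a h3)),
    InnerProductSpace.toDual_apply_apply, real_inner_comm,
    ← integral_inner (hB.mono' hm' (ae_of_all _ fun b => hb b a h3))]
  simp only [InnerProductSpace.toDual_apply_apply, real_inner_comm v]

theorem ga_near (hr : 0 < r) : ∃ K : ℝ, 0 ≤ K ∧ ∀ a x b : E, ‖x - a‖ ≤ 1 →
    ga r (x - b) ≤ K * ga (2 * r) (a - b) := by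
  have h1 := gs_pos (E := E) hr
  have h2 := gs_pos (E := E) (mul_pos two_pos hr)
  refine ⟨exp (1 / (2 * r)) * ((∫ w : E, gs (2 * r) w) / ∫ w : E, gs r w), by positivity,
    fun a x b h => ?_⟩
  have h3 : ‖a - b‖ ≤ ‖x - b‖ + 1 := by
    have h4 := norm_sub_le (x - b) (x - a)
    rw [sub_sub_sub_cancel_left] at h4
    linarith
  have h4 : ‖a - b‖ ^ 2 ≤ 2 * ‖x - b‖ ^ 2 + 2 := by
    nlinarith [pow_le_pow_left₀ (norm_nonneg _) h3 2, sq_nonneg (‖x - b‖ - 1)]
  have h5 : gs r (x - b) ≤ exp (1 / (2 * r)) * gs (2 * r) (a - b) := by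
    rw [gs, gs, ← exp_add, exp_le_exp, ← sub_eq_add_neg, neg_le_sub_iff_le_add, ← add_div,
      div_le_div_iff₀ (by positivity) (by positivity)]
    nlinarith
  calc ga r (x - b) ≤ exp (1 / (2 * r)) * gs (2 * r) (a - b) / ∫ w : E, gs r w :=
        div_le_div_of_nonneg_right h5 h1.le
    _ = _ := by
        rw [ga]
        field_simp

theorem xg_id : XG fun b : E => b := XG.of_lin (C := 1) fun b => by linarith

theorem xg_pb (hF : PB F) : XG F := by
  obtain ⟨C, -, hC⟩ := hF.bdd
  exact XG.of_bdd fun b => (hC b).1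

theorem ko_zero (hr : 0 < r) {G : Type} [NormedAddCommGroup G] [NormedSpace ℝ G] (F : E → G)
    (a : E) : Ko (fun _ => 0) r F a = ∫ y, ga r y • F (a + y) := by
  rw [Ko_eq cv_zero hr, pf_zero hr, inv_one, one_smul, ← integral_add_left_eq_self _ a]
  simp only [sub_add_cancel_left, ga_neg, neg_zero, exp_zero, mul_one]

end FibG

theorem cv_grad (hU : Cv U) (hr : 0 < r) (hm : Measurable F) (hF : XG F) (a : E) :
    HasGradientAt (fun a => ∫ b, ga r (a - b) * exp (-U b) * F b)
      (r⁻¹ • ∫ b, (ga r (a - b) * exp (-U b) * F b) • (b - a)) a := by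
  obtain ⟨K, hK, hg⟩ := FibG.ga_near (E := E) hr
  have hc := hU.cont
  have h1 : ∀ x, Measurable fun b => ga r (x - b) * exp (-U b) * F b := fun x =>
    ((Smo.cont r x).measurable.mul hc.measurable.neg.exp).mul hm
  have h2 : XG fun b => (1 + ‖a - b‖) * |F b| :=
    (XG.of_lin (C := 1 + ‖a‖) fun b => by
      rw [Real.norm_of_nonneg (by positivity)]
      nlinarith [norm_sub_le a b, norm_nonneg a, norm_nonneg b,
        mul_nonneg (norm_nonneg a) (norm_nonneg b)]).mul (hF.of_le fun b => (abs_abs _).le)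
  have h3 := (pf_int hU (mul_pos two_pos hr) a (((by fun_prop : Continuous fun b : E =>
    1 + ‖a - b‖).measurable.mul hm.abs).aestronglyMeasurable) h2).const_mul (r⁻¹ * K)
  rw [← integral_smul]
  refine FibG.grad_int (φ' := fun x b => r⁻¹ • (ga r (x - b) * exp (-U b) * F b) • (b - x))
    (Metric.closedBall_mem_nhds a one_pos) (fun x => (h1 x).aestronglyMeasurable)
    (pf_int hU hr a hm.aestronglyMeasurable hF)
    (((h1 a).smul (measurable_id.sub_const a)).const_smul r⁻¹).aestronglyMeasurable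
    (fun b x hx => ?_) h3 fun b x _ => ?_
  · rw [Metric.mem_closedBall, dist_eq_norm] at hx
    have h4 := ga_pos hr (x - b)
    have h5 := ga_pos (mul_pos two_pos hr) (a - b)
    have h6 : ‖b - x‖ ≤ 1 + ‖a - b‖ := by
      have h7 := norm_add_le (x - a) (a - b)
      rw [sub_add_sub_cancel, norm_sub_rev] at h7
      linarith
    rw [norm_smul, norm_smul, Real.norm_of_nonneg (inv_pos.2 hr).le, Real.norm_eq_abs, abs_mul,
      abs_of_pos (mul_pos h4 (exp_pos _)), smul_eq_mul]
    calc _ ≤ r⁻¹ * (K * ga (2 * r) (a - b) * exp (-U b) * |F b| * (1 + ‖a - b‖)) := by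
          gcongr
          exact hg a x b hx
      _ = _ := by
          rw [Pi.mul_apply]
          ring
  · have h4 : HasFDerivAt (fun y : E => y - b) (ContinuousLinearMap.id ℝ E) x :=
      (hasFDerivAt_id x).sub_const b
    refine hasGradientAt_iff_hasFDerivAt.2 ((((HasFDerivAt.comp (f := fun y : E => y - b) x
      (Smo.has_dg hr (x - b)) h4).mul_const (exp (-U b))).mul_const (F b)).congr_fderiv ?_)
    ext v
    rw [← neg_sub x b]
    simp only [Smo.dg, ContinuousLinearMap.smul_apply, ContinuousLinearMap.comp_apply,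
      ContinuousLinearMap.id_apply, innerSL_apply_apply, smul_eq_mul,
      InnerProductSpace.toDual_apply_apply, real_inner_smul_left, inner_neg_left]
    ring

theorem lg_grad (hU : Cv U) (hr : 0 < r) (hF : PB F) (a : E) :
    HasGradientAt (lg U r F) (r⁻¹ • sh U r F a) a := by
  have hx := FibG.xg_pb hF
  have h1 := (cv_grad hU hr hF.1 hx a).hasFDerivAt
  have h2 := (cv_grad hU hr measurable_const (XG.of_bdd fun _ => le_refl ‖(1 : ℝ)‖) a).hasFDerivAt
  simp only [mul_one] at h2
  have h3 : ∀ a, ∫ b, ga r (a - b) * exp (-U b) * F b = pf U r a * Ko U r F a := fun a => by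
    rw [Ko_eq hU hr, smul_eq_mul, mul_inv_cancel_left₀ (pf_pos hU hr a).ne']
    rfl
  have hp := pf_pos hU hr a
  have hk := fun a => (Ko_pb hU hr hF).pos a
  have h4 := (h1.log (by rw [h3]; exact (mul_pos hp (hk a)).ne')).sub (h2.log hp.ne')
  have i1 := pf_int hU hr a hF.1.aestronglyMeasurable hx
  have i2 := pf_int hU hr a (hF.1.smul measurable_id).aestronglyMeasurable (hx.smul FibG.xg_id)
  have i3 := pf_int hU hr a aestronglyMeasurable_const (XG.of_bdd fun _ => le_refl ‖(1 : ℝ)‖)
  have i4 := pf_int hU hr a measurable_id.aestronglyMeasurable FibG.xg_id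
  simp only [smul_eq_mul, mul_one, id, smul_smul, Pi.smul_apply'] at i1 i2 i3 i4
  refine hasGradientAt_iff_hasFDerivAt.2 ((h4.congr_fderiv ?_).congr_of_eventuallyEq
    (Eventually.of_forall fun x => ?_))
  · rw [← map_smul, ← map_smul, ← map_sub]
    simp only [smul_sub]
    rw [integral_sub i2 (i1.smul_const a), integral_sub i4 (i3.smul_const a), integral_smul_const,
      integral_smul_const, h3, sh, Ko_eq hU hr (fun b => F b • b), Ko_eq hU hr fun b => b]
    simp only [smul_smul]
    refine congrArg _ ?_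
    rw [show ∫ b, ga r (a - b) * exp (-U b) = pf U r a from rfl]
    have h5 := (hk a).ne'
    match_scalars <;> field_simp
    ring
  · change log (Ko U r F x) = log _ - log (pf U r x)
    rw [h3, log_mul (pf_pos hU hr x).ne' (hk x).ne', add_sub_cancel_left]

theorem sh_cont (hU : Cv U) (hr : 0 < r) (hF : PB F) : Continuous (sh U r F) := by
  have hx := FibG.xg_pb hF
  exact (((Ko_cont hU hr hF.1.stronglyMeasurable hx).inv₀ fun a =>
    ((Ko_pb hU hr hF).pos a).ne').smul (Ko_cont hU hr
      (hF.1.smul measurable_id).stronglyMeasurable (hx.smul FibG.xg_id))).sub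
    (Ko_cont hU hr stronglyMeasurable_id FibG.xg_id)

theorem exp_lg (hU : Cv U) (hr : 0 < r) (hF : PB F) (a : E) :
    exp (lg U r F a) = Ko U r F a := by
  exact exp_log ((Ko_pb hU hr hF).pos a)

theorem grad_zero (hr : 0 < r) (hg : Bd g) (a : E) :
    r⁻¹ • sh (fun _ => 0) r (fun b => exp (g b)) a =
      (Ko (fun _ => 0) r (fun b => exp (g b)) a)⁻¹ •
        Ko (fun _ => 0) r (fun b => exp (g b) • gradient g b) a := by
  obtain ⟨M, hM⟩ := hg.2
  have hc := hg.cont
  have hc' := hg.lc.grad_cont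
  have hc'' := ga_cont (E := E) r
  have he : ∀ x, exp (g x) ≤ exp M := fun x => exp_le_exp.2 ((le_abs_self _).trans (hM x).1)
  have h1 : HasGradientAt (fun x => ∫ y, ga r y • exp (g (x + y)))
      (∫ y, ga r y • exp (g (a + y)) • gradient g (a + y)) a := by
    refine FibG.grad_int (φ' := fun x y => ga r y • exp (g (x + y)) • gradient g (x + y))
      univ_mem (fun x => Continuous.aestronglyMeasurable (by fun_prop))
      (((ga_int hr).mul_const (exp M)).mono' (Continuous.aestronglyMeasurable (by fun_prop))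
        (ae_of_all _ fun y => ?_)) (Continuous.aestronglyMeasurable (by fun_prop))
      (fun y x _ => ?_) ((ga_int hr).mul_const (exp M * M)) fun y x _ => ?_
    · rw [smul_eq_mul, Real.norm_of_nonneg (mul_pos (ga_pos hr y) (exp_pos _)).le]
      exact mul_le_mul_of_nonneg_left (he _) (ga_pos hr y).le
    · rw [norm_smul, norm_smul, Real.norm_of_nonneg (ga_pos hr y).le,
        Real.norm_of_nonneg (exp_pos _).le]
      exact mul_le_mul_of_nonneg_left (mul_le_mul (he _) (hM _).2 (norm_nonneg _) (exp_pos _).le)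
        (ga_pos hr y).le
    · have h2 := ((hg.1.differentiable one_ne_zero) (x + y)).hasGradientAt.hasFDerivAt
      refine hasGradientAt_iff_hasFDerivAt.2
        ((((hasFDerivAt_comp_add_right y).2 h2).exp.const_smul (ga r y)).congr_fderiv ?_)
      rw [map_smul, map_smul]
  have h2 := h1.hasFDerivAt.log (by
    rw [← FibG.ko_zero hr fun b => exp (g b)]
    exact ((Ko_pb cv_zero hr hg.pb).pos a).ne')
  rw [← map_smul, ← FibG.ko_zero hr fun b => exp (g b),
    ← FibG.ko_zero hr fun b => exp (g b) • gradient g b] at h2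
  refine (lg_grad cv_zero hr hg.pb a).unique (hasGradientAt_iff_hasFDerivAt.2
    (h2.congr_of_eventuallyEq (Eventually.of_forall fun x => ?_)))
  exact congrArg log (FibG.ko_zero hr _ x)

end Vale.Agent.P245B
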