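import Vale.Agent.P245C.Fib

/-! The semigroup property. -/

open MeasureTheory ProbabilityTheory Real Set Filter Topology
open scoped ENNReal RealInnerProductSpace

noncomputable section

namespace Vale.Agent.P245B

open Vale.Agent.P245 (Ent gibbs Ent_nonneg)

set_option linter.unusedSectionVars false

variable {E : Type} [NormedAddCommGroup E] [InnerProductSpace ℝ E] [FiniteDimensional ℝ E]
  [CompleteSpace E] [MeasurableSpace E] [BorelSpace E]

variable {V : E → ℝ} {s r : ℝ}

namespace Semi

theorem sq (hs : 0 < s) (hr : 0 < r) (u v : E) :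
    ‖u‖ ^ 2 / (2 * r) + ‖v‖ ^ 2 / (2 * s) = ‖u + v‖ ^ 2 / (2 * (s + r)) +
      ‖v - (s / (s + r)) • (u + v)‖ ^ 2 / (2 * (s * r / (s + r))) := by
  have h : 0 < s + r := add_pos hs hr
  rw [norm_sub_sq_real, norm_smul, mul_pow, inner_smul_right, inner_add_right, norm_add_sq_real,
    real_inner_self_eq_norm_sq, real_inner_comm u v, Real.norm_eq_abs, sq_abs]
  field_simp
  ring

theorem point (hs : 0 < s) (hr : 0 < r) (u v : E) :
    ga r u * ga s v = ga (s + r) (u + v) * ga (s * r / (s + r)) (v - (s / (s + r)) • (u + v)) := by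
  have h : 0 < s + r := add_pos hs hr
  have h' : 0 < s * r / (s + r) := by positivity
  have e : 2 * π * r * (2 * π * s) = 2 * π * (s + r) * (2 * π * (s * r / (s + r))) := by
    field_simp
  simp only [ga]
  rw [gs_val hs, gs_val hr, gs_val h, gs_val h', div_mul_div_comm, div_mul_div_comm,
    ← Real.mul_rpow (by positivity) (by positivity), ← Real.mul_rpow (by positivity) (by positivity),
    e, gs, gs, gs, gs, ← exp_add, ← exp_add, ← neg_add, ← neg_add, sq hs hr]

end Semi

theorem ga_conv (hs : 0 < s) (hr : 0 < r) (x z : E) :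
    ∫ y, ga r (z - y) * ga s (y - x) = ga (s + r) (z - x) := by
  have h' : 0 < s * r / (s + r) := by positivity
  have e : ∀ y : E, ga r (z - y) * ga s (y - x) =
      ga (s + r) (z - x) * ga (s * r / (s + r)) (y - (x + (s / (s + r)) • (z - x))) := fun y => by
    rw [Semi.point hs hr, sub_add_sub_cancel, sub_sub]
  simp only [e]
  rw [integral_const_mul, integral_sub_right_eq_self (ga (s * r / (s + r))), ga_one h', mul_one]

namespace Semi

theorem swap (hV : Pot V 0) (ht : Tail (ms V)) (hs : 0 < s) (hr : 0 < r) {G : Type}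
    [NormedAddCommGroup G] [NormedSpace ℝ G] [CompleteSpace G] {F : E → G}
    (hm : StronglyMeasurable F) (hF : XG F) (z : E) :
    ∫ y, ga r (z - y) • ∫ x, (ga s (y - x) * exp (-V x)) • F x =
      ∫ x, (ga (s + r) (z - x) * exp (-V x)) • F x := by
  have hc : Continuous V := hV.diff.continuous
  have i1 : Integrable fun x => ‖F x‖ * exp (-V x) :=
    (integrable_ms hc.measurable _).1 (ht.int hm.aestronglyMeasurable hF).norm
  have i2 : Integrable fun y : E => ga r (z - y) := (ga_int hr).comp_sub_left z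
  have c1 : Continuous fun p : E × E => ga r (z - p.1) * ga s (p.1 - p.2) * exp (-V p.2) :=
    (((ga_cont r).comp (continuous_const.sub continuous_fst)).mul
      ((ga_cont s).comp (continuous_fst.sub continuous_snd))).mul
      (hc.comp continuous_snd).neg.rexp
  have i3 : Integrable (Function.uncurry fun y x : E =>
      (ga r (z - y) * ga s (y - x) * exp (-V x)) • F x) (volume.prod volume) := by
    refine ((i2.mul_prod i1).const_mul (∫ w : E, gs s w)⁻¹).mono'
      (c1.stronglyMeasurable.smul (hm.comp_measurable measurable_snd)).aestronglyMeasurable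
      (ae_of_all _ fun p => ?_)
    have h1 := ga_pos hr (z - p.1)
    have h2 := ga_pos hs (p.1 - p.2)
    have h3 := ga_le hs (p.1 - p.2)
    have h4 := exp_pos (-V p.2)
    have h5 := norm_nonneg (F p.2)
    change ‖(ga r (z - p.1) * ga s (p.1 - p.2) * exp (-V p.2)) • F p.2‖ ≤ _
    rw [norm_smul, Real.norm_of_nonneg (by positivity)]
    calc _ = ga s (p.1 - p.2) * (ga r (z - p.1) * (‖F p.2‖ * exp (-V p.2))) := by ring
      _ ≤ _ := mul_le_mul_of_nonneg_right h3 (by positivity)
  calc _ = ∫ y, ∫ x, (ga r (z - y) * ga s (y - x) * exp (-V x)) • F x := by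
        refine integral_congr_ae (ae_of_all _ fun y => ?_)
        simp only [← integral_smul, smul_smul, mul_assoc]
    _ = ∫ x, ∫ y, (ga r (z - y) * ga s (y - x) * exp (-V x)) • F x := integral_integral_swap i3
    _ = _ := by
        refine integral_congr_ae (ae_of_all _ fun x => ?_)
        simp only
        rw [integral_smul_const, integral_mul_const, ga_conv hs hr]

end Semi

theorem pf_semi (hV : Pot V 0) (ht : Tail (ms V)) (hs : 0 < s) (hr : 0 < r) (z : E) :
    pf (Vt (ms V) s) r z = pf V (s + r) z := by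
  have := hV.prob
  have h := Semi.swap hV ht hs hr (F := fun _ => (1 : ℝ)) stronglyMeasurable_const
    (XG.of_bdd (C := 1) fun _ => by simp) z
  simp only [smul_eq_mul, mul_one] at h
  rw [pf, pf, ← h]
  refine integral_congr_ae (ae_of_all _ fun y => ?_)
  simp only
  rw [pf_Vt hV.cv hs, pf]

theorem Vt_semi (hV : Pot V 0) (ht : Tail (ms V)) (hs : 0 < s) (hr : 0 < r) :
    Vt (ms (Vt (ms V) s)) r = Vt (ms V) (s + r) := by
  have := hV.prob
  have hU := hV.conv ht hs
  have := hU.prob
  funext z
  refine neg_injective (exp_injective ?_)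
  rw [pf_Vt hU.cv hr, pf_Vt hV.cv (add_pos hs hr), pf_semi hV ht hs hr]

theorem Ko_semi (hV : Pot V 0) (ht : Tail (ms V)) (hs : 0 < s) (hr : 0 < r) {G : Type}
    [NormedAddCommGroup G] [NormedSpace ℝ G] [CompleteSpace G] {F : E → G}
    (hm : StronglyMeasurable F) {C : ℝ} (hF : ∀ x, ‖F x‖ ≤ C * (1 + ‖x‖)) (z : E) :
    Ko (Vt (ms V) s) r (Ko V s F) z = Ko V (s + r) F z := by
  have := hV.prob
  have hU := hV.conv ht hs
  rw [Ko_eq hU.cv hr, Ko_eq hV.cv (add_pos hs hr), pf_semi hV ht hs hr,
    ← Semi.swap hV ht hs hr hm (XG.of_lin hF) z]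
  congr 1
  refine integral_congr_ae (ae_of_all _ fun y => ?_)
  simp only
  rw [pf_Vt hV.cv hs, Ko_eq hV.cv hs, smul_smul, mul_assoc,
    mul_inv_cancel₀ (pf_pos hV.cv hs y).ne', mul_one]

end Vale.Agent.P245B
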