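import Vale.Agent.P245C.Drop
import Vale.Agent.P245C.Semi

/-! One forward step. -/

open MeasureTheory ProbabilityTheory Real Set Filter Topology
open scoped ENNReal RealInnerProductSpace

noncomputable section

namespace Vale.Agent.P245B

open Vale.Agent.P245 (Ent gibbs Ent_nonneg)

set_option linter.unusedSectionVars false

variable {E : Type} [NormedAddCommGroup E] [InnerProductSpace ℝ E] [FiniteDimensional ℝ E]
  [CompleteSpace E] [MeasurableSpace E] [BorelSpace E]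

variable {V f : E → ℝ} {s r : ℝ}

namespace Fwd

theorem fd (hV : Cv V) (hs : 0 < s) (hf : PB f) :
    StronglyMeasurable (fun y => Ko V s f y • sh V s f y) ∧
      ∃ C : ℝ, ∀ y, ‖Ko V s f y • sh V s f y‖ ≤ C := by
  obtain ⟨M, hM⟩ := sh_bdd hV hs hf
  obtain ⟨D, hD0, hD⟩ := (Ko_pb hV hs hf).bdd
  refine ⟨(Ko_pb hV hs hf).1.stronglyMeasurable.smul (sh_cont hV hs hf).stronglyMeasurable,
    D * M, fun y => ?_⟩
  rw [norm_smul]
  exact mul_le_mul (hD y).1 (hM y) (norm_nonneg _) hD0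

theorem mean_xg (hV : Cv V) (hs : 0 < s) : XG (Ko V s fun x : E => x) := by
  refine XG.of_lin (C := ‖Ko V s (fun x : E => x) 0‖ + 1) fun y => ?_
  have h1 := mean_lip hV hs y 0
  rw [sub_zero] at h1
  have h2 := norm_le_norm_add_norm_sub' (Ko V s (fun x : E => x) y) (Ko V s (fun x : E => x) 0)
  nlinarith [norm_nonneg (Ko V s (fun x : E => x) 0), norm_nonneg y,
    mul_nonneg (norm_nonneg (Ko V s (fun x : E => x) 0)) (norm_nonneg y)]

theorem sq_add (hs : 0 < s) (hr : 0 < r) (x y : E) :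
    ‖x + y‖ ^ 2 ≤ (s + r) / s * ‖x‖ ^ 2 + (s + r) / r * ‖y‖ ^ 2 := by
  have h1 : ‖x + y‖ ^ 2 ≤ (‖x‖ + ‖y‖) ^ 2 :=
    pow_le_pow_left₀ (norm_nonneg _) (norm_add_le x y) 2
  have h2 : (s + r) / s * ‖x‖ ^ 2 + (s + r) / r * ‖y‖ ^ 2 - (‖x‖ + ‖y‖) ^ 2 =
      (r * ‖x‖ - s * ‖y‖) ^ 2 / (s * r) := by
    field_simp
    ring
  have h3 : 0 ≤ (r * ‖x‖ - s * ‖y‖) ^ 2 / (s * r) := by positivity
  linarith

end Fwd

theorem sh_split (hV : Pot V 0) (ht : Tail (ms V)) (hs : 0 < s) (hr : 0 < r) (hf : PB f) (z : E) :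
    sh V (s + r) f z =
      (Ko (Vt (ms V) s) r (Ko V s f) z)⁻¹ •
          Ko (Vt (ms V) s) r (fun y => Ko V s f y • sh V s f y) z +
        ((Ko (Vt (ms V) s) r (Ko V s f) z)⁻¹ •
            Ko (Vt (ms V) s) r (fun y => Ko V s f y • Ko V s (fun x => x) y) z -
          Ko (Vt (ms V) s) r (Ko V s fun x => x) z) := by
  have hc := hV.cv
  have hU := (hV.conv ht hs).cv
  obtain ⟨C, hC0, hC⟩ := hf.bdd
  have e1 := Ko_semi hV ht hs hr (F := f) hf.1.stronglyMeasurable (C := C) (fun x =>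
    (hC x).1.trans (le_mul_of_one_le_right hC0 (by linarith [norm_nonneg x]))) z
  have e2 := Ko_semi hV ht hs hr (F := fun x => f x • x)
    (hf.1.smul measurable_id).stronglyMeasurable (C := C) (fun x => by
      rw [norm_smul]
      exact mul_le_mul (hC x).1 (by linarith) (norm_nonneg _) hC0) z
  have e3 := Ko_semi hV ht hs hr (F := fun x : E => x) stronglyMeasurable_id (C := 1)
    (fun x => by linarith) z
  have e4 : Ko V s (fun x => f x • x) = fun y =>
      Ko V s f y • sh V s f y + Ko V s f y • Ko V s (fun x => x) y := by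
    funext y
    rw [← smul_add, sh, sub_add_cancel, smul_inv_smul₀ ((Ko_pb hc hs hf).pos y).ne']
  obtain ⟨m1, D, hD⟩ := Fwd.fd hc hs hf
  have i1 : Integrable (fun y => Ko V s f y • sh V s f y) (fk (Vt (ms V) s) r z) :=
    (fk_tail hU hr z).int m1.aestronglyMeasurable (XG.of_bdd hD)
  have i2 : Integrable (fun y => Ko V s f y • Ko V s (fun x : E => x) y) (fk (Vt (ms V) s) r z) :=
    (fk_tail hU hr z).int ((Ko_pb hc hs hf).1.stronglyMeasurable.smul
      (Ko_meas hc hs stronglyMeasurable_id)).aestronglyMeasurable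
      ((FibG.xg_pb (Ko_pb hc hs hf)).smul (Fwd.mean_xg hc hs))
  have e5 : Ko (Vt (ms V) s) r (Ko V s fun x => f x • x) z =
      Ko (Vt (ms V) s) r (fun y => Ko V s f y • sh V s f y) z +
        Ko (Vt (ms V) s) r (fun y => Ko V s f y • Ko V s (fun x => x) y) z := by
    rw [e4]
    exact integral_add i1 i2
  rw [sh, ← e1, ← e2, ← e3, e5, smul_add, add_sub_assoc]

theorem fwd_step (hV : Pot V 0) (ht : Tail (ms V)) (hs : 0 < s) (hr : 0 < r) (hf : PB f) :
    s * (s + r) * Fi (ms (Vt (ms V) (s + r))) (lg V (s + r) f) ≤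
      Na (Vt (ms V) s) r (ms (Vt (ms V) (s + r))) (Ko V s f) (sh V s f) +
        s * r * Fi (ms (Vt (ms V) s)) (lg V s f) := by
  have hc := hV.cv
  have hP := hV.conv ht hs
  have hU := hP.cv
  have hsr : 0 < s + r := add_pos hs hr
  have p1 := hP.prob
  have p2 := (hV.conv ht hsr).prob
  have hm : ms (Vt (ms V) s) = fk (Vt (ms V) s) r ∘ₘ ms (Vt (ms V) (s + r)) := by
    rw [← Vt_semi hV ht hs hr]
    exact dis_fw hU hr
  have hF := Ko_pb hc hs hf
  have hK := Ko_pb hU hr hF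
  obtain ⟨C, hC0, hC⟩ := hf.bdd
  have e1 : ∀ z, Ko (Vt (ms V) s) r (Ko V s f) z = Ko V (s + r) f z := fun z =>
    Ko_semi hV ht hs hr (F := f) hf.1.stronglyMeasurable (C := C) (fun x =>
      (hC x).1.trans (le_mul_of_one_le_right hC0 (by linarith [norm_nonneg x]))) z
  obtain ⟨j2, h2⟩ := lip_le_drop hU hr hm hF (φ := Ko V s fun x => x) (mean_lip hc hs)
  have h3 := drop_le_fi hU hr hm (lg_bd hc hs hf)
  have e2 : (fun b => exp (lg V s f b)) = Ko V s f := funext (exp_lg hc hs hf)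
  rw [e2] at h3
  obtain ⟨m1, D, hD⟩ := Fwd.fd hc hs hf
  obtain ⟨B, hB0, hB⟩ := hK.bdd
  have j1 : Integrable (fun a => ‖Ko (Vt (ms V) s) r (fun b => Ko V s f b • sh V s f b) a‖ ^ 2 /
      Ko (Vt (ms V) s) r (Ko V s f) a) (ms (Vt (ms V) (s + r))) := by
    refine Integrable.of_bound ((((Ko_meas hU hr m1).norm.pow 2).measurable.div
      hK.1).aestronglyMeasurable) (D ^ 2 * B) (ae_of_all _ fun a => ?_)
    rw [div_eq_mul_inv, norm_mul, norm_pow, norm_norm]
    exact mul_le_mul (pow_le_pow_left₀ (norm_nonneg _) (Ko_bdd hU hr hD a) 2) (hB a).2.2.2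
      (norm_nonneg _) (sq_nonneg _)
  have h4 : (s + r) ^ 2 * Fi (ms (Vt (ms V) (s + r))) (lg V (s + r) f) ≤
      (s + r) / s * Na (Vt (ms V) s) r (ms (Vt (ms V) (s + r))) (Ko V s f) (sh V s f) +
        (s + r) / r * ∫ a, Ko (Vt (ms V) s) r (Ko V s f) a *
          ‖(Ko (Vt (ms V) s) r (Ko V s f) a)⁻¹ •
            Ko (Vt (ms V) s) r (fun b => Ko V s f b • Ko V s (fun x => x) b) a -
              Ko (Vt (ms V) s) r (Ko V s fun x => x) a‖ ^ 2 ∂ms (Vt (ms V) (s + r)) := by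
    rw [Fi_lg hc hsr hf, Na, ← integral_const_mul, ← integral_const_mul,
      ← integral_add (j1.const_mul _) (j2.const_mul _)]
    refine integral_mono_of_nonneg (ae_of_all _ fun a => ?_)
      ((j1.const_mul _).add (j2.const_mul _)) (ae_of_all _ fun a => ?_)
    · exact mul_nonneg ((Ko_pb hc hsr hf).pos a).le (sq_nonneg _)
    · have hp := hK.pos a
      have h5 := mul_le_mul_of_nonneg_left (Fwd.sq_add hs hr
        ((Ko (Vt (ms V) s) r (Ko V s f) a)⁻¹ •
          Ko (Vt (ms V) s) r (fun y => Ko V s f y • sh V s f y) a)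
        ((Ko (Vt (ms V) s) r (Ko V s f) a)⁻¹ •
            Ko (Vt (ms V) s) r (fun y => Ko V s f y • Ko V s (fun x => x) y) a -
          Ko (Vt (ms V) s) r (Ko V s fun x => x) a)) hp.le
      rw [← sh_split hV ht hs hr hf a] at h5
      change Ko V (s + r) f a * _ ≤ _
      rw [← e1 a]
      refine h5.trans (le_of_eq ?_)
      rw [norm_smul, norm_inv, Real.norm_of_nonneg hp.le]
      field_simp
  have h6 : (s + r) ^ 2 * Fi (ms (Vt (ms V) (s + r))) (lg V (s + r) f) ≤
      (s + r) / s * Na (Vt (ms V) s) r (ms (Vt (ms V) (s + r))) (Ko V s f) (sh V s f) +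
        (s + r) / r * (r ^ 2 * Fi (ms (Vt (ms V) s)) (lg V s f)) := by
    refine h4.trans (add_le_add le_rfl (mul_le_mul_of_nonneg_left ?_ (by positivity)))
    refine h2.trans ((mul_le_mul_of_nonneg_left h3 (by positivity)).trans (le_of_eq ?_))
    ring
  have h7 := mul_le_mul_of_nonneg_left h6 (div_pos hs hsr).le
  refine le_trans (le_of_eq ?_) (h7.trans (le_of_eq ?_))
  · field_simp
  · field_simp

end Vale.Agent.P245B
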