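import Vale.Agent.P245C.Cls

/-! Gaussian mixtures. -/

open MeasureTheory ProbabilityTheory Real Set Filter Topology
open scoped ENNReal RealInnerProductSpace

noncomputable section

namespace Vale.Agent.P245B

open Vale.Agent.P245 (Ent gibbs Ent_nonneg)

set_option linter.unusedSectionVars false

variable {E : Type} [NormedAddCommGroup E] [InnerProductSpace ℝ E] [FiniteDimensional ℝ E]
  [CompleteSpace E] [MeasurableSpace E] [BorelSpace E]

namespace Gw

theorem mV : Measurable fun w : E => -log (ga 1 w) := (ga_cont 1).measurable.log.neg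

theorem ex (w : E) : exp (- -log (ga 1 w)) = ga 1 w := by
  rw [neg_neg, exp_log (ga_pos one_pos w)]

theorem vint {G : Type} [NormedAddCommGroup G] [NormedSpace ℝ G] (F : E → G) :
    ∫ w, F w ∂gam E = ∫ w, ga 1 w • F w := by
  unfold gam ms
  have hm : Measurable fun x : E => ENNReal.ofReal (exp (- -log (ga 1 x))) :=
    mV.neg.exp.ennreal_ofReal
  rw [integral_withDensity_eq_integral_toReal_smul hm
    (Eventually.of_forall fun _ => ENNReal.ofReal_lt_top)]
  refine integral_congr_ae (Eventually.of_forall fun x => ?_)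
  simp only [ex, ENNReal.toReal_ofReal (ga_pos one_pos x).le]

theorem key2 (β : ℝ) (v w : E) : ga 1 (w + β • v) * ew β v (w + β • v) = ga 1 w := by
  unfold ga gs ew
  rw [div_mul_eq_mul_div, ← exp_add]
  congr 2
  rw [norm_add_sq_real, inner_add_left, real_inner_smul_left, real_inner_smul_right,
    real_inner_self_eq_norm_sq, norm_smul, mul_pow, Real.norm_eq_abs, sq_abs]
  ring

theorem shift {G : Type} [NormedAddCommGroup G] [NormedSpace ℝ G] (β : ℝ) (v : E) (F : E → G) :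
    ∫ w, ew β v w • F w ∂gam E = ∫ w, F (w + β • v) ∂gam E := by
  rw [vint, vint, ← integral_add_right_eq_self _ (β • v)]
  refine integral_congr_ae (Eventually.of_forall fun w => ?_)
  simp only [smul_smul, key2]

theorem mean0 : ∫ w, w ∂gam E = 0 := by
  have h : ∫ w, w ∂gam E = -∫ w, w ∂gam E := by
    rw [vint, ← integral_neg, ← integral_neg_eq_self]
    refine integral_congr_ae (Eventually.of_forall fun w => ?_)
    simp only [ga_neg, smul_neg]
  have h2 : (2 : ℝ) • ∫ w, w ∂gam E = 0 := by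
    rw [two_smul]; nth_rewrite 1 [h]; exact neg_add_cancel _
  exact (smul_eq_zero.1 h2).resolve_left two_ne_zero

theorem xg_exp (A : ℝ) : XG fun w : E => exp (A * ‖w‖) := by
  refine ⟨|A|, fun w => ?_⟩
  rw [Real.norm_eq_abs, abs_of_pos (exp_pos _)]
  refine exp_le_exp.2 ?_
  nlinarith [le_abs_self A, abs_nonneg A, norm_nonneg w]

end Gw



theorem gam_prob : IsProbabilityMeasure (gam E) := by
  constructor
  have h := lintegral_ms (E := E) Gw.mV (F := fun _ => 1) measurable_const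
  rw [lintegral_one] at h
  unfold gam
  rw [h]
  simp only [Gw.ex, mul_one]
  rw [← ofReal_integral_eq_lintegral_ofReal (ga_int one_pos)
    (Eventually.of_forall fun w => (ga_pos one_pos w).le), ga_one one_pos, ENNReal.ofReal_one]

theorem gam_sg : SG (gam E) 0 (1 / 2) 0 := by
  intro θ
  have hm : Measurable fun x : E => ENNReal.ofReal (exp ⟪θ, x - 0⟫) :=
    (Continuous.measurable (by fun_prop)).ennreal_ofReal
  unfold gam
  rw [lintegral_ms Gw.mV hm]
  obtain ⟨h1, h2⟩ := ga_mgf (E := E) one_pos θ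
  rw [add_zero, ← h2, ofReal_integral_eq_lintegral_ofReal h1
    (Eventually.of_forall fun w => mul_nonneg (exp_pos _).le (ga_pos one_pos w).le)]
  refine le_of_eq (lintegral_congr fun w => ?_)
  rw [Gw.ex, sub_zero, ENNReal.ofReal_mul (exp_pos _).le, mul_comm]

theorem gam_tail : Tail (gam E) := by
  have := gam_prob (E := E)
  exact gam_sg.tail (by norm_num)

theorem ew_pos (β : ℝ) (v w : E) : 0 < ew β v w := exp_pos _

theorem ew_le (β : ℝ) (v w : E) {C : ℝ} (hv : ‖v‖ ≤ C) :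
    exp (-(|β| * C * ‖w‖ + β ^ 2 * C ^ 2 / 2)) ≤ ew β v w ∧
      ew β v w ≤ exp (|β| * C * ‖w‖) := by
  have h0 : 0 ≤ ‖v‖ := norm_nonneg v
  have h1 : |β * ⟪w, v⟫| ≤ |β| * C * ‖w‖ := by
    rw [abs_mul, mul_assoc]
    refine mul_le_mul_of_nonneg_left ((abs_real_inner_le_norm w v).trans ?_) (abs_nonneg _)
    rw [mul_comm]
    exact mul_le_mul_of_nonneg_right hv (norm_nonneg _)
  have h2 : β ^ 2 * ‖v‖ ^ 2 ≤ β ^ 2 * C ^ 2 :=
    mul_le_mul_of_nonneg_left (pow_le_pow_left₀ h0 hv 2) (sq_nonneg _)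
  have h3 : 0 ≤ β ^ 2 * ‖v‖ ^ 2 := by positivity
  obtain ⟨h4, h5⟩ := abs_le.1 h1
  exact ⟨exp_le_exp.2 (by linarith), exp_le_exp.2 (by linarith)⟩

theorem ew_one (β : ℝ) (v : E) : ∫ w, ew β v w ∂gam E = 1 := by
  have := gam_prob (E := E)
  have h := Gw.shift β v fun _ => (1 : ℝ)
  simpa using h

theorem Gw.int_id : Integrable (fun w : E => w) (gam E) :=
  gam_tail.int measurable_id.aestronglyMeasurable
    (XG.of_lin (C := 1) fun x => by linarith [norm_nonneg x])



theorem ew_mean (β : ℝ) (v : E) : ∫ w, ew β v w • w ∂gam E = β • v := by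
  have := gam_prob (E := E)
  rw [Gw.shift β v fun w => w, integral_add Gw.int_id (integrable_const _), Gw.mean0]
  simp

theorem ew_ent (β : ℝ) (v : E) :
    ∫ w, ew β v w * log (ew β v w) ∂gam E = β ^ 2 * ‖v‖ ^ 2 / 2 := by
  have := gam_prob (E := E)
  have h := Gw.shift β v fun w => log (ew β v w)
  simp only [smul_eq_mul] at h
  rw [h]
  have e : ∀ w : E, log (ew β v (w + β • v)) = β * ⟪v, w⟫ + β ^ 2 * ‖v‖ ^ 2 / 2 := by
    intro w
    unfold ew
    rw [log_exp, inner_add_left, real_inner_smul_left, real_inner_self_eq_norm_sq,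
      real_inner_comm]
    ring
  simp only [e]
  rw [integral_add ((Gw.int_id.const_inner v).const_mul β) (integrable_const _),
    integral_const_mul, integral_inner Gw.int_id, Gw.mean0]
  simp

variable {B : Type} [MeasurableSpace B] {ρ : Measure B} [IsProbabilityMeasure ρ] {f : B → ℝ}
  {δ : B → E} {C : ℝ}

theorem Gw.ew_meas (hδ : Measurable δ) (β : ℝ) :
    Measurable fun p : E × B => ew β (δ p.2) p.1 := by
  unfold ew
  exact ((measurable_const.mul (measurable_fst.inner (hδ.comp measurable_snd))).sub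
    ((measurable_const.mul ((hδ.comp measurable_snd).norm.pow_const 2)).div_const 2)).exp

theorem Gw.int_prod {G : Type} [NormedAddCommGroup G] [NormedSpace ℝ G] {K : E × B → G}
    (hK : AEStronglyMeasurable K ((gam E).prod ρ)) {h : E → ℝ} (hc : Continuous h) (hh : XG h)
    (hle : ∀ p, ‖K p‖ ≤ h p.1) : Integrable K ((gam E).prod ρ) := by
  have := gam_prob (E := E)
  exact ((gam_tail.int hc.aestronglyMeasurable hh).comp_fst ρ).mono' hK (Eventually.of_forall hle)



theorem ew_pb (hδ : Measurable δ) (hC : ∀ b, ‖δ b‖ ≤ C) (β : ℝ) (w : E) :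
    PB fun b => ew β (δ b) w := 
  ⟨(Gw.ew_meas hδ β).comp (measurable_const.prodMk measurable_id), _, _, exp_pos _,
    fun b => ew_le β (δ b) w (hC b)⟩

theorem mix_swap (hδ : Measurable δ) (hC : ∀ b, ‖δ b‖ ≤ C) (β : ℝ) {u : B → ℝ}
    (hu : Measurable u) {C' : ℝ} (hC' : ∀ b, |u b| ≤ C') :
    Integrable (fun w => ∫ b, u b * ew β (δ b) w ∂ρ) (gam E) ∧
      ∫ w, ∫ b, u b * ew β (δ b) w ∂ρ ∂gam E = ∫ b, u b ∂ρ := by
  have := gam_prob (E := E)
  have hi : Integrable (fun p : E × B => u p.2 * ew β (δ p.2) p.1) ((gam E).prod ρ) := by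
    refine Gw.int_prod ((hu.comp measurable_snd).mul (Gw.ew_meas hδ β)).aestronglyMeasurable
      (h := fun w => C' * exp (|β| * C * ‖w‖)) (by fun_prop)
      ((XG.of_bdd (C := ‖C'‖) fun _ => le_rfl).mul (Gw.xg_exp _)) fun p => ?_
    rw [norm_mul, Real.norm_eq_abs, Real.norm_eq_abs, abs_of_pos (ew_pos _ _ _)]
    exact mul_le_mul (hC' _) (ew_le β _ _ (hC _)).2 (ew_pos _ _ _).le
      ((abs_nonneg _).trans (hC' p.2))
  refine ⟨hi.integral_prod_left, ?_⟩
  rw [integral_integral_swap (f := fun w b => u b * ew β (δ b) w) hi]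
  simp only [integral_const_mul, ew_one, mul_one]

theorem mix_swap_log (hδ : Measurable δ) (hC : ∀ b, ‖δ b‖ ≤ C) (β : ℝ) {u : B → ℝ}
    (hu : Measurable u) {C' : ℝ} (hC' : ∀ b, |u b| ≤ C') :
    Integrable (fun w => ∫ b, u b * (ew β (δ b) w * log (ew β (δ b) w)) ∂ρ) (gam E) ∧
      ∫ w, ∫ b, u b * (ew β (δ b) w * log (ew β (δ b) w)) ∂ρ ∂gam E =
        β ^ 2 / 2 * ∫ b, u b * ‖δ b‖ ^ 2 ∂ρ := by
  have := gam_prob (E := E)
  have hi : Integrable (fun p : E × B => u p.2 * (ew β (δ p.2) p.1 * log (ew β (δ p.2) p.1)))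
      ((gam E).prod ρ) := by
    refine Gw.int_prod ((hu.comp measurable_snd).mul ((Gw.ew_meas hδ β).mul
      (Gw.ew_meas hδ β).log)).aestronglyMeasurable
      (h := fun w => C' * (1 + exp (|β| * C * ‖w‖) * exp (|β| * C * ‖w‖))) (by fun_prop)
      ((XG.of_bdd (C := ‖C'‖) fun _ => le_rfl).mul ((XG.of_bdd (C := ‖(1 : ℝ)‖)
        fun _ => le_rfl).add ((Gw.xg_exp _).mul (Gw.xg_exp _)))) fun p => ?_
    rw [norm_mul, Real.norm_eq_abs, Real.norm_eq_abs]
    have h1 := (ew_le β _ p.1 (hC p.2)).2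
    have h0 := (ew_pos β (δ p.2) p.1).le
    refine mul_le_mul (hC' _) ((Bas.abs_mul_log h0).trans ?_) (abs_nonneg _)
      ((abs_nonneg _).trans (hC' p.2))
    exact add_le_add le_rfl (mul_le_mul h1 h1 h0 (exp_pos _).le)
  refine ⟨hi.integral_prod_left, ?_⟩
  rw [integral_integral_swap
    (f := fun w b => u b * (ew β (δ b) w * log (ew β (δ b) w))) hi, ← integral_const_mul]
  refine integral_congr_ae (Eventually.of_forall fun b => ?_)
  simp only [integral_const_mul, ew_ent]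
  ring

theorem mix_meas (hf : PB f) (hδ : Measurable δ) (β : ℝ) : Measurable (mix ρ f δ β) := 
  (((hf.1.comp measurable_snd).mul
    (Gw.ew_meas hδ β)).stronglyMeasurable.integral_prod_right').measurable

theorem mix_pos (hf : PB f) (hδ : Measurable δ) (hC : ∀ b, ‖δ b‖ ≤ C) (β : ℝ) (w : E) :
    0 < mix ρ f δ β w := (hf.mul (ew_pb hδ hC β w)).int_pos ρ

theorem mix_xg (hf : PB f) (hδ : Measurable δ) (hC : ∀ b, ‖δ b‖ ≤ C) (β : ℝ) :
    XG (mix ρ f δ β) := by
  obtain ⟨A, hA0, hA⟩ := hf.bdd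
  refine ((XG.of_bdd (u := fun _ : E => A) (C := ‖A‖) fun _ => le_rfl).mul
    (Gw.xg_exp (|β| * C))).of_le fun w => ?_
  have h := norm_integral_le_of_norm_le_const (μ := ρ) (f := fun b => f b * ew β (δ b) w)
    (C := A * exp (|β| * C * ‖w‖)) (Eventually.of_forall fun b => by
      rw [norm_mul, Real.norm_eq_abs, Real.norm_eq_abs, abs_of_pos (ew_pos _ _ _)]
      exact mul_le_mul (hA b).1 (ew_le β _ _ (hC _)).2 (ew_pos _ _ _).le hA0)
  rw [probReal_univ, mul_one] at h
  exact h.trans (le_abs_self _)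

theorem mix_lower (hf : PB f) (hδ : Measurable δ) (hC : ∀ b, ‖δ b‖ ≤ C) (β : ℝ) :
    (∫ b, f b ∂ρ) * log (∫ b, f b ∂ρ) + β ^ 2 / 2 * (‖∫ b, f b • δ b ∂ρ‖ ^ 2 / ∫ b, f b ∂ρ) ≤
      Hh (gam E) (mix ρ f δ β) := by
  have := gam_prob (E := E)
  obtain ⟨A, hA0, hA⟩ := hf.bdd
  have hm := hf.int_pos ρ
  set m := ∫ b, f b ∂ρ with hmd
  have hX := mix_xg (ρ := ρ) hf hδ hC β
  have hM := mix_meas (ρ := ρ) hf hδ β
  have hP := mix_pos (ρ := ρ) hf hδ hC β
  obtain ⟨i1, e1⟩ := mix_swap (ρ := ρ) hδ hC β hf.1 fun b => (hA b).1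
  have e1' : ∫ w, mix ρ f δ β w ∂gam E = m := e1
  have i1' : Integrable (mix ρ f δ β) (gam E) := i1
  have i2 : Integrable (fun w => mix ρ f δ β w * log (mix ρ f δ β w)) (gam E) :=
    gam_tail.int (hM.mul hM.log).aestronglyMeasurable (hX.mul_log fun w => (hP w).le)
  have hi : Integrable (fun p : E × B => (f p.2 * ew β (δ p.2) p.1) • p.1) ((gam E).prod ρ) := by
    refine Gw.int_prod (((hf.1.comp measurable_snd).mul (Gw.ew_meas hδ β)).smul
      measurable_fst).aestronglyMeasurable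
      (h := fun w => A * exp (|β| * C * ‖w‖) * ‖w‖) (by fun_prop)
      (((XG.of_bdd (C := ‖A‖) fun _ => le_rfl).mul (Gw.xg_exp _)).mul
        (XG.of_lin (C := 1) fun x => by rw [norm_norm]; linarith)) fun p => ?_
    rw [norm_smul, norm_mul, Real.norm_eq_abs, Real.norm_eq_abs, abs_of_pos (ew_pos _ _ _)]
    exact mul_le_mul_of_nonneg_right (mul_le_mul (hA _).1 (ew_le β _ _ (hC _)).2
      (ew_pos _ _ _).le hA0) (norm_nonneg _)
  have e2 : ∫ w, mix ρ f δ β w • w ∂gam E = β • ∫ b, f b • δ b ∂ρ := by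
    have e : ∀ w, mix ρ f δ β w • w = ∫ b, (f b * ew β (δ b) w) • w ∂ρ := fun w =>
      (integral_smul_const _ _).symm
    simp only [e]
    rw [integral_integral_swap (f := fun w b => (f b * ew β (δ b) w) • w) hi, ← integral_smul]
    refine integral_congr_ae (Eventually.of_forall fun b => ?_)
    simp only [mul_smul, integral_smul, ew_mean]
    rw [smul_comm]
  have h := gam_sg.mean (E := E) (by norm_num) (w := fun w => m⁻¹ * mix ρ f δ β w)
    (hM.const_mul _) (fun w => mul_nonneg (inv_pos.2 hm).le (hP w).le)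
    ((XG.of_bdd (C := ‖m⁻¹‖) fun _ => le_rfl).mul hX)
    (by rw [integral_const_mul, e1', inv_mul_cancel₀ hm.ne'])
  have e3 : ∀ w, m⁻¹ * mix ρ f δ β w * log (m⁻¹ * mix ρ f δ β w) =
      m⁻¹ * (mix ρ f δ β w * log (mix ρ f δ β w)) - m⁻¹ * log m * mix ρ f δ β w := by
    intro w
    rw [log_mul (inv_pos.2 hm).ne' (hP w).ne', log_inv]; ring
  simp only [e3, sub_zero, mul_smul, integral_smul] at h
  rw [integral_sub (i2.const_mul _) (i1'.const_mul _), integral_const_mul, integral_const_mul,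
    e1', e2, norm_smul, norm_smul, mul_pow, mul_pow, Real.norm_eq_abs, Real.norm_eq_abs, sq_abs,
    sq_abs] at h
  unfold Hh
  set H := ∫ w, mix ρ f δ β w * log (mix ρ f δ β w) ∂gam E
  set N := ‖∫ b, f b • δ b ∂ρ‖ ^ 2
  have h2 := mul_le_mul_of_nonneg_left h (half_pos hm).le
  have e4 : m / 2 * (m⁻¹ ^ 2 * (β ^ 2 * N)) = β ^ 2 / 2 * (N / m) := by field_simp
  have e5 : m / 2 * (4 * (1 / 2) * (m⁻¹ * H - m⁻¹ * log m * m)) = H - m * log m := by
    field_simp; ring
  rw [e4, e5] at h2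
  linarith

end Vale.Agent.P245B
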