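import Vale.Agent.P245C.Gw
import Vale.Agent.P245C.BEs

/-! An upper bound for the entropy of a Gaussian mixture. -/

open MeasureTheory ProbabilityTheory Real Set Filter Topology
open scoped ENNReal RealInnerProductSpace

noncomputable section

namespace Vale.Agent.P245B

open Vale.Agent.P245 (Ent gibbs Ent_nonneg)

set_option linter.unusedSectionVars false

variable {E : Type} [NormedAddCommGroup E] [InnerProductSpace ℝ E] [FiniteDimensional ℝ E]
  [CompleteSpace E] [MeasurableSpace E] [BorelSpace E]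

variable {B : Type} [MeasurableSpace B] {ρ : Measure B} [IsProbabilityMeasure ρ] {f l : B → ℝ}
  {δ : B → E} {C : ℝ}

namespace Gw2

theorem meas (hδ : Measurable δ) (β : ℝ) (w : E) : Measurable fun b => ew β (δ b) w := by
  unfold ew
  fun_prop

theorem bd (hf : PB f) (hC : ∀ b, ‖δ b‖ ≤ C) (β R : ℝ) :
    ∃ K : ℝ, ∀ b (w : E), ‖w‖ ≤ R → ‖(f b * ew β (δ b) w) • δ b‖ ≤ K := by
  obtain ⟨A, hA, h⟩ := hf.bdd
  refine ⟨A * exp (|β| * C * R) * C, fun b w hw => ?_⟩
  have hC0 : 0 ≤ C := (norm_nonneg _).trans (hC b)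
  rw [norm_smul, Real.norm_eq_abs, abs_mul, abs_of_pos (ew_pos β _ w)]
  refine mul_le_mul (mul_le_mul (h b).1 ((ew_le β _ w (hC b)).2.trans (exp_le_exp.2 ?_))
    (ew_pos β _ w).le hA) (hC b) (norm_nonneg _) (by positivity)
  exact mul_le_mul_of_nonneg_left hw (by positivity)

theorem sm (hf : PB f) (hδ : Measurable δ) (β : ℝ) (w : E) :
    AEStronglyMeasurable (fun b => (f b * ew β (δ b) w) • δ b) ρ :=
  ((hf.1.mul (meas hδ β w)).smul hδ).aestronglyMeasurable

theorem int (hf : PB f) (hδ : Measurable δ) (hC : ∀ b, ‖δ b‖ ≤ C) (β : ℝ) (w : E) :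
    Integrable (fun b => (f b * ew β (δ b) w) • δ b) ρ := by
  obtain ⟨K, hK⟩ := bd hf hC β ‖w‖
  exact Integrable.of_bound (sm hf hδ β w) K (ae_of_all _ fun b => hK b w le_rfl)

theorem cont (hf : PB f) (hδ : Measurable δ) (hC : ∀ b, ‖δ b‖ ≤ C) (β : ℝ) :
    Continuous fun w : E => ∫ b, (f b * ew β (δ b) w) • δ b ∂ρ := by
  refine continuous_iff_continuousAt.2 fun w => ?_
  obtain ⟨K, hK⟩ := bd hf hC β (‖w‖ + 1)
  refine continuousAt_of_dominated (bound := fun _ => K)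
    (Eventually.of_forall fun y => sm hf hδ β y) ?_ (integrable_const K)
    (ae_of_all _ fun b => ?_)
  · filter_upwards [Metric.ball_mem_nhds w one_pos] with y hy
    exact ae_of_all _ fun b => hK b y (norm_lt_of_mem_ball hy).le
  · unfold ew
    fun_prop

theorem has (hf : PB f) (hδ : Measurable δ) (hC : ∀ b, ‖δ b‖ ≤ C) (β : ℝ) (w : E) :
    HasFDerivAt (mix ρ f δ β) (innerSL ℝ (β • ∫ b, (f b * ew β (δ b) w) • δ b ∂ρ)) w := by
  obtain ⟨K, hK⟩ := bd hf hC β (‖w‖ + 1)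
  have hm : ∀ y : E, AEStronglyMeasurable
      (fun b => innerSL ℝ (β • (f b * ew β (δ b) y) • δ b)) ρ := fun y =>
    (innerSL ℝ).continuous.comp_aestronglyMeasurable ((sm hf hδ β y).const_smul β)
  have hb : ∀ b, ∀ y ∈ Metric.ball w 1, ‖innerSL ℝ (β • (f b * ew β (δ b) y) • δ b)‖ ≤ |β| * K :=
    fun b y hy => by
      rw [innerSL_apply_norm, norm_smul, Real.norm_eq_abs]
      exact mul_le_mul_of_nonneg_left (hK b y (norm_lt_of_mem_ball hy).le) (abs_nonneg β)
  have h := hasFDerivAt_integral_of_dominated_of_fderiv_le (μ := ρ) (𝕜 := ℝ)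
    (F := fun y b => f b * ew β (δ b) y)
    (F' := fun y b => innerSL ℝ (β • (f b * ew β (δ b) y) • δ b)) (x₀ := w)
    (bound := fun _ => |β| * K) (Metric.ball_mem_nhds w one_pos)
    (Eventually.of_forall fun y => (hf.1.mul (meas hδ β y)).aestronglyMeasurable)
    ((hf.mul (ew_pb hδ hC β w)).int ρ) (hm w) (ae_of_all _ hb) (integrable_const _)
    (ae_of_all _ fun b y _ => by
      have h1 : HasFDerivAt (fun y : E => ⟪δ b, y⟫) (innerSL ℝ (δ b)) y :=
        (innerSL ℝ (δ b)).hasFDerivAt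
      have h2 := (((h1.const_mul β).sub_const (β ^ 2 * ‖δ b‖ ^ 2 / 2)).exp).const_mul (f b)
      refine (h2.congr_fderiv ?_).congr_of_eventuallyEq (Eventually.of_forall fun z => ?_)
      · ext v
        simp only [ew, smul_apply, smul_eq_mul, innerSL_apply_apply,
          real_inner_smul_left, real_inner_comm y (δ b)]
        ring
      · simp only [ew, real_inner_comm z (δ b)])
  refine h.congr_fderiv ?_
  ext v
  have hi : Integrable (fun b => innerSL ℝ (β • (f b * ew β (δ b) w) • δ b)) ρ :=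
    Integrable.of_bound (hm w) _ (ae_of_all _ fun b => hb b w (Metric.mem_ball_self one_pos))
  rw [ContinuousLinearMap.integral_apply hi, ← integral_smul]
  simp only [innerSL_apply_apply]
  have hj : Integrable (fun b => β • (f b * ew β (δ b) w) • δ b) ρ := (int hf hδ hC β w).smul β
  rw [real_inner_comm, ← integral_inner hj]
  exact integral_congr_ae (ae_of_all _ fun b => real_inner_comm _ _)

theorem norm_le (hf : PB f) (hδ : Measurable δ) (hC : ∀ b, ‖δ b‖ ≤ C) (β : ℝ) (w : E) :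
    ‖∫ b, (f b * ew β (δ b) w) • δ b ∂ρ‖ ≤ mix ρ f δ β w * C := by
  rw [mix, ← integral_mul_const]
  refine norm_integral_le_of_norm_le (((hf.mul (ew_pb hδ hC β w)).int ρ).mul_const C)
    (ae_of_all _ fun b => ?_)
  have h0 : 0 ≤ f b * ew β (δ b) w := (mul_pos (hf.pos b) (ew_pos β _ w)).le
  rw [norm_smul, Real.norm_of_nonneg h0]
  exact mul_le_mul_of_nonneg_left (hC b) h0

end Gw2

theorem mix_grad (hf : PB f) (hδ : Measurable δ) (hC : ∀ b, ‖δ b‖ ≤ C) (β : ℝ) :
    Lc (fun w => log (mix ρ f δ β w)) ∧ ∀ w, gradient (fun w => log (mix ρ f δ β w)) w =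
      (β / mix ρ f δ β w) • ∫ b, (f b * ew β (δ b) w) • δ b ∂ρ := by
  have hp := mix_pos (ρ := ρ) hf hδ hC β
  have hg : ∀ w, gradient (fun w => log (mix ρ f δ β w)) w =
      (β / mix ρ f δ β w) • ∫ b, (f b * ew β (δ b) w) • δ b ∂ρ := fun w => by
    refine ext_inner_right ℝ fun v => ?_
    rw [inner_grad, ((Gw2.has hf hδ hC β w).log (hp w).ne').fderiv]
    simp only [smul_apply, smul_eq_mul, innerSL_apply_apply,
      real_inner_smul_left]
    ring
  refine ⟨⟨?_, |β| * C, fun w => ?_⟩, hg⟩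
  · refine ContDiff.log (contDiff_one_iff_fderiv.2
      ⟨fun w => (Gw2.has hf hδ hC β w).differentiableAt, ?_⟩) fun w => (hp w).ne'
    rw [show fderiv ℝ (mix ρ f δ β) = _ from funext fun w => (Gw2.has hf hδ hC β w).fderiv]
    exact (innerSL ℝ).continuous.comp ((Gw2.cont hf hδ hC β).const_smul β)
  · rw [hg, norm_smul, Real.norm_eq_abs, abs_div, abs_of_pos (hp w)]
    calc _ ≤ |β| / mix ρ f δ β w * (mix ρ f δ β w * C) :=
          mul_le_mul_of_nonneg_left (Gw2.norm_le hf hδ hC β w)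
            (div_nonneg (abs_nonneg β) (hp w).le)
      _ = _ := by
          have := (hp w).ne'
          field_simp

theorem mix_upper (hf : PB f) (hδ : Measurable δ) (hC : ∀ b, ‖δ b‖ ≤ C) (β : ℝ)
    (h1 : ∫ b, f b ∂ρ = 1) (hl : Measurable l) (hl' : ∀ b, |l b| ≤ C) {L : ℝ} (hL : 0 ≤ L)
    (hS : Spr ρ f l δ L) : Hh (gam E) (mix ρ f δ β) ≤
      8 * L * β ^ 2 * (∫ b, l b ∂ρ + β ^ 2 / 2 * ∫ b, f b * ‖δ b‖ ^ 2 ∂ρ) := by
  have hp := mix_pos (ρ := ρ) hf hδ hC β
  obtain ⟨hLc, hg⟩ := mix_grad (ρ := ρ) hf hδ hC β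
  obtain ⟨A, -, hA⟩ := hf.bdd
  have hW : Continuous fun w : E => -log (ga 1 w) :=
    ((ga_cont 1).log fun w => (ga_pos one_pos w).ne').neg
  have hc : ConvexOn ℝ univ fun x : E => -log (ga 1 x) - (1 : ℝ)⁻¹ / 2 * ‖x‖ ^ 2 := by
    have e : (fun x : E => -log (ga 1 x) - (1 : ℝ)⁻¹ / 2 * ‖x‖ ^ 2) =
        fun _ => log (∫ w : E, gs 1 w) := by
      funext x
      rw [ga, gs, log_div (exp_pos _).ne' (gs_pos one_pos).ne', log_exp]
      ring
    rw [e]
    exact convexOn_const _ convex_univ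
  have : IsProbabilityMeasure (ms fun w : E => -log (ga 1 w)) := gam_prob
  have hb : Ent (gam E) (fun w => exp (log (mix ρ f δ β w))) ≤
      1 / 2 * Fi (gam E) fun w => log (mix ρ f δ β w) := bakry_lc one_pos hW hc gam_tail hLc
  obtain ⟨-, s1⟩ := mix_swap (ρ := ρ) hδ hC β hf.1 fun b => (hA b).1
  obtain ⟨i2, s2⟩ := mix_swap (ρ := ρ) hδ hC β hl hl'
  obtain ⟨i3, s3⟩ := mix_swap_log (ρ := ρ) hδ hC β hf.1 fun b => (hA b).1
  have i4 : Integrable (fun w => mix ρ f δ β w * log (mix ρ f δ β w)) (gam E) :=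
    gam_tail.int ((mix_meas hf hδ β).mul (mix_meas hf hδ β).log).aestronglyMeasurable
      ((mix_xg hf hδ hC β).mul_log fun w => (hp w).le)
  have e1 : Ent (gam E) (fun w => exp (log (mix ρ f δ β w))) = Hh (gam E) (mix ρ f δ β) := by
    have s1' : ∫ w, mix ρ f δ β w ∂gam E = 1 := s1.trans h1
    simp only [Ent, Hh, exp_log (hp _), s1', log_one, mul_zero, sub_zero]
  have h0 : 0 ≤ Hh (gam E) (mix ρ f δ β) := by
    refine le_trans ?_ (mix_lower hf hδ hC β)
    rw [h1, log_one]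
    positivity
  have e2 : Fi (gam E) (fun w => log (mix ρ f δ β w)) ≤
      ∫ w, 16 * L * β ^ 2 * (∫ b, f b * (ew β (δ b) w * log (ew β (δ b) w)) ∂ρ +
        ∫ b, l b * ew β (δ b) w ∂ρ - mix ρ f δ β w * log (mix ρ f δ β w)) ∂gam E := by
    refine integral_mono_of_nonneg (ae_of_all _ fun w => by positivity)
      (((i3.add i2).sub i4).const_mul _) (ae_of_all _ fun w => ?_)
    have h2 : _ ≤ 16 * L * mix ρ f δ β w * (_ - mix ρ f δ β w * log (mix ρ f δ β w)) :=
      hS _ (ew_pb hδ hC β w)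
    have h3 := hp w
    simp only [hg, exp_log h3, norm_smul, mul_pow, Real.norm_eq_abs, sq_abs]
    calc _ = β ^ 2 / mix ρ f δ β w * ‖∫ b, (f b * ew β (δ b) w) • δ b ∂ρ‖ ^ 2 := by
          field_simp
      _ ≤ _ := mul_le_mul_of_nonneg_left h2 (by positivity)
      _ = _ := by field_simp
  rw [integral_const_mul, integral_sub (i3.fun_add i2) i4, integral_add i3 i2, s2, s3] at e2
  rw [e1] at hb
  have h4 : 0 ≤ L * β ^ 2 * Hh (gam E) (mix ρ f δ β) := by positivity
  unfold Hh at *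
  nlinarith

end Vale.Agent.P245B
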