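import Vale.Agent.P245C.FibE

/-! The difference of the posterior means is spread out. -/

open MeasureTheory ProbabilityTheory Real Set Filter Topology
open scoped ENNReal RealInnerProductSpace

noncomputable section

namespace Vale.Agent.P245B

open Vale.Agent.P245 (Ent gibbs Ent_nonneg)

set_option linter.unusedSectionVars false

variable {E : Type} [NormedAddCommGroup E] [InnerProductSpace ℝ E] [FiniteDimensional ℝ E]
  [CompleteSpace E] [MeasurableSpace E] [BorelSpace E]

variable {V f : E → ℝ} {b : E} {s L : ℝ}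

namespace Post

theorem lint (hV : Pot V 0) (hs : 0 < s) {g : E → ℝ≥0∞} (hg : Measurable g) :
    ∫⁻ z, ∫⁻ x, g x ∂fk V s z ∂ms (Vt (ms V) s) = ∫⁻ x, g x ∂ms V := by
  have := hV.prob
  conv_rhs => rw [dis_fw hV.cv hs]
  exact (Measure.lintegral_bind (fk V s).aemeasurable hg.aemeasurable).symm

theorem int_id (hV : Pot V 0) (hs : 0 < s) (z : E) : Integrable (fun x : E => x) (fk V s z) :=
  (fk_tail hV.cv hs z).int aestronglyMeasurable_id (XG.of_lin (C := 1) fun x => by linarith)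

theorem int_exp (hV : Pot V 0) (hs : 0 < s) (θ b z : E) :
    Integrable (fun x : E => exp ⟪θ, x - b⟫) (fk V s z) := by
  refine (fk_tail hV.cv hs z).int (Continuous.aestronglyMeasurable (by fun_prop))
    ⟨‖θ‖ * (1 + ‖b‖), fun x => ?_⟩
  rw [norm_of_nonneg (exp_pos _).le]
  refine exp_le_exp.2 ((real_inner_le_norm _ _).trans ?_)
  rw [mul_assoc]
  refine mul_le_mul_of_nonneg_left ((norm_sub_le _ _).trans ?_) (norm_nonneg _)
  nlinarith [mul_nonneg (norm_nonneg b) (norm_nonneg x)]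

end Post

theorem post_mgf (hV : Pot V 0) (hs : 0 < s) (h : SG (ms V) b L 0) (hL : 0 < L) (θ : E) :
    ∫⁻ z, ENNReal.ofReal (exp ⟪θ, Ko V s (fun x => x) z - b⟫) ∂ms (Vt (ms V) s) ≤
      ENNReal.ofReal (exp (L * ‖θ‖ ^ 2)) := by
  have := fk_markov hV.cv hs
  have h1 := h θ
  rw [add_zero, ← Post.lint hV hs (by fun_prop)] at h1
  refine le_trans (lintegral_mono fun z => ?_) h1
  have i1 : Integrable (fun x : E => x - b) (fk V s z) :=
    (Post.int_id hV hs z).sub (integrable_const b)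
  have j := jensen_exp (g := fun x => ⟪θ, x - b⟫) (i1.const_inner θ) (Post.int_exp hV hs θ b z)
  rw [integral_inner i1, integral_sub (Post.int_id hV hs z) (integrable_const b)] at j
  rw [← ofReal_integral_eq_lintegral_ofReal (Post.int_exp hV hs θ b z)
    (ae_of_all _ fun _ => (exp_pos _).le)]
  exact ENNReal.ofReal_le_ofReal (by simpa [Ko] using j)

theorem Post.mgf (hV : Pot V 0) (hs : 0 < s) (h : SG (ms V) b L 0) (hL : 0 < L) (θ : E) :
    ∫⁻ p : E × E, ENNReal.ofReal (exp ⟪θ, p.2 - Ko V s (fun x => x) p.1⟫)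
      ∂(ms (Vt (ms V) s) ⊗ₘ fk V s) ≤ ENNReal.ofReal (exp (4 * L * ‖θ‖ ^ 2)) := by
  have := fk_markov hV.cv hs
  have := hV.prob
  have : IsProbabilityMeasure (ms (Vt (ms V) s)) := Vt_prob hs
  have hm : Measurable (Ko V s fun x : E => x) :=
    (Ko_meas hV.cv hs stronglyMeasurable_id).measurable
  have e : L * ‖(2 : ℝ) • θ‖ ^ 2 = 4 * L * ‖θ‖ ^ 2 := by
    rw [norm_smul, mul_pow]
    norm_num
    ring
  have h1 := h ((2 : ℝ) • θ)
  have h2 := post_mgf hV hs h hL (-((2 : ℝ) • θ))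
  rw [add_zero, ← Post.lint hV hs (by fun_prop), e] at h1
  rw [norm_neg, e] at h2
  have k : 2 * ∫⁻ p : E × E, ENNReal.ofReal (exp ⟪θ, p.2 - Ko V s (fun x => x) p.1⟫)
      ∂(ms (Vt (ms V) s) ⊗ₘ fk V s) ≤ 2 * ENNReal.ofReal (exp (4 * L * ‖θ‖ ^ 2)) := by
    rw [← lintegral_const_mul _ (by fun_prop)]
    calc _ ≤ ∫⁻ p : E × E, (ENNReal.ofReal (exp ⟪(2 : ℝ) • θ, p.2 - b⟫) +
          ENNReal.ofReal (exp ⟪-((2 : ℝ) • θ), Ko V s (fun x => x) p.1 - b⟫))
          ∂(ms (Vt (ms V) s) ⊗ₘ fk V s) := lintegral_mono fun p => by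
          rw [← ENNReal.ofReal_add (exp_pos _).le (exp_pos _).le, ← ENNReal.ofReal_ofNat,
            ← ENNReal.ofReal_mul (by norm_num)]
          refine ENNReal.ofReal_le_ofReal ?_
          have e1 : ⟪θ, p.2 - Ko V s (fun x => x) p.1⟫
              = ⟪θ, p.2 - b⟫ + -⟪θ, Ko V s (fun x => x) p.1 - b⟫ := by
            simp only [inner_sub_right]
            ring
          rw [e1, inner_neg_left, real_inner_smul_left, real_inner_smul_left, exp_add,
            neg_mul_eq_mul_neg, two_mul ⟪θ, p.2 - b⟫, two_mul (-⟪θ, _⟫), exp_add, exp_add]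
          nlinarith [sq_nonneg (exp ⟪θ, p.2 - b⟫ - exp (-⟪θ, Ko V s (fun x => x) p.1 - b⟫))]
      _ ≤ _ := by
          rw [lintegral_add_left (by fun_prop), Measure.lintegral_compProd (by fun_prop),
            Measure.lintegral_compProd (by fun_prop), two_mul]
          exact add_le_add h1 (by simpa using h2)
  exact (ENNReal.mul_le_mul_iff_right (by norm_num) (by norm_num)).1 k

theorem post_spr (hV : Pot V 0) (hs : 0 < s) (h : SG (ms V) b L 0) (hL : 0 < L) (hf : PB f) :
    Spr (ms (Vt (ms V) s)) (Ko V s f) (Ko V s fun x => f x * log (f x)) (sh V s f) L := by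
  intro e he
  have := fk_markov hV.cv hs
  have := hV.prob
  have : IsProbabilityMeasure (ms (Vt (ms V) s)) := Vt_prob hs
  have hm : Measurable (Ko V s fun x : E => x) :=
    (Ko_meas hV.cv hs stronglyMeasurable_id).measurable
  have hF : PB fun p : E × E => e p.1 * f p.2 := by
    obtain ⟨m1, c1, C1, p1, b1⟩ := he
    obtain ⟨m2, c2, C2, p2, b2⟩ := hf
    exact PB.mul ⟨m1.comp measurable_fst, c1, C1, p1, fun p => b1 p.1⟩
      ⟨m2.comp measurable_snd, c2, C2, p2, fun p => b2 p.2⟩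
  obtain ⟨i0, k⟩ := mean_abs (ρ := ms (Vt (ms V) s) ⊗ₘ fk V s)
    (ξ := fun p : E × E => p.2 - Ko V s (fun x => x) p.1) (by fun_prop) (by positivity : 0 < 4 * L)
    (Post.mgf hV hs h hL) hF
  obtain ⟨C, -, hC⟩ := hF.bdd
  obtain ⟨Ce, -, hCe⟩ := he.bdd
  obtain ⟨Cf, -, hCf⟩ := hf.bdd
  have hK := Ko_pb hV.cv hs hf
  obtain ⟨CK, -, hCK⟩ := hK.bdd
  have e1 : ∫ p, e p.1 * f p.2 ∂(ms (Vt (ms V) s) ⊗ₘ fk V s)
      = ∫ z, Ko V s f z * e z ∂ms (Vt (ms V) s) := by
    rw [Measure.integral_compProd (hF.int _)]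
    refine integral_congr_ae (ae_of_all _ fun z => ?_)
    simp only [integral_const_mul]
    exact mul_comm _ _
  have e2 : ∫ p, e p.1 * f p.2 * log (e p.1 * f p.2) ∂(ms (Vt (ms V) s) ⊗ₘ fk V s)
      = ∫ z, Ko V s f z * (e z * log (e z)) ∂ms (Vt (ms V) s)
        + ∫ z, Ko V s (fun x => f x * log (f x)) z * e z ∂ms (Vt (ms V) s) := by
    have m1 : Measurable fun x => f x * log (f x) := hf.1.mul hf.1.log
    rw [Measure.integral_compProd (hF.int_log _), ← integral_add
      ((he.int_log _).bdd_mul hK.1.aestronglyMeasurable (ae_of_all _ fun z => (hCK z).1))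
      ((he.int _).bdd_mul (Ko_meas hV.cv hs m1.stronglyMeasurable).aestronglyMeasurable
        (ae_of_all _ (Ko_bdd hV.cv hs fun x => (hCf x).2.2.1)))]
    refine integral_congr_ae (ae_of_all _ fun z => ?_)
    have e3 : ∀ x, e z * f x * log (e z * f x)
        = f x * (e z * log (e z)) + f x * log (f x) * e z := fun x => by
      rw [log_mul (he.pos z).ne' (hf.pos x).ne']
      ring
    simp only [e3]
    rw [integral_add ((hf.int _).mul_const _) ((hf.int_log _).mul_const _), integral_mul_const,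
      integral_mul_const]
    rfl
  have e3 : ∫ p, (e p.1 * f p.2) • (p.2 - Ko V s (fun x => x) p.1) ∂(ms (Vt (ms V) s) ⊗ₘ fk V s)
      = ∫ z, (Ko V s f z * e z) • sh V s f z ∂ms (Vt (ms V) s) := by
    refine (Measure.integral_compProd
      (i0.bdd_smul C hF.1.aestronglyMeasurable (ae_of_all _ fun p => (hC p).1))).trans
      (integral_congr_ae (ae_of_all _ fun z => ?_))
    have i1 : Integrable (fun x => f x • x) (fk V s z) :=
      (Post.int_id hV hs z).bdd_smul Cf hf.1.aestronglyMeasurable (ae_of_all _ fun x => (hCf x).1)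
    have i2 := (hf.int (fk V s z)).smul_const (Ko V s (fun x => x) z)
    show ∫ x, (e z * f x) • (x - Ko V s (fun x => x) z) ∂fk V s z
      = (Ko V s f z * e z) • sh V s f z
    simp only [mul_smul, integral_smul]
    simp only [smul_sub]
    rw [integral_sub i1 i2, integral_smul_const, sh, smul_comm (Ko V s f z), smul_sub (Ko V s f z),
      smul_inv_smul₀ (hK.pos z).ne']
    rfl
  rw [Ent, e1, e2, e3] at k
  exact k.trans_eq (by ring)

end Vale.Agent.P245B
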