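import Vale.Agent.P245C.RecB

/-! The recursion between two levels. -/

open MeasureTheory ProbabilityTheory Real Set Filter Topology
open scoped ENNReal RealInnerProductSpace

noncomputable section

namespace Vale.Agent.P245B

open Vale.Agent.P245 (Ent gibbs Ent_nonneg)

set_option linter.unusedSectionVars false

variable {E : Type} [NormedAddCommGroup E] [InnerProductSpace ℝ E] [FiniteDimensional ℝ E]
  [CompleteSpace E] [MeasurableSpace E] [BorelSpace E]

variable {V f g U : E → ℝ} {b : E} {L s r e k D : ℝ}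

namespace Rec

/-- The data of a function violating the improved inequality. -/
structure Ctx (V g : E → ℝ) (b : E) (L e k D : ℝ) : Prop where
  hV : Pot V 0
  h : SG (ms V) b L 0
  hL : 0 < L
  e0 : 0 < e
  e1 : e ≤ 1 / 100
  hk : 60 * L ≤ k * e ^ 6
  hD : 0 < D
  h1 : DL (ms V) k D
  h2 : DL (ms V) (2 * k) (D / 2)
  h3 : DL (ms V) ((1 - 14 * e) * k) (2 * D)
  hg : Bd g
  one : ∫ x, exp (g x) ∂ms V = 1
  viol : (1 - e ^ 2) * k / 4 * Fi (ms V) g + D < Hh (ms V) fun x => exp (g x)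

/-- The Fisher information along the heat flow. -/
def II (V g : E → ℝ) (s : ℝ) : ℝ := Fi (ms (Vt (ms V) s)) (lg V s fun x => exp (g x))

theorem Ctx.k0 (c : Ctx V g b L e k D) : 0 < k := k_pos c.hL c.e0 c.hk

theorem Ctx.tail (c : Ctx V g b L e k D) : Tail (ms V) :=
  have := c.hV.prob
  c.h.tail c.hL

theorem Ctx.bounds (c : Ctx V g b L e k D) : 0 < Fi (ms V) g ∧
    Hh (ms V) (fun x => exp (g x)) ≤ k * Fi (ms V) g ∧ D ≤ k * Fi (ms V) g := by
  have h1 := hh c.h2 c.hg c.one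
  have h2 := c.viol
  have h3 := c.hD
  have h4 := Fi_nonneg (ms V) g
  have h5 := c.k0
  have h6 : 0 ≤ 1 - e ^ 2 := by nlinarith [c.e0, c.e1]
  have h7 : 0 ≤ (1 - e ^ 2) * k / 4 * Fi (ms V) g := by positivity
  refine ⟨(mul_pos_iff_of_pos_left h5).1 (by linarith), by linarith, by linarith⟩

theorem Ctx.drop (c : Ctx V g b L e k D) (hs : 0 < s) : Hh (ms V) (fun x => exp (g x)) -
    Hh (ms (Vt (ms V) s)) (Ko V s fun x => exp (g x)) ≤ s / 2 * Fi (ms V) g := by
  have := c.hV.prob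
  have hp : IsProbabilityMeasure (ms (Vt (ms V) s)) := Vt_prob hs
  exact drop_le_fi c.hV.cv hs (dis_fw c.hV.cv hs) c.hg

theorem Ctx.one' (c : Ctx V g b L e k D) (hs : 0 < s) :
    ∫ y, Ko V s (fun x => exp (g x)) y ∂ms (Vt (ms V) s) = 1 := by
  have := c.hV.prob
  have hp : IsProbabilityMeasure (ms (Vt (ms V) s)) := Vt_prob hs
  exact (RecA.int_one c.hV.cv hs (dis_fw c.hV.cv hs) c.hg.pb).trans c.one

theorem Ctx.le (c : Ctx V g b L e k D) (hs : 0 < s) : II V g s ≤ Fi (ms V) g := by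
  have := c.hV.prob
  have hp : IsProbabilityMeasure (ms (Vt (ms V) s)) := Vt_prob hs
  have h1 := fi_le_drop c.hV.cv hs (dis_fw c.hV.cv hs) c.hg.pb
  have h2 := c.drop hs
  refine le_of_mul_le_mul_left ?_ hs
  rw [II]
  linarith

theorem Ctx.ge (c : Ctx V g b L e k D) (hs : 0 < s) (hs' : s ≤ k * e) :
    (1 - 5 * e) * Fi (ms V) g ≤ II V g s := by
  have := c.hV.prob
  have e1 := RecA.exp_lg' c.hV.cv hs c.hg.pb
  have h1 := hh (dl_conv c.k0.le c.h1 hs) (lg_bd c.hV.cv hs c.hg.pb)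
    (by rw [e1]; exact c.one' hs)
  rw [e1] at h1
  have h2 := c.drop hs
  have h3 := c.viol
  have h4 := c.bounds.1
  have h5 : 0 ≤ II V g s := Fi_nonneg _ _
  have k0 := c.k0
  have e0 := c.e0
  change _ ≤ (k + 2 * s) / 4 * II V g s + D at h1
  set I0 := Fi (ms V) g
  set I := II V g s
  have h6 := mul_le_mul_of_nonneg_right hs' h4.le
  have h7 := mul_le_mul_of_nonneg_right hs' h5
  have h8 : k * ((1 - e ^ 2 - 2 * e) * I0) ≤ k * ((1 + 2 * e) * I) := by nlinarith
  have h9 := le_of_mul_le_mul_left h8 k0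
  refine le_of_mul_le_mul_left ?_ (by positivity : 0 < 1 + 2 * e)
  have h10 : 0 ≤ (e + 9 * e ^ 2) * I0 := by positivity
  nlinarith

theorem Ctx.loss (c : Ctx V g b L e k D) (hs : k * e ^ 2 ≤ s) (hs' : s ≤ k * e) (hU : Cv U)
    (hr : 0 < r) {ma : Measure E} [IsProbabilityMeasure ma]
    (hm : ms (Vt (ms V) s) = fk U r ∘ₘ ma) {k' : ℝ} (k0 : 0 ≤ k') (k1 : k' ≤ k)
    (hD : DL ma k' (2 * D)) :
    (k' + 2 * r) * Na U r ma (Ko V s fun x => exp (g x)) (sh V s fun x => exp (g x)) ≤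
      (k' + 2 * r) * (s ^ 2 * II V g s) - 2 * r * ((1 - 7 * e) * (s ^ 2 * Fi (ms V) g)) := by
  have e0 := c.e0
  have hL := c.hL
  have hk := c.k0
  have hs0 : 0 < s := lt_of_lt_of_le (by positivity) hs
  have hq : 0 < e / (8 * L) := by positivity
  have h := step_ch c.hV c.h hL hs0 c.hg.pb c.one hU hr hm k0 hD (sqrt_pos.2 hq)
  rw [sq_sqrt hq.le] at h
  exact arith_loss hL e0 c.e1 c.hk hr hs k0 k1 c.bounds.1.le (c.le hs0) (c.ge hs0 hs')
    c.bounds.2.1 c.bounds.2.2 h

theorem Ctx.fw (c : Ctx V g b L e k D) (hs : k * e ^ 2 ≤ s) (hs' : s + k * e ^ 3 ≤ k * e) :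
    II V g (s + k * e ^ 3) ≤ II V g s - 2 * e ^ 3 * Fi (ms V) g := by
  have := c.hV.prob
  have e0 := c.e0
  have e1 := c.e1
  have hk := c.k0
  have hs0 : 0 < s := lt_of_lt_of_le (by positivity) hs
  have hr : 0 < k * e ^ 3 := by positivity
  have hp : IsProbabilityMeasure (ms (Vt (ms V) s)) := Vt_prob hs0
  have hp' : IsProbabilityMeasure (ms (Vt (ms V) (s + k * e ^ 3))) := Vt_prob (by positivity)
  have hU := (c.hV.conv c.tail hs0).cv
  have hm := dis_fw hU hr
  rw [Vt_semi c.hV c.tail hs0 hr] at hm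
  have h14 : 0 ≤ 1 - 14 * e := by linarith
  have h12 : 0 ≤ 1 - 12 * e := by linarith
  have hD : DL (ms (Vt (ms V) (s + k * e ^ 3))) ((1 - 12 * e) * k) (2 * D) :=
    (dl_conv (by positivity) c.h3 (by positivity)).mono (by linarith) le_rfl
  have hke : 0 < k * e := by positivity
  exact arith_fw e0 e1 hk hs c.bounds.1.le (fwd_step c.hV c.tail hs0 hr c.hg.pb)
    (c.loss hs (by linarith) hU hr hm (by positivity) (by linarith) hD)

theorem Ctx.iter (c : Ctx V g b L e k D) (j : ℕ) (hj : k * e ^ 2 + j * (k * e ^ 3) ≤ k * e) :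
    II V g (k * e ^ 2 + j * (k * e ^ 3)) ≤ Fi (ms V) g - 2 * (j * e ^ 3) * Fi (ms V) g := by
  have e0 := c.e0
  have hk := c.k0
  have hr : 0 < k * e ^ 3 := by positivity
  induction j with
  | zero => simpa using c.le (by positivity : 0 < k * e ^ 2)
  | succ j ih =>
    push_cast at hj ⊢
    have h1 := ih (by linarith)
    have h2 := c.fw (s := k * e ^ 2 + j * (k * e ^ 3))
      (le_add_of_nonneg_right (by positivity)) (by linarith)
    rw [show k * e ^ 2 + (j + 1) * (k * e ^ 3) = k * e ^ 2 + j * (k * e ^ 3) + k * e ^ 3 by ring]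
    linarith

theorem Na_smul (ma : Measure E) (δ : E → E) (t : ℝ) :
    Na U r ma f (fun x => t • δ x) = t ^ 2 * Na U r ma f δ := by
  rw [Na, Na, ← integral_const_mul]
  refine integral_congr_ae (ae_of_all _ fun a => ?_)
  have : Ko U r (fun x => f x • t • δ x) a = t • Ko U r (fun x => f x • δ x) a := by
    rw [Ko, Ko, ← integral_smul]
    exact integral_congr_ae (ae_of_all _ fun x => smul_comm _ _ _)
  simp only [this, norm_smul, mul_pow, Real.norm_eq_abs, sq_abs]
  ring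

theorem Ctx.false (c : Ctx V g b L e k D) {J : ℕ} (hJ : J * e ^ 3 = e - e ^ 2) : False := by
  have := c.hV.prob
  have e0 := c.e0
  have e1 := c.e1
  have hk := c.k0
  have hS : 0 < k * e := by positivity
  have eS : k * e ^ 2 + J * (k * e ^ 3) = k * e := by linear_combination k * hJ
  have h1 := c.iter J eS.le
  rw [eS, hJ] at h1
  have hc := c.hV.cv
  have hm := dis_bw (ms V) hS
  have h14 : 0 ≤ 1 - 14 * e := by linarith
  have h2 := c.loss (s := k * e) (by nlinarith) le_rfl cv_zero hS hm (by positivity)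
    (by linarith) c.h3
  have hfs := Ko_pb hc hS c.hg.pb
  have hb := lg_bd hc hS c.hg.pb
  have e2 := RecA.exp_lg' hc hS c.hg.pb
  have e3 : sh V (k * e) (fun x => exp (g x)) =
      fun y => (k * e) • gradient (lg V (k * e) fun x => exp (g x)) y := by
    funext y
    rw [(lg_grad hc hS c.hg.pb y).gradient, smul_smul, mul_inv_cancel₀ hS.ne', one_smul]
  have e4 := fi_bw hS hb (ms V)
  rw [e2] at e4
  rw [e3, Na_smul, ← e4] at h2
  have e5 := RecA.exp_lg' cv_zero hS hfs
  have h3 := hh c.h1 (lg_bd cv_zero hS hfs)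
    (by rw [e5]; exact (RecA.int_one cv_zero hS hm hfs).trans (c.one' hS))
  rw [e5] at h3
  have h4 := RecA.drop' c.hV hS c.hg.pb cv_zero hS hm
  have h5 := c.drop hS
  have h6 := mul_le_mul_of_nonneg_left (c.le hS) hS.le
  have h7 := c.viol
  refine arith_bw e0 e1 hk c.bounds.1 h1 (le_of_mul_le_mul_left ?_ hk) h2
  rw [II] at h6
  linarith

end Rec

theorem recur (hV : Pot V 0) (h : SG (ms V) b L 0) (hL : 0 < L) {m : ℕ} (hm : 100 ≤ m)
    {k D : ℝ} (hk : 60 * L * (m : ℝ) ^ 6 ≤ k) (hD : 0 < D) (h1 : DL (ms V) k D)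
    (h2 : DL (ms V) (2 * k) (D / 2)) (h3 : DL (ms V) ((1 - 14 / m) * k) (2 * D)) :
    DL (ms V) ((1 - 1 / (m : ℝ) ^ 2) * k) D := by
  have := hV.prob
  by_contra hn
  obtain ⟨g, hg, h4, h5⟩ := Rec.norm_viol hn
  have hm' : (100 : ℝ) ≤ m := by exact_mod_cast hm
  have hm0 : (0 : ℝ) < m := by linarith
  have c : Rec.Ctx V g b L (1 / m) k D :=
    { hV := hV, h := h, hL := hL, e0 := by positivity
      e1 := one_div_le_one_div_of_le (by norm_num) hm'
      hk := by rwa [one_div_pow, mul_one_div, le_div_iff₀ (by positivity)]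
      hD := hD, h1 := h1, h2 := h2
      h3 := by rwa [mul_one_div]
      hg := hg, one := h4
      viol := by rwa [one_div_pow] }
  refine c.false (J := m * (m - 1)) ?_
  rw [Nat.cast_mul, Nat.cast_sub (by omega)]
  field_simp
  simp

end Vale.Agent.P245B
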