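import Vale.Agent.P245C.StepA
import Vale.Agent.P245C.Post
import Vale.Agent.P245C.Fwd

/-! One step of a channel. -/

open MeasureTheory ProbabilityTheory Real Set Filter Topology
open scoped ENNReal RealInnerProductSpace

noncomputable section

namespace Vale.Agent.P245B

open Vale.Agent.P245 (Ent gibbs Ent_nonneg)

set_option linter.unusedSectionVars false

variable {E : Type} [NormedAddCommGroup E] [InnerProductSpace ℝ E] [FiniteDimensional ℝ E]
  [CompleteSpace E] [MeasurableSpace E] [BorelSpace E]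

variable {V f U : E → ℝ} {b : E} {L s r : ℝ}

namespace RecA

theorem arith {k r β L M X N I Ha Hb H0 : ℝ} (hr : 0 < r) (hk : 0 ≤ k) (hβ : 0 < β)
    (ha : 0 ≤ Ha) (hd : Hb - Ha ≤ r / 2 * I)
    (h : (1 + k / (2 * r)) * (Ha + β ^ 2 / 2 * X) ≤ k / (2 * r) * (Hb + β ^ 2 / 2 * N) +
      8 * L * β ^ 2 * (H0 + β ^ 2 / 2 * N) + M) :
    (k + 2 * r) * X ≤ k * N + k * r / β ^ 2 * I +
      2 * r * (16 * L * H0 + 8 * L * β ^ 2 * N + 2 * M / β ^ 2) := by
  have hb : 0 < β ^ 2 := by positivity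
  have h1 := mul_le_mul_of_nonneg_left h (by positivity : 0 ≤ 4 * r)
  have e1 : 4 * r * ((1 + k / (2 * r)) * (Ha + β ^ 2 / 2 * X)) =
      (4 * r + 2 * k) * Ha + β ^ 2 * ((k + 2 * r) * X) := by
    field_simp
    ring
  have e2 : 4 * r * (k / (2 * r) * (Hb + β ^ 2 / 2 * N) +
      8 * L * β ^ 2 * (H0 + β ^ 2 / 2 * N) + M) = 2 * k * Hb - k * r * I +
        β ^ 2 * (k * N + k * r / β ^ 2 * I +
          2 * r * (16 * L * H0 + 8 * L * β ^ 2 * N + 2 * M / β ^ 2)) := by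
    field_simp
    ring
  rw [e1, e2] at h1
  refine le_of_mul_le_mul_left ?_ hb
  have h2 := mul_le_mul_of_nonneg_left hd (by positivity : 0 ≤ 2 * k)
  have h3 : 0 ≤ r * Ha := by positivity
  nlinarith

theorem exp_lg' (hU : Cv U) (hr : 0 < r) (hf : PB f) :
    (fun a => exp (lg U r f a)) = Ko U r f := funext (exp_lg hU hr hf)

theorem int_one (hU : Cv U) (hr : 0 < r) {ma mb : Measure E} [IsProbabilityMeasure ma]
    (hm : mb = fk U r ∘ₘ ma) (hf : PB f) : ∫ a, Ko U r f a ∂ma = ∫ x, f x ∂mb := by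
  obtain ⟨C, -, hb⟩ := hf.bdd
  exact int_Ko hU hr hm hf.1.stronglyMeasurable (C := C) fun x => (hb x).1

theorem drop' (hV : Pot V 0) (hs : 0 < s) (hf : PB f) (hU : Cv U) (hr : 0 < r) {ma : Measure E}
    [IsProbabilityMeasure ma] (hm : ms (Vt (ms V) s) = fk U r ∘ₘ ma) :
    Hh (ms (Vt (ms V) s)) (Ko V s f) - Hh ma (Ko U r (Ko V s f)) ≤
      r / 2 * Fi (ms (Vt (ms V) s)) (lg V s f) := by
  have h := drop_le_fi hU hr hm (lg_bd hV.cv hs hf)
  rwa [exp_lg' hV.cv hs hf] at h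

end RecA

theorem step_ch (hV : Pot V 0) (h : SG (ms V) b L 0) (hL : 0 < L) (hs : 0 < s) (hf : PB f)
    (h1 : ∫ x, f x ∂ms V = 1) (hU : Cv U) (hr : 0 < r) {ma : Measure E} [IsProbabilityMeasure ma]
    (hm : ms (Vt (ms V) s) = fk U r ∘ₘ ma) {k M β : ℝ} (hk : 0 ≤ k) (hD : DL ma k M)
    (hβ : 0 < β) :
    (k + 2 * r) * Na U r ma (Ko V s f) (sh V s f) ≤
      k * (s ^ 2 * Fi (ms (Vt (ms V) s)) (lg V s f)) +
        k * r / β ^ 2 * Fi (ms (Vt (ms V) s)) (lg V s f) +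
        2 * r * (16 * L * Hh (ms V) f +
          8 * L * β ^ 2 * (s ^ 2 * Fi (ms (Vt (ms V) s)) (lg V s f)) + 2 * M / β ^ 2) := by
  have := hV.prob
  have := fk_markov hU hr
  have hp : IsProbabilityMeasure (ms (Vt (ms V) s)) := Vt_prob hs
  have hc := hV.cv
  have hdis := dis_fw hc hs
  have hfs : PB (Ko V s f) := Ko_pb hc hs hf
  obtain ⟨C1, hC1⟩ := sh_bdd hc hs hf
  obtain ⟨C2, -, hb⟩ := hf.bdd
  have hl : ∀ y, |Ko V s (fun x => f x * log (f x)) y| ≤ max C1 C2 := fun y =>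
    le_trans (Ko_bdd hc hs (F := fun x => f x * log (f x)) (C := C2) (fun x => (hb x).2.2.1) y)
      (le_max_right _ _)
  have ml : StronglyMeasurable fun x => f x * log (f x) :=
    (hf.1.mul hf.1.log).stronglyMeasurable
  have i1 : ∫ y, Ko V s f y ∂ms (Vt (ms V) s) = 1 := (RecA.int_one hc hs hdis hf).trans h1
  have i2 : ∫ y, Ko V s (fun x => f x * log (f x)) y ∂ms (Vt (ms V) s) = Hh (ms V) f :=
    int_Ko hc hs hdis ml (C := C2) fun x => (hb x).2.2.1
  have key := step_abs (κ := fk U r) hm hfs (sh_cont hc hs hf).measurable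
    (fun y => (hC1 y).trans (le_max_left _ _)) β i1 (Ko_meas hc hs ml).measurable hl hL.le
    (post_spr hV hs h hL hf) (a₀ := k / (2 * r)) (M := M)
    (fun F hF => sdpi hU hr hm hk hD hF) (by positivity)
  rw [i2, ← Fi_lg hc hs hf] at key
  exact RecA.arith hr hk hβ
    (Hh_nonneg (Ko_pb hU hr hfs) ma ((RecA.int_one hU hr hm hfs).trans i1))
    (RecA.drop' hV hs hf hU hr hm) key

end Vale.Agent.P245B
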