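import Vale.Agent.P245C.RecA

/-! Arithmetic for the recursion. -/

open MeasureTheory ProbabilityTheory Real Set Filter Topology
open scoped ENNReal RealInnerProductSpace

noncomputable section

namespace Vale.Agent.P245B

open Vale.Agent.P245 (Ent gibbs Ent_nonneg)

set_option linter.unusedSectionVars false

variable {E : Type} [NormedAddCommGroup E] [InnerProductSpace ℝ E] [FiniteDimensional ℝ E]
  [CompleteSpace E] [MeasurableSpace E] [BorelSpace E]

variable {V f g U : E → ℝ} {b : E} {L s r e k D : ℝ}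

namespace Rec

theorem hh {μ : Measure E} (h : DL μ k D) (hg : Bd g) (h1 : ∫ x, exp (g x) ∂μ = 1) :
    Hh μ (fun x => exp (g x)) ≤ k / 4 * Fi μ g + D := by
  have h2 := h g hg
  rw [Ent, h1, log_one, mul_zero, sub_zero, mul_one] at h2
  exact h2

theorem norm_viol {μ : Measure E} [IsProbabilityMeasure μ] (h : ¬DL μ k D) :
    ∃ g : E → ℝ, Bd g ∧ ∫ x, exp (g x) ∂μ = 1 ∧
      k / 4 * Fi μ g + D < Hh μ fun x => exp (g x) := by
  simp only [DL, not_forall, not_le] at h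
  obtain ⟨g, hg, hlt⟩ := h
  have hp := hg.pb.int_pos μ
  set m := ∫ x, exp (g x) ∂μ with hm
  obtain ⟨h1, h2⟩ := hg.add_const (-log m)
  have e1 : ∀ x, exp (g x + -log m) = m⁻¹ * exp (g x) := fun x => by
    rw [exp_add, exp_neg, exp_log hp, mul_comm]
  refine ⟨_, h1, ?_, ?_⟩
  · simp only [e1]
    rw [integral_const_mul, ← hm, inv_mul_cancel₀ hp.ne']
  · have e2 : Fi μ (fun x => g x + -log m) = m⁻¹ * Fi μ g := by
      simp only [Fi, h2, e1]
      rw [← integral_const_mul]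
      exact integral_congr_ae (ae_of_all _ fun x => by ring)
    have e3 : Hh μ (fun x => exp (g x + -log m)) = m⁻¹ * Ent μ fun x => exp (g x) := by
      have e4 : ∀ x, exp (g x + -log m) * log (exp (g x + -log m)) =
          m⁻¹ * (exp (g x) * log (exp (g x)) - exp (g x) * log m) := fun x => by
        rw [log_exp, log_exp, e1]
        ring
      simp only [Hh, e4]
      rw [integral_const_mul, integral_sub (hg.pb.int_log μ) ((hg.pb.int μ).mul_const _),
        integral_mul_const, Ent]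
    rw [e2, e3]
    have h3 := mul_lt_mul_of_pos_left hlt (inv_pos.2 hp)
    have e5 : m⁻¹ * (k / 4 * Fi μ g + D * m) = k / 4 * (m⁻¹ * Fi μ g) + D := by
      field_simp
    rwa [e5] at h3

theorem k_pos (hL : 0 < L) (e0 : 0 < e) (hk : 60 * L ≤ k * e ^ 6) : 0 < k :=
  (mul_pos_iff_of_pos_right (by positivity : 0 < e ^ 6)).1 (lt_of_lt_of_le (by positivity) hk)

theorem arith_loss {k' X I I0 H0 : ℝ} (hL : 0 < L) (e0 : 0 < e) (e1 : e ≤ 1 / 100)
    (hk : 60 * L ≤ k * e ^ 6) (hr : 0 < r) (hs : k * e ^ 2 ≤ s) (k0 : 0 ≤ k') (k1 : k' ≤ k)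
    (I00 : 0 ≤ I0) (hI : I ≤ I0) (hI' : (1 - 5 * e) * I0 ≤ I) (hH : H0 ≤ k * I0)
    (hD : D ≤ k * I0)
    (h : (k' + 2 * r) * X ≤ k' * (s ^ 2 * I) + k' * r / (e / (8 * L)) * I +
      2 * r * (16 * L * H0 + 8 * L * (e / (8 * L)) * (s ^ 2 * I) + 2 * (2 * D) / (e / (8 * L)))) :
    (k' + 2 * r) * X ≤ (k' + 2 * r) * (s ^ 2 * I) - 2 * r * ((1 - 7 * e) * (s ^ 2 * I0)) := by
  have hk0 : 0 < k := k_pos hL e0 hk
  set A := L * k * I0 / e with hA
  have hA0 : 0 ≤ A := by positivity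
  have a1 : k' * r / (e / (8 * L)) * I ≤ 2 * r * (4 * A) := by
    have : k' * r / (e / (8 * L)) * I = 8 * r * (L * (k' * I) / e) := by field_simp
    rw [this, hA]
    have h2 : k' * I ≤ k * I0 :=
      (mul_le_mul_of_nonneg_left hI k0).trans (mul_le_mul_of_nonneg_right k1 I00)
    have h3 : L * (k' * I) / e ≤ L * k * I0 / e := by
      rw [mul_assoc]
      gcongr
    nlinarith
  have a2 : 16 * L * H0 ≤ A := by
    rw [hA, le_div_iff₀ e0]
    have h2 : 0 ≤ L * (k * I0) := by positivity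
    have h3 := mul_le_mul_of_nonneg_left hH hL.le
    nlinarith
  have a3 : 2 * (2 * D) / (e / (8 * L)) ≤ 32 * A := by
    have : 2 * (2 * D) / (e / (8 * L)) = 32 * (L * D / e) := by
      field_simp
      ring
    rw [this, hA, mul_assoc]
    gcongr
  have a4 : 8 * L * (e / (8 * L)) = e := by field_simp
  have a5 : 37 * A ≤ e * (s ^ 2 * I0) := by
    have h2 : (k * e ^ 2) ^ 2 ≤ s ^ 2 := by gcongr
    have h3 : 37 * A ≤ e * ((k * e ^ 2) ^ 2 * I0) := by
      rw [hA, ← mul_div_assoc, div_le_iff₀ e0]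
      have h4 := mul_le_mul_of_nonneg_right hk (by positivity : 0 ≤ k * I0)
      have h5 : 0 ≤ L * k * I0 := by positivity
      nlinarith
    exact h3.trans (by gcongr)
  rw [a4] at h
  have a6 : (1 - 5 * e) * (s ^ 2 * I0) ≤ s ^ 2 * I := by
    have := mul_le_mul_of_nonneg_left hI' (sq_nonneg s)
    linarith
  have a7 : 0 ≤ s ^ 2 * I0 := by positivity
  have a8 : (1 - 7 * e) * (s ^ 2 * I0) ≤ (1 - e) * (s ^ 2 * I) - e * (s ^ 2 * I0) := by
    have h2 := mul_le_mul_of_nonneg_left a6 (by linarith : 0 ≤ 1 - e)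
    have h3 : 0 ≤ e ^ 2 * (s ^ 2 * I0) := by positivity
    nlinarith
  have a9 := mul_le_mul_of_nonneg_left (by linarith : 4 * A + (16 * L * H0 + e * (s ^ 2 * I) +
    2 * (2 * D) / (e / (8 * L))) ≤ s ^ 2 * I - (1 - 7 * e) * (s ^ 2 * I0))
    (by positivity : 0 ≤ 2 * r)
  linarith


theorem arith_fw {X I I' I0 : ℝ} (e0 : 0 < e) (e1 : e ≤ 1 / 100) (hk : 0 < k)
    (hs : k * e ^ 2 ≤ s) (I00 : 0 ≤ I0)
    (h1 : s * (s + k * e ^ 3) * I' ≤ X + s * (k * e ^ 3) * I)
    (h2 : ((1 - 12 * e) * k + 2 * (k * e ^ 3)) * X ≤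
      ((1 - 12 * e) * k + 2 * (k * e ^ 3)) * (s ^ 2 * I) -
        2 * (k * e ^ 3) * ((1 - 7 * e) * (s ^ 2 * I0))) : I' ≤ I - 2 * e ^ 3 * I0 := by
  have hs0 : 0 < s := lt_of_lt_of_le (by positivity) hs
  set c := (1 - 12 * e) * k + 2 * (k * e ^ 3) with hc
  have h12 : 0 < 1 - 12 * e := by linarith
  have c0 : 0 < c := by positivity
  have c1 : c ≤ (1 - 11 * e) * k := by
    have : 2 * e ^ 2 ≤ 1 := by nlinarith
    have h3 : 0 ≤ k * e * (1 - 2 * e ^ 2) := by
      have : 0 ≤ 1 - 2 * e ^ 2 := by linarith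
      positivity
    rw [hc]
    nlinarith
  have c2 : s + k * e ^ 3 ≤ (1 + e) * s := by
    have := mul_le_mul_of_nonneg_left hs e0.le
    nlinarith
  have c3 : c * (s + k * e ^ 3) ≤ (1 - 7 * e) * (k * s) := by
    have h3 : c * (s + k * e ^ 3) ≤ (1 - 11 * e) * k * ((1 + e) * s) :=
      mul_le_mul c1 c2 (by positivity) (c0.le.trans c1)
    have h4 : 0 ≤ e * (k * s) := by positivity
    have h5 : 0 ≤ e ^ 2 * (k * s) := by positivity
    nlinarith
  have c4 : 0 < c * (s * (s + k * e ^ 3)) := by positivity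
  refine le_of_mul_le_mul_left ?_ c4
  have h3 := mul_le_mul_of_nonneg_left h1 c0.le
  have h4 := mul_le_mul_of_nonneg_left c3 (by positivity : 0 ≤ 2 * e ^ 3 * s * I0)
  nlinarith

theorem arith_bw {I I' I0 : ℝ} (e0 : 0 < e) (e1 : e ≤ 1 / 100) (hk : 0 < k) (I00 : 0 < I0)
    (h1 : I ≤ I0 - 2 * (e - e ^ 2) * I0) (h3 : (1 - e ^ 2 - 4 * e) * I0 ≤ I')
    (h2 : ((1 - 14 * e) * k + 2 * (k * e)) * ((k * e) ^ 2 * I') ≤
      ((1 - 14 * e) * k + 2 * (k * e)) * ((k * e) ^ 2 * I) -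
        2 * (k * e) * ((1 - 7 * e) * ((k * e) ^ 2 * I0))) : False := by
  have h4 : (1 - 12 * e) * I' ≤ (1 - 12 * e) * I - 2 * e * ((1 - 7 * e) * I0) := by
    refine le_of_mul_le_mul_left ?_ (by positivity : 0 < k * (k * e) ^ 2)
    linarith
  have h12 : 0 ≤ 1 - 12 * e := by linarith
  have h5 := mul_le_mul_of_nonneg_left h1 h12
  have h6 := mul_le_mul_of_nonneg_left h3 h12
  have h7 : 0 < e ^ 2 * I0 * (7 + 36 * e) := by positivity
  nlinarith

end Rec

end Vale.Agent.P245B
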