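import Vale.Agent.P245C.Gw2

/-! The information inequality for one step of a channel. -/

open MeasureTheory ProbabilityTheory Real Set Filter Topology
open scoped ENNReal RealInnerProductSpace

noncomputable section

namespace Vale.Agent.P245B

open Vale.Agent.P245 (Ent gibbs Ent_nonneg)

set_option linter.unusedSectionVars false

variable {E : Type} [NormedAddCommGroup E] [InnerProductSpace ℝ E] [FiniteDimensional ℝ E]
  [CompleteSpace E] [MeasurableSpace E] [BorelSpace E]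

variable {A B : Type} [MeasurableSpace A] [MeasurableSpace B] {ma : Measure A}
  [IsProbabilityMeasure ma] {κ : Kernel A B} [IsMarkovKernel κ] {f l : B → ℝ} {δ : B → E} {C : ℝ}

theorem step_T1 {ρ : Measure B} [IsProbabilityMeasure ρ] (hf : PB f) (hδ : Measurable δ)
    (hC : ∀ b, ‖δ b‖ ≤ C) (β : ℝ) :
    Integrable (fun w => Hh ρ fun b => f b * ew β (δ b) w) (gam E) ∧
      ∫ w, Hh ρ (fun b => f b * ew β (δ b) w) ∂gam E =
        Hh ρ f + β ^ 2 / 2 * ∫ b, f b * ‖δ b‖ ^ 2 ∂ρ := by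
  obtain ⟨K, -, hK⟩ := hf.bdd
  have hm : Measurable fun b => f b * log (f b) := hf.1.mul hf.1.log
  obtain ⟨i1, e1⟩ := mix_swap (ρ := ρ) hδ hC β hm fun b => (hK b).2.2.1
  obtain ⟨i2, e2⟩ := mix_swap_log (ρ := ρ) hδ hC β hf.1 fun b => (hK b).1
  have e : ∀ w, Hh ρ (fun b => f b * ew β (δ b) w) =
      ∫ b, f b * log (f b) * ew β (δ b) w ∂ρ +
        ∫ b, f b * (ew β (δ b) w * log (ew β (δ b) w)) ∂ρ := fun w => by
    have hp := ew_pb hδ hC β w
    rw [← integral_add
      ((hp.int ρ).bdd_mul hm.aestronglyMeasurable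
        (Eventually.of_forall fun b => (hK b).2.2.1))
      ((hp.int_log ρ).bdd_mul hf.1.aestronglyMeasurable (Eventually.of_forall fun b => (hK b).1))]
    refine integral_congr_ae (Eventually.of_forall fun b => ?_)
    simp only
    rw [log_mul (hf.pos b).ne' (hp.pos b).ne']
    ring
  simp only [e]
  exact ⟨i1.add i2, by rw [integral_add i1 i2, e1, e2]; rfl⟩

namespace StepA

theorem meas (hf : PB f) (hδ : Measurable δ) (β : ℝ) :
    Measurable fun p : A × E => mix (κ p.1) f δ β p.2 := by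
  have h : Measurable fun q : (A × E) × B => f q.2 * ew β (δ q.2) q.1.2 := by
    have := hf.1
    unfold ew
    fun_prop
  exact (h.stronglyMeasurable.integral_kernel_prod_right'
    (κ := Kernel.prodMkRight E κ)).measurable

theorem abs_le_sq {x : ℝ} (hx : 0 < x) : |x * log x| ≤ 1 + x ^ 2 := by
  have h1 := log_le_sub_one_of_pos hx
  have h2 := one_sub_inv_le_log_of_pos hx
  have h3 := mul_le_mul_of_nonneg_left h1 hx.le
  have h4 := mul_le_mul_of_nonneg_left h2 hx.le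
  rw [mul_sub, mul_inv_cancel₀ hx.ne'] at h4
  exact abs_le.2 ⟨by nlinarith, by nlinarith⟩

theorem joint (hf : PB f) (hδ : Measurable δ) (hC : ∀ b, ‖δ b‖ ≤ C) (β : ℝ) :
    Integrable (fun p : A × E => mix (κ p.1) f δ β p.2 * log (mix (κ p.1) f δ β p.2))
      (ma.prod (gam E)) := by
  have := gam_prob (E := E)
  obtain ⟨K, K0, hK⟩ := hf.bdd
  have hm := meas (κ := κ) hf hδ β
  have hb : Integrable (fun w : E => 1 + K ^ 2 * exp (2 * (|β| * C) * ‖w‖)) (gam E) :=
    (integrable_const 1).add ((gam_tail _).const_mul _)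
  refine (hb.comp_snd ma).mono' (hm.mul hm.log).aestronglyMeasurable
    (Eventually.of_forall fun p => ?_)
  have h0 := mix_pos (ρ := κ p.1) hf hδ hC β p.2
  have h1 : mix (κ p.1) f δ β p.2 ≤ K * exp (|β| * C * ‖p.2‖) := by
    refine (le_abs_self _).trans ?_
    have := norm_integral_le_of_norm_le_const (μ := κ p.1)
      (f := fun b => f b * ew β (δ b) p.2) (C := K * exp (|β| * C * ‖p.2‖))
      (Eventually.of_forall fun b => by
        rw [Real.norm_eq_abs, abs_mul, abs_of_pos (ew_pos _ _ _)]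
        exact mul_le_mul (hK b).1 (ew_le β _ _ (hC b)).2 (ew_pos _ _ _).le K0)
    simpa [mix] using this
  refine (abs_le_sq h0).trans (add_le_add le_rfl ?_)
  refine (pow_le_pow_left₀ h0.le h1 2).trans_eq ?_
  rw [mul_pow, ← exp_nat_mul]
  congr 2
  push_cast
  ring

theorem quot (hf : PB f) (hδ : Measurable δ) (hC : ∀ b, ‖δ b‖ ≤ C) :
    Integrable (fun a => ‖∫ b, f b • δ b ∂κ a‖ ^ 2 / ∫ b, f b ∂κ a) ma := by
  obtain ⟨K, K0, hK⟩ := hf.bdd
  have hk := hf.kernel κ
  obtain ⟨K', K0', hK'⟩ := hk.bdd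
  have hm : Measurable fun a => ∫ b, f b • δ b ∂κ a :=
    ((hf.1.smul hδ).stronglyMeasurable.integral_kernel (κ := κ)).measurable
  refine Integrable.of_bound ((hm.norm.pow_const 2).div hk.1).aestronglyMeasurable
    ((K * C) ^ 2 * K') (Eventually.of_forall fun a => ?_)
  have h1 : ‖∫ b, f b • δ b ∂κ a‖ ≤ K * C := by
    have := norm_integral_le_of_norm_le_const (μ := κ a) (f := fun b => f b • δ b) (C := K * C)
      (Eventually.of_forall fun b => by
        rw [norm_smul]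
        exact mul_le_mul (hK b).1 (hC b) (norm_nonneg _) K0)
    simpa using this
  rw [div_eq_mul_inv, norm_mul, norm_pow, norm_norm]
  exact mul_le_mul (pow_le_pow_left₀ (norm_nonneg _) h1 2) (hK' a).2.2.2 (norm_nonneg _)
    (sq_nonneg _)

end StepA

theorem step_T2 (hf : PB f) (hδ : Measurable δ) (hC : ∀ b, ‖δ b‖ ≤ C) (β : ℝ) :
    Integrable (fun w => Hh ma fun a => mix (κ a) f δ β w) (gam E) ∧
      Hh ma (fun a => ∫ b, f b ∂κ a) +
          β ^ 2 / 2 * ∫ a, ‖∫ b, f b • δ b ∂κ a‖ ^ 2 / ∫ b, f b ∂κ a ∂ma ≤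
        ∫ w, Hh ma (fun a => mix (κ a) f δ β w) ∂gam E := by
  have := gam_prob (E := E)
  have hj := StepA.joint (ma := ma) (κ := κ) hf hδ hC β
  refine ⟨hj.integral_prod_right, ?_⟩
  have hq := StepA.quot (ma := ma) (κ := κ) hf hδ hC
  have h1 := (hf.kernel κ).int_log ma
  have e := integral_integral_swap (μ := ma) (ν := gam E)
    (f := fun a w => mix (κ a) f δ β w * log (mix (κ a) f δ β w)) hj
  unfold Hh
  rw [← e, ← integral_const_mul, ← integral_add h1 (hq.const_mul _)]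
  exact integral_mono (h1.add (hq.const_mul _)) hj.integral_prod_left fun a =>
    mix_lower (ρ := κ a) hf hδ hC β

theorem step_abs {mb : Measure B} (hm : mb = κ ∘ₘ ma) (hf : PB f) (hδ : Measurable δ)
    (hC : ∀ b, ‖δ b‖ ≤ C) (β : ℝ) (h1 : ∫ b, f b ∂mb = 1) (hl : Measurable l)
    (hl' : ∀ b, |l b| ≤ C) {L a₀ M : ℝ} (hL : 0 ≤ L) (hS : Spr mb f l δ L)
    (hD : ∀ F : B → ℝ, PB F → Ent ma (fun a => ∫ b, F b ∂κ a) - M * ∫ b, F b ∂mb ≤
      a₀ * (Hh mb F - Hh ma fun a => ∫ b, F b ∂κ a)) (ha : 0 ≤ a₀) :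
    (1 + a₀) * (Hh ma (fun a => ∫ b, f b ∂κ a) +
        β ^ 2 / 2 * ∫ a, ‖∫ b, f b • δ b ∂κ a‖ ^ 2 / ∫ b, f b ∂κ a ∂ma) ≤
      a₀ * (Hh mb f + β ^ 2 / 2 * ∫ b, f b * ‖δ b‖ ^ 2 ∂mb) +
        8 * L * β ^ 2 * (∫ b, l b ∂mb + β ^ 2 / 2 * ∫ b, f b * ‖δ b‖ ^ 2 ∂mb) + M := by
  have : IsProbabilityMeasure mb := by rw [hm]; infer_instance
  obtain ⟨K, -, hK⟩ := hf.bdd
  obtain ⟨i1, e1⟩ := step_T1 (ρ := mb) hf hδ hC β
  obtain ⟨i2, e2⟩ := step_T2 (ma := ma) (κ := κ) hf hδ hC β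
  obtain ⟨i3, e3⟩ := mix_swap (ρ := mb) hδ hC β hf.1 fun b => (hK b).1
  have hmm := mix_meas (ρ := mb) hf hδ β
  have i4 : Integrable (fun w => mix mb f δ β w * log (mix mb f δ β w)) (gam E) :=
    gam_tail.int (hmm.mul hmm.log).aestronglyMeasurable
      ((mix_xg hf hδ hC β).mul_log fun w => (mix_pos hf hδ hC β w).le)
  have e4 := mix_upper hf hδ hC β h1 hl hl' hL hS
  have key : ∀ w, (1 + a₀) * Hh ma (fun a => mix (κ a) f δ β w) ≤
      a₀ * Hh mb (fun b => f b * ew β (δ b) w) + mix mb f δ β w * log (mix mb f δ β w) +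
        M * ∫ b, f b * ew β (δ b) w ∂mb := fun w => by
    have hp := hf.mul (ew_pb hδ hC β w)
    have h := hD _ hp
    have e : ∫ a, ∫ b, f b * ew β (δ b) w ∂κ a ∂ma = mix mb f δ β w := by
      rw [← int_comp ma κ (hm ▸ hp.int mb), ← hm]
      rfl
    unfold Ent at h
    rw [e] at h
    unfold Hh mix at *
    linarith
  have i5 : Integrable (fun w => a₀ * Hh mb (fun b => f b * ew β (δ b) w) +
      mix mb f δ β w * log (mix mb f δ β w)) (gam E) := (i1.const_mul a₀).add i4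
  have h := integral_mono (i2.const_mul (1 + a₀)) (i5.add (i3.const_mul M)) key
  simp only [Pi.add_apply] at h
  rw [integral_add i5 (i3.const_mul M), integral_add (i1.const_mul a₀) i4,
    integral_const_mul, integral_const_mul, integral_const_mul, e1, e3, h1] at h
  have e5 := mul_le_mul_of_nonneg_left e2 (show 0 ≤ 1 + a₀ by linarith)
  unfold Hh at e4
  linarith

end Vale.Agent.P245B
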