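import Vale.Agent.P245C.Cls

/-! Removing a small defect. -/

open MeasureTheory ProbabilityTheory Real Set Filter Topology
open scoped ENNReal RealInnerProductSpace

noncomputable section

namespace Vale.Agent.P245B

open Vale.Agent.P245 (Ent gibbs Ent_nonneg)

set_option linter.unusedSectionVars false

variable {E : Type} [NormedAddCommGroup E] [InnerProductSpace ℝ E] [FiniteDimensional ℝ E]
  [CompleteSpace E] [MeasurableSpace E] [BorelSpace E]

variable {μ : Measure E} [IsProbabilityMeasure μ] {k D : ℝ}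

namespace Tight

theorem int_grad {f : E → ℝ} (hf : Bd f) : Integrable (fun x => ‖gradient f x‖ ^ 2) μ := by
  obtain ⟨M, h⟩ := hf.2
  refine P245.int_of_nonneg_le (hf.lc.grad_cont.norm.pow 2).measurable (fun x => sq_nonneg _)
    (C := M ^ 2) fun x => pow_le_pow_left₀ (norm_nonneg _) (h x).2 2

theorem int_sq {f : E → ℝ} (hf : Bd f) : Integrable (fun x => f x ^ 2) μ := by
  obtain ⟨M, h⟩ := hf.2
  refine P245.int_of_nonneg_le (hf.cont.pow 2).measurable (fun x => sq_nonneg _)
    (C := M ^ 2) fun x => ?_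
  rw [← sq_abs]
  exact pow_le_pow_left₀ (abs_nonneg _) (h x).1 2

theorem comp {f : E → ℝ} (hf : Bd f) {φ ψ : ℝ → ℝ} (hφ : ∀ t, HasDerivAt φ (ψ t) t)
    (hψ : Continuous ψ) (h1 : ∀ t, |ψ t| ≤ 1) {C : ℝ} (hC : 0 ≤ C) (h2 : ∀ t, |φ t| ≤ |t| + C) :
    Bd (fun x => φ (f x)) ∧ Dir μ (fun x => φ (f x)) ≤ Dir μ f := by
  have a1 : ∀ x, ‖gradient (fun x => φ (f x)) x‖ ≤ ‖gradient f x‖ := fun x => by
    have a2 := ((hφ (f x)).comp_hasFDerivAt x
      (hf.1.differentiable one_ne_zero x).hasFDerivAt).fderiv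
    rw [norm_grad, norm_grad]
    refine (congrArg norm a2).le.trans ?_
    rw [norm_smul]
    exact mul_le_of_le_one_left (norm_nonneg _) (h1 _)
  have a3 : ContDiff ℝ 1 φ := contDiff_one_iff_deriv.2 ⟨fun t => (hφ t).differentiableAt, by
    rwa [show deriv φ = ψ from funext fun t => (hφ t).deriv]⟩
  obtain ⟨M, hM⟩ := hf.2
  refine ⟨⟨a3.comp hf.1, M + C, fun x => ⟨(h2 _).trans (by linarith [(hM x).1]),
    (a1 x).trans (by linarith [(hM x).2])⟩⟩, integral_mono_of_nonneg
    (Eventually.of_forall fun x => sq_nonneg _) (int_grad hf)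
    (Eventually.of_forall fun x => pow_le_pow_left₀ (norm_nonneg _) (a1 x) 2)⟩

theorem union_le {A : ℕ → Set E} (hA : Monotone A) {c : ℝ} (h : ∀ n, μ.real (A n) ≤ c) :
    μ.real (⋃ n, A n) ≤ c :=
  le_of_tendsto' ((ENNReal.tendsto_toReal (measure_ne_top μ _)).comp
    (tendsto_measure_iUnion_atTop (μ := μ) hA)) h

theorem cutoff {η : ℝ} (hη : 0 < η) : ∃ φ ψ : ℝ → ℝ, (∀ t, HasDerivAt φ (ψ t) t) ∧ Continuous ψ ∧
    (∀ t, |ψ t| ≤ 1) ∧ (∀ t, |φ t| ≤ |t| + 0) ∧ (∀ t, t ≤ 0 → φ t = 0) ∧
    ∀ t, 0 ≤ φ t ∧ max t 0 ≤ φ t + η := by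
  set ψ : ℝ → ℝ := fun s => max 0 (min 1 (s / η)) with hψ
  have c : Continuous ψ := by fun_prop
  have p0 : ∀ s, 0 ≤ ψ s := fun s => le_max_left _ _
  have p1 : ∀ s, |ψ s| ≤ 1 := fun s => by
    rw [abs_of_nonneg (p0 s)]
    exact max_le zero_le_one (min_le_left _ _)
  have z : ∀ t, t ≤ 0 → ∫ s in (0 : ℝ)..t, ψ s = 0 := fun t ht => by
    rw [intervalIntegral.integral_congr (g := fun _ => 0) fun s hs => ?_,
      intervalIntegral.integral_zero]
    rw [uIcc_of_ge ht] at hs
    exact max_eq_left ((min_le_right _ _).trans (div_nonpos_of_nonpos_of_nonneg hs.2 hη.le))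
  have n : ∀ t, 0 ≤ ∫ s in (0 : ℝ)..t, ψ s := fun t => by
    rcases le_total t 0 with ht | ht
    · exact (z t ht).ge
    · exact intervalIntegral.integral_nonneg ht fun s _ => p0 s
  refine ⟨fun t => ∫ s in (0 : ℝ)..t, ψ s, ψ, fun t => (c.integral_hasStrictDerivAt 0 t).hasDerivAt,
    c, p1, fun t => ?_, z, fun t => ⟨n t, max_le ?_ (by linarith [n t])⟩⟩
  · simpa using intervalIntegral.norm_integral_le_of_norm_le_const (a := 0) (b := t) (f := ψ)
      (C := 1) fun s _ => p1 s
  rcases le_total t η with ht | ht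
  · linarith [n t]
  have a1 : ∫ s in η..t, ψ s = t - η := by
    rw [intervalIntegral.integral_congr (g := fun _ => 1) fun s hs => ?_]
    · simp
    rw [uIcc_of_le ht] at hs
    simp only [hψ]
    rw [min_eq_left ((one_le_div hη).2 hs.1), max_eq_right zero_le_one]
  have a2 := intervalIntegral.integral_add_adjacent_intervals (c.intervalIntegrable (μ := volume) 0 η)
    (c.intervalIntegrable η t)
  linarith [n η]

end Tight

theorem DL.sq (h : DL μ k D) (hk : 0 ≤ k) {f : E → ℝ} (hf : Bd f) :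
    Ent μ (fun x => f x ^ 2) ≤ k * Dir μ f + D * ∫ x, f x ^ 2 ∂μ := by
  obtain ⟨M, hM⟩ := hf.2
  refine P245.Ent_le_of_forall (C := M ^ 2) (B := D) (hf.cont.measurable.pow_const 2)
    (fun x => sq_nonneg _) (fun x => ?_) fun δ hδ _ => ?_
  · rw [← sq_abs]
    exact pow_le_pow_left₀ (abs_nonneg _) (hM x).1 2
  obtain ⟨hg, hgr⟩ := hf.log_sq hδ
  have hp : ∀ x, 0 < f x ^ 2 + δ := fun x => by positivity
  have h1 := h _ hg
  simp only [Fi, exp_log (hp _), hgr] at h1
  rw [integral_add (Tight.int_sq hf) (integrable_const δ), integral_const, probReal_univ,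
    one_smul] at h1
  have h2 : ∫ x, ‖(2 * f x / (f x ^ 2 + δ)) • gradient f x‖ ^ 2 * (f x ^ 2 + δ) ∂μ ≤ 4 * Dir μ f := by
    rw [Dir, ← integral_const_mul 4]
    refine integral_mono_of_nonneg (Eventually.of_forall fun x => mul_nonneg (sq_nonneg _) (hp x).le)
      ((Tight.int_grad hf).const_mul 4) (Eventually.of_forall fun x => ?_)
    have e : (2 * f x / (f x ^ 2 + δ)) ^ 2 * (f x ^ 2 + δ) ≤ 4 := by
      rw [div_pow, pow_two (f x ^ 2 + δ), ← div_div, div_mul_cancel₀ _ (hp x).ne',
        div_le_iff₀ (hp x)]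
      nlinarith
    dsimp only
    rw [norm_smul, mul_pow, Real.norm_eq_abs, sq_abs, mul_right_comm]
    exact mul_le_mul_of_nonneg_right e (sq_nonneg _)
  nlinarith [mul_le_mul_of_nonneg_left h2 hk]

theorem exists_median {f : E → ℝ} (hf : Measurable f) {M : ℝ} (hM : ∀ x, |f x| ≤ M) :
    ∃ t : ℝ, μ.real {x | t < f x} ≤ 1 / 2 ∧ μ.real {x | f x < t} ≤ 1 / 2 := by
  set S := {s : ℝ | μ.real {x | s < f x} ≤ 1 / 2} with hS
  have s1 : M ∈ S := by
    have : {x | M < f x} = ∅ := eq_empty_of_forall_notMem fun x hx =>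
      absurd (abs_le.1 (hM x)).2 (not_le.2 hx)
    simp [hS, this]
  have s2 : BddBelow S := ⟨-M, fun s hs => le_of_not_gt fun h => by
    have : {x | s < f x} = univ := eq_univ_of_forall fun x => h.trans_le (abs_le.1 (hM x)).1
    simp only [hS, mem_ofPred_eq, this, probReal_univ] at hs
    linarith⟩
  have p : ∀ n : ℕ, (0 : ℝ) < 1 / (n + 1) := fun n => by positivity
  have a : ∀ n m : ℕ, n ≤ m → (1 : ℝ) / (m + 1) ≤ 1 / (n + 1) := fun n m h =>
    Nat.one_div_le_one_div h
  refine ⟨sInf S, ?_, ?_⟩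
  · refine (measureReal_mono fun x hx => ?_).trans (Tight.union_le
      (A := fun n => {x | sInf S + 1 / (n + 1) < f x})
      (fun n m h x hx => lt_of_le_of_lt (add_le_add_right (a n m h) _) hx) fun n => ?_)
    · obtain ⟨n, hn⟩ := exists_nat_one_div_lt (show 0 < f x - sInf S from sub_pos.2 hx)
      exact mem_iUnion.2 ⟨n, by simp only [mem_ofPred_eq]; linarith⟩
    · obtain ⟨s, hs, h⟩ := exists_lt_of_csInf_lt ⟨M, s1⟩ (lt_add_of_pos_right (sInf S) (p n))
      exact (measureReal_mono fun x hx => h.trans hx).trans hs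
  · refine (measureReal_mono fun x hx => ?_).trans (Tight.union_le
      (A := fun n => {x | sInf S - 1 / (n + 1) < f x}ᶜ)
      (fun n m h x hx h' => hx (lt_of_le_of_lt (sub_le_sub_left (a n m h) _) h')) fun n => ?_)
    · obtain ⟨n, hn⟩ := exists_nat_one_div_lt (show 0 < sInf S - f x from sub_pos.2 hx)
      exact mem_iUnion.2 ⟨n, by simp only [mem_compl_iff, mem_ofPred_eq, not_lt]; linarith⟩
    · have h1 : sInf S - 1 / (n + 1) ∉ S := notMem_of_lt_csInf (by linarith [p n]) s2
      simp only [hS, mem_ofPred_eq, not_le] at h1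
      rw [probReal_compl_eq_one_sub (measurableSet_lt measurable_const hf)]
      linarith

theorem half_supp (h : DL μ k (1 / 2)) (hk : 0 ≤ k) {f : E → ℝ} (hf : Bd f)
    (hs : μ.real {x | 0 < f x} ≤ 1 / 2) : ∫ x, max (f x) 0 ^ 2 ∂μ ≤ 11 * k * Dir μ f := by
  obtain ⟨M, hM⟩ := hf.2
  have ms : MeasurableSet {x | 0 < f x} := measurableSet_lt measurable_const hf.cont.measurable
  refine Poin.le_of_small (C := 2 * M + 1) one_pos fun η hη η1 => ?_
  obtain ⟨φ, ψ, a1, a2, a3, a4, a5, a6⟩ := Tight.cutoff hη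
  obtain ⟨b1, b2⟩ := Tight.comp (μ := μ) hf a1 a2 a3 le_rfl a4
  have b3 := h.sq hk b1
  have b4 : ∀ x, φ (f x) ≤ M := fun x => by linarith [le_abs_self (φ (f x)), a4 (f x), (hM x).1]
  have e : ∀ x, exp (log (if 0 < f x then (1 : ℝ) else 1 / 20)) = if 0 < f x then 1 else 1 / 20 :=
    fun x => exp_log (by split_ifs <;> norm_num)
  have z : ∀ x, φ (f x) ^ 2 * log (if 0 < f x then (1 : ℝ) else 1 / 20) = 0 := fun x => by
    split_ifs with hx
    · simp
    · simp [a5 _ (not_lt.1 hx)]
  have i1 : Integrable (fun x => {x | 0 < f x}.indicator (1 : E → ℝ) x + 1 / 20) μ :=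
    ((integrable_const 1).indicator ms).add (integrable_const _)
  have i2 : ∀ x, (if 0 < f x then (1 : ℝ) else 1 / 20) ≤
      {x | 0 < f x}.indicator (1 : E → ℝ) x + 1 / 20 := fun x => by
    simp only [indicator, mem_ofPred_eq, Pi.one_apply]
    split_ifs <;> norm_num
  have b5 := gibbs (μ := μ) (w := fun x => φ (f x) ^ 2)
    (G := fun x => log (if 0 < f x then (1 : ℝ) else 1 / 20)) (fun x => sq_nonneg _) (Tight.int_sq b1)
    (P245.int_mul_log (b1.cont.pow 2).measurable (fun x => sq_nonneg _) (C := M ^ 2) fun x =>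
      pow_le_pow_left₀ (a6 _).1 (b4 x) 2) (by simp only [z]; exact integrable_const _)
    (by
      simp only [e]
      exact P245.int_of_nonneg_le (Measurable.ite ms measurable_const measurable_const)
        (fun x => by split_ifs <;> norm_num) (C := 1) fun x => by split_ifs <;> norm_num)
    (Z := 11 / 10 / 2) (by norm_num) (by
      simp only [e]
      refine (integral_mono_of_nonneg (Eventually.of_forall fun x => ?_) i1
        (Eventually.of_forall i2)).trans ?_
      · change (0 : ℝ) ≤ if 0 < f x then 1 else 1 / 20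
        split_ifs <;> norm_num
      · rw [integral_add ((integrable_const 1).indicator ms) (integrable_const _),
          integral_indicator_one ms, integral_const, probReal_univ, one_smul]
        linarith)
  simp only [z, integral_zero] at b5
  have b6 : log (11 / 10 / 2 : ℝ) ≤ -(13 / 22) := by
    rw [log_div (by norm_num) two_ne_zero]
    linarith [log_le_sub_one_of_pos (by norm_num : (0 : ℝ) < 11 / 10), log_two_gt_d9]
  have b7 : 0 ≤ ∫ x, φ (f x) ^ 2 ∂μ := integral_nonneg fun x => sq_nonneg _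
  have b8 : ∫ x, max (f x) 0 ^ 2 ∂μ ≤ ∫ x, (φ (f x) ^ 2 + η * (2 * M + 1)) ∂μ := by
    refine integral_mono_of_nonneg (Eventually.of_forall fun x => sq_nonneg _)
      ((Tight.int_sq b1).add (integrable_const _)) (Eventually.of_forall fun x => ?_)
    have c1 := pow_le_pow_left₀ (le_max_right _ _) (a6 (f x)).2 2
    have c2 := mul_le_mul_of_nonneg_left (b4 x) hη.le
    have c3 := mul_le_mul_of_nonneg_left η1 hη.le
    dsimp only
    nlinarith
  rw [integral_add (Tight.int_sq b1) (integrable_const _), integral_const, probReal_univ,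
    one_smul] at b8
  nlinarith [mul_le_mul_of_nonneg_left b6 b7, mul_le_mul_of_nonneg_left b2 hk]

theorem DL.tight (h : DL μ k (1 / 2)) (hk : 0 ≤ k) : LSI μ (200 * k) := by
  intro f hf
  have hb := hf.bd
  obtain ⟨M, hM⟩ := hb.2
  obtain ⟨t, t1, t2⟩ := exists_median (μ := μ) hb.cont.measurable fun x => (hM x).1
  have s1 : ∀ c : ℝ, Bd (fun x => f x - c) ∧ Dir μ (fun x => f x - c) ≤ Dir μ f := fun c =>
    Tight.comp hb (φ := fun s => s - c) (ψ := fun _ => 1) (fun s => (hasDerivAt_id s).sub_const c)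
      continuous_const (fun _ => abs_one.le) (abs_nonneg c) fun s => abs_sub s c
  obtain ⟨s2, s3⟩ : Bd (fun x => t - f x) ∧ Dir μ (fun x => t - f x) ≤ Dir μ f :=
    Tight.comp hb (φ := fun s => t - s) (ψ := fun _ => -1) (fun s => (hasDerivAt_id s).const_sub t)
      continuous_const (fun _ => by simp) (abs_nonneg t) fun s => by linarith [abs_sub t s]
  have a1 := half_supp h hk (s1 t).1 (by simpa only [sub_pos] using t1)
  have a2 := half_supp h hk s2 (by simpa only [sub_pos] using t2)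
  have im : ∀ {g : E → ℝ}, Bd g → Integrable (fun x => max (g x) 0 ^ 2) μ := fun {g} hg =>
    (Tight.int_sq hg).mono' ((hg.cont.max continuous_const).pow 2).aestronglyMeasurable
      (Eventually.of_forall fun x => by
        rw [Real.norm_eq_abs, abs_of_nonneg (sq_nonneg _)]
        rcases le_total (g x) 0 with h | h
        · rw [max_eq_right h]
          nlinarith [sq_nonneg (g x)]
        · rw [max_eq_left h])
  set m := ∫ y, f y ∂μ with hm
  have i1 : Integrable (fun x => 2 * (m - t) * (f x - m)) μ :=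
    (hf.int.sub (integrable_const m)).const_mul _
  have a3 : ∫ x, ((f x - m) ^ 2 + 2 * (m - t) * (f x - m)) ∂μ ≤
      ∫ x, (max (f x - t) 0 ^ 2 + max (t - f x) 0 ^ 2) ∂μ := by
    refine integral_mono ((Tight.int_sq (s1 m).1).add i1)
      ((im (s1 t).1).add (im s2)) fun x => ?_
    dsimp only
    rcases le_total (f x) t with h | h
    · rw [max_eq_right (sub_nonpos.2 h), max_eq_left (sub_nonneg.2 h)]
      nlinarith [sq_nonneg (m - t)]
    · rw [max_eq_left (sub_nonneg.2 h), max_eq_right (sub_nonpos.2 h)]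
      nlinarith [sq_nonneg (m - t)]
  rw [integral_add (Tight.int_sq (s1 m).1) i1,
    integral_add (im (s1 t).1) (im s2), integral_const_mul, integral_sub hf.int (integrable_const m),
    integral_const, probReal_univ, one_smul, ← hm, sub_self, mul_zero, add_zero] at a3
  have a4 := rothaus (μ := μ) hb.cont.measurable fun x => (hM x).1
  have a5 := h.sq hk (s1 m).1
  rw [← hm] at a4
  nlinarith [mul_le_mul_of_nonneg_left (s1 m).2 hk, mul_le_mul_of_nonneg_left (s1 t).2 hk,
    mul_le_mul_of_nonneg_left s3 hk, mul_nonneg hk (Dir_nonneg μ f)]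

end Vale.Agent.P245B
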