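import Vale.Agent.P245C.Rec
import Vale.Agent.P245C.Base
import Vale.Agent.P245C.Tight

/-! The polylogarithmic bound. -/

open MeasureTheory ProbabilityTheory Real Set Filter Topology
open scoped ENNReal RealInnerProductSpace

noncomputable section

namespace Vale.Agent.P245B

open Vale.Agent.P245 (Ent gibbs Ent_nonneg)

set_option linter.unusedSectionVars false

variable {E : Type} [NormedAddCommGroup E] [InnerProductSpace ℝ E] [FiniteDimensional ℝ E]
  [CompleteSpace E] [MeasurableSpace E] [BorelSpace E]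

namespace Sup

/-- The best constant at a given level. -/
def kk (μ : Measure E) (D : ℝ) : ℝ := sInf {k | 0 ≤ k ∧ DL μ k D}

variable {μ : Measure E} {k K D : ℝ}

theorem kk_le (hk : 0 ≤ k) (h : DL μ k D) : kk μ D ≤ k :=
  csInf_le ⟨0, fun _ h => h.1⟩ ⟨hk, h⟩

theorem kk_spec (hK : 0 ≤ K) (h : DL μ K D) : DL μ (kk μ D) D := by
  have hc : IsClosed {k : ℝ | 0 ≤ k ∧ DL μ k D} := by
    refine isClosed_Ici.inter (s₂ := {k : ℝ | DL μ k D}) ?_
    simp only [DL, ofPred_forall]
    exact isClosed_iInter fun g => isClosed_iInter fun _ =>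
      isClosed_le continuous_const (by fun_prop)
  exact (hc.csInf_mem ⟨K, hK, h⟩ ⟨0, fun _ h => h.1⟩).2

theorem seq {a : ℕ → ℝ} {B θ : ℝ} (hB : 0 < B) (hθ : 1 < θ) (hK : ∀ i, a i ≤ K) (h0 : a 0 ≤ B)
    (h : ∀ i, B ≤ a (i + 1) → a (i + 2) ≤ θ * a (i + 1) → θ * a i ≤ a (i + 1) → False) (i : ℕ) :
    a i ≤ B * θ ^ i := by
  by_contra hi
  have hθ0 : 0 < θ := by linarith
  obtain ⟨T, hT⟩ := pow_unbounded_of_one_lt (K / B) hθ
  have hT' : ∀ j, T ≤ j → a j / θ ^ j ≤ B := fun j hj => by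
    rw [div_le_iff₀ (by positivity)]
    rw [div_lt_iff₀ hB] at hT
    have := mul_le_mul_of_nonneg_left (pow_le_pow_right₀ hθ.le hj) hB.le
    linarith [hK j]
  have hi' : B < a i / θ ^ i := by
    rw [lt_div_iff₀ (by positivity)]
    exact not_le.1 hi
  obtain ⟨j, hj, hmax⟩ := Finset.exists_max_image (Finset.range (T + 1)) (fun j => a j / θ ^ j)
    ⟨0, by simp⟩
  have hiT : i < T := not_le.1 fun h => absurd (hT' i h) (not_le.2 hi')
  have hj' : B < a j / θ ^ j := hi'.trans_le (hmax i (by simp; omega))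
  have hjT : j < T := not_le.1 fun h => absurd (hT' j h) (not_le.2 hj')
  rcases j with _ | j
  · simp at hj'
    linarith
  have h1 := hmax (j + 2) (by simp; omega)
  have h2 := hmax j (by simp; omega)
  have hp : 0 < θ ^ j := by positivity
  refine h j ?_ ?_ ?_
  · rw [lt_div_iff₀ (by positivity)] at hj'
    have := mul_le_mul_of_nonneg_left (one_le_pow₀ hθ.le (n := j + 1)) hB.le
    linarith
  · rw [div_le_div_iff₀ (by positivity) (by positivity)] at h1
    refine le_of_mul_le_mul_right ?_ (by positivity : 0 < θ ^ (j + 1))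
    calc _ ≤ _ := h1
      _ = _ := by ring
  · rw [div_le_div_iff₀ (by positivity) (by positivity)] at h2
    refine le_of_mul_le_mul_right ?_ hp
    calc _ = a j * θ ^ (j + 1) := by ring
      _ ≤ _ := h2

end Sup

theorem dl_poly {V : E → ℝ} {L : ℝ} (hV : Pot V 0) (h : SG (ms V) 0 L 0) (hL : 0 < L) {m : ℕ}
    (hm : 100 ≤ m) (hn : 2 * ((Module.finrank ℝ E : ℝ) + 1) ≤ 2 ^ m) :
    DL (ms V) (exp 28 * 64 * L * (m : ℝ) ^ 6) (1 / 2) := by
  have := hV.prob
  have hC := one_le_C1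
  set N : ℝ := (Module.finrank ℝ E : ℝ) + 1 with hN
  have hn0 : (0 : ℝ) ≤ Module.finrank ℝ E := Nat.cast_nonneg _
  have hN1 : 1 ≤ N := by linarith
  have hm' : (100 : ℝ) ≤ m := by exact_mod_cast hm
  have hm0 : (0 : ℝ) < m := by linarith
  have hK0 : 0 ≤ 984000 * C1 * N * L := by positivity
  have hK : ∀ i : ℕ, DL (ms V) (984000 * C1 * N * L) (N / 2 ^ i) := fun i =>
    ((main_pot hV h hL hN1 (by nlinarith [one_le_pow₀ (n := 2) hN1])).dl (h.tail hL)).mono le_rfl
      (by positivity)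
  have hS := fun i : ℕ => Sup.kk_spec hK0 (hK i)
  have h6 : (1 : ℝ) ≤ (m : ℝ) ^ 6 := one_le_pow₀ (by linarith)
  have hθ : (0 : ℝ) < 28 / m := by positivity
  have hθ' : (28 : ℝ) / m ≤ 1 := by
    rw [div_le_one hm0]
    linarith
  have key := Sup.seq (a := fun i : ℕ => Sup.kk (ms V) (N / 2 ^ i)) (B := 64 * L * (m : ℝ) ^ 6)
    (θ := 1 + 28 / m) (by positivity) (by linarith) (fun i => Sup.kk_le hK0 (hK i))
    ((Sup.kk_le (by positivity) ((dl_base hV h hL).mono le_rfl (by simp [hN]))).trans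
      (le_mul_of_one_le_right (by positivity) h6)) (fun i h1 h2 h3 => by
      set k := Sup.kk (ms V) (N / 2 ^ (i + 1)) with hk
      have hLm : 0 < L * (m : ℝ) ^ 6 := by positivity
      have k0 : 0 < k := by linarith
      have hr := recur hV h hL hm (k := k) (D := N / 2 ^ (i + 1)) (by linarith) (by positivity)
        (hS (i + 1)) ((hS (i + 2)).mono (by nlinarith) (le_of_eq (by ring)))
        ((hS i).mono (by
          refine le_of_mul_le_mul_left (h3.trans ?_) (by linarith : 0 < 1 + 28 / (m : ℝ))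
          have e : (14 : ℝ) / m = 28 / m / 2 := by ring
          have h4 : 0 ≤ 28 / (m : ℝ) * (1 - 28 / m) * k := by
            have : 0 ≤ 1 - 28 / (m : ℝ) := by linarith
            positivity
          rw [e]
          nlinarith) (le_of_eq (by field_simp; ring)))
      have h5 : 1 / (m : ℝ) ^ 2 ≤ 1 := by
        rw [div_le_one (by positivity)]
        exact one_le_pow₀ (by linarith)
      have h7 := Sup.kk_le (mul_nonneg (by linarith) k0.le) hr
      have h8 : 0 < 1 / (m : ℝ) ^ 2 * k := by positivity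
      linarith) m
  refine (hS m).mono (key.trans ?_) ?_
  · have h1 : (1 + 28 / (m : ℝ)) ^ m ≤ exp 28 := by
      have h2 : 1 + 28 / (m : ℝ) ≤ exp (28 / m) := by linarith [add_one_le_exp (28 / (m : ℝ))]
      refine (pow_le_pow_left₀ (by positivity) h2 m).trans_eq ?_
      rw [← exp_nat_mul]
      congr 1
      field_simp
    have := mul_le_mul_of_nonneg_left h1 (by positivity : 0 ≤ 64 * L * (m : ℝ) ^ 6)
    linarith
  · rw [div_le_iff₀ (by positivity)]
    linarith

theorem main_poly {ρ : E → ℝ} {μ : Measure E} [IsProbabilityMeasure μ] {a : ℝ} (h : LCd ρ 0)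
    (hμ : μ = volume.withDensity fun x => ENNReal.ofReal (ρ x)) (ha : 0 < a)
    (hs : ∀ θ : E, ‖θ‖ = 1 → ∫⁻ x, ENNReal.ofReal (exp (⟪x, θ⟫ ^ 2 / a ^ 2)) ∂μ ≤ 2)
    (h0 : ∫ x, x ∂μ = 0) {m : ℕ} (hm : 100 ≤ m)
    (hn : 2 * ((Module.finrank ℝ E : ℝ) + 1) ≤ 2 ^ m) :
    LSI μ (3200 * exp 28 * C1 * (m : ℝ) ^ 6 * a ^ 2) := by
  have hC := one_le_C1
  have h1 := sg_of_psi ha hs
  have h2 := h1.center (by positivity)
  rw [h0] at h2
  have hT : Tail μ := h1.tail (by positivity)
  refine lsi_lim (K := fun j : ℕ =>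
    200 * (exp 28 * 64 * (C1 * (a ^ 2 / 4) + 1 / ((j : ℝ) + 1) / 2) * (m : ℝ) ^ 6))
    ?_ (Eventually.of_forall fun j => ?_)
  · have t1 := ((tendsto_one_div_add_atTop_nhds_zero_nat (𝕜 := ℝ)).div_const 2).const_add
      (C1 * (a ^ 2 / 4))
    have t2 := ((t1.const_mul (exp 28 * 64)).mul_const ((m : ℝ) ^ 6)).const_mul 200
    have e : 200 * (exp 28 * 64 * (C1 * (a ^ 2 / 4) + 0 / 2) * (m : ℝ) ^ 6) =
        3200 * exp 28 * C1 * (m : ℝ) ^ 6 * a ^ 2 := by ring
    rwa [e] at t2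
  · have ht : (0 : ℝ) < 1 / ((j : ℝ) + 1) := by positivity
    have hP := pot_Vt h le_rfl ht hμ hT
    rw [zero_div] at hP
    have := hP.prob
    exact (dl_poly hP (sg_Vt ht h2) (by positivity) hm hn).tight (by positivity)

end Vale.Agent.P245B
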